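import Vale.Agent.Lib.P358.ECI

/-!
# P358: mechanical facts about the tensor powers of the channel
-/

open Matrix Real
open scoped ComplexOrder

namespace Vale.Agent.P358

/-- Kraus form. -/
def HasKraus {α : Type} [Fintype α] (Φ : Matrix α α ℂ → Matrix α α ℂ) : Prop :=
  ∃ (m : ℕ) (K : Fin m → Matrix α α ℂ), ∀ X, Φ X = ∑ i, K i * X * (K i)ᴴ

lemma gad_apply_00 (γ ν : ℝ) (X : Matrix (Fin 2) (Fin 2) ℂ) :
    gad γ ν X 0 0 =
      X 0 0 + X 1 1 - (((1 - γ : ℝ) : ℂ) * X 1 1 + ((γ * ν : ℝ) : ℂ) * (X 0 0 + X 1 1)) := by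
  simp [gad]

lemma gad_apply_01 (γ ν : ℝ) (X : Matrix (Fin 2) (Fin 2) ℂ) :
    gad γ ν X 0 1 = ((√(1 - γ) : ℝ) : ℂ) * X 0 1 := by
  simp [gad]

lemma gad_apply_10 (γ ν : ℝ) (X : Matrix (Fin 2) (Fin 2) ℂ) :
    gad γ ν X 1 0 = ((√(1 - γ) : ℝ) : ℂ) * X 1 0 := by
  simp [gad]

lemma gad_apply_11 (γ ν : ℝ) (X : Matrix (Fin 2) (Fin 2) ℂ) :
    gad γ ν X 1 1 = ((1 - γ : ℝ) : ℂ) * X 1 1 + ((γ * ν : ℝ) : ℂ) * (X 0 0 + X 1 1) := by
  simp [gad]

lemma gad_add (γ ν : ℝ) (X Y : Matrix (Fin 2) (Fin 2) ℂ) :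
    gad γ ν (X + Y) = gad γ ν X + gad γ ν Y := by
  ext i j
  fin_cases i <;> fin_cases j <;> simp only [Fin.zero_eta, Fin.mk_one, Matrix.add_apply,
    gad_apply_00, gad_apply_01, gad_apply_10, gad_apply_11] <;> ring

lemma gad_smul (γ ν : ℝ) (a : ℂ) (X : Matrix (Fin 2) (Fin 2) ℂ) :
    gad γ ν (a • X) = a • gad γ ν X := by
  ext i j
  fin_cases i <;> fin_cases j <;> simp only [Fin.zero_eta, Fin.mk_one, Matrix.smul_apply,
    smul_eq_mul, gad_apply_00, gad_apply_01, gad_apply_10, gad_apply_11] <;> ring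

lemma gad_trace (γ ν : ℝ) (X : Matrix (Fin 2) (Fin 2) ℂ) :
    (gad γ ν X).trace = X.trace := by
  simp only [Matrix.trace_fin_two, gad_apply_00, gad_apply_11]
  ring

lemma hasKraus_gad (γ ν : ℝ) (h0 : 0 ≤ γ) (h1 : γ ≤ 1) (h2 : 0 ≤ ν) (h3 : ν ≤ 1) :
    HasKraus (gad γ ν) := by
  refine ⟨4, ![((√(1 - ν) : ℝ) : ℂ) • !![1, 0; 0, ((√(1 - γ) : ℝ) : ℂ)],
      ((√(1 - ν) : ℝ) : ℂ) • !![0, ((√γ : ℝ) : ℂ); 0, 0],
      ((√ν : ℝ) : ℂ) • !![((√(1 - γ) : ℝ) : ℂ), 0; 0, 1],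
      ((√ν : ℝ) : ℂ) • !![0, 0; ((√γ : ℝ) : ℂ), 0]], fun X => ?_⟩
  have e1 : (((√(1 - ν) : ℝ) : ℂ)) * ((√(1 - ν) : ℝ) : ℂ) = 1 - (ν : ℂ) := by
    rw [← Complex.ofReal_mul, Real.mul_self_sqrt (by linarith)]; push_cast; ring
  have e2 : (((√(1 - γ) : ℝ) : ℂ)) * ((√(1 - γ) : ℝ) : ℂ) = 1 - (γ : ℂ) := by
    rw [← Complex.ofReal_mul, Real.mul_self_sqrt (by linarith)]; push_cast; ring
  have e3 : (((√ν : ℝ) : ℂ)) * ((√ν : ℝ) : ℂ) = (ν : ℂ) := by
    rw [← Complex.ofReal_mul, Real.mul_self_sqrt h2]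
  have e4 : (((√γ : ℝ) : ℂ)) * ((√γ : ℝ) : ℂ) = (γ : ℂ) := by
    rw [← Complex.ofReal_mul, Real.mul_self_sqrt h0]
  ext i j
  rw [Fin.sum_univ_four]
  simp only [Matrix.add_apply, Matrix.cons_val_zero, Matrix.cons_val_one, Matrix.cons_val]
  fin_cases i <;> fin_cases j <;>
    simp [Matrix.mul_apply, Fin.sum_univ_two, gad_apply_00, gad_apply_01, gad_apply_10,
      gad_apply_11, Matrix.conjTranspose_apply, Complex.conj_ofReal, Matrix.vecMul, dotProduct]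
  · linear_combination (-X 0 0 - X 1 1 * ((√γ : ℝ) : ℂ) * ((√γ : ℝ) : ℂ)) * e1
      + (-X 1 1 * (1 - (ν : ℂ))) * e4
      + (-X 0 0 * ((√(1 - γ) : ℝ) : ℂ) * ((√(1 - γ) : ℝ) : ℂ)) * e3 + (-X 0 0 * (ν : ℂ)) * e2
  · linear_combination (-X 0 1 * ((√(1 - γ) : ℝ) : ℂ)) * e1 + (-X 0 1 * ((√(1 - γ) : ℝ) : ℂ)) * e3
  · linear_combination (-X 1 0 * ((√(1 - γ) : ℝ) : ℂ)) * e1 + (-X 1 0 * ((√(1 - γ) : ℝ) : ℂ)) * e3
  · linear_combination (-X 1 1 * ((√(1 - γ) : ℝ) : ℂ) * ((√(1 - γ) : ℝ) : ℂ)) * e1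
      + (-X 1 1 * (1 - (ν : ℂ))) * e2
      + (-X 1 1 - X 0 0 * ((√γ : ℝ) : ℂ) * ((√γ : ℝ) : ℂ)) * e3 + (-X 0 0 * (ν : ℂ)) * e4

/-- Entries of a Kraus conjugation. -/
lemma kraus_apply {α : Type} [Fintype α] (K X : Matrix α α ℂ) (a b : α) :
    (K * X * Kᴴ) a b = ∑ c, ∑ d, K a c * X c d * star (K b d) := by
  simp only [Matrix.mul_apply, Matrix.conjTranspose_apply, Finset.sum_mul]
  rw [Finset.sum_comm]

/-- The Kronecker product of a qubit matrix and a matrix on `α`. -/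
def kron2 {α : Type} (K : Matrix (Fin 2) (Fin 2) ℂ) (L : Matrix α α ℂ) :
    Matrix (Fin 2 × α) (Fin 2 × α) ℂ :=
  fun p q => K p.1 q.1 * L p.2 q.2

/-- The qubit matrix seen by `Φ₁` at the entry `(w, w')` of the other factor. -/
def slice {α : Type} (Φ₂ : Matrix α α ℂ → Matrix α α ℂ) (X : Matrix (Fin 2 × α) (Fin 2 × α) ℂ)
    (w w' : α) : Matrix (Fin 2) (Fin 2) ℂ :=
  Matrix.of fun c d => Φ₂ (block c d X) w w'

lemma slice_apply {α : Type} (Φ₂ : Matrix α α ℂ → Matrix α α ℂ)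
    (X : Matrix (Fin 2 × α) (Fin 2 × α) ℂ) (w w' : α) (c d : Fin 2) :
    slice Φ₂ X w w' c d = Φ₂ (block c d X) w w' := rfl

lemma tensorMap_apply {α : Type} (Φ₁ : Matrix (Fin 2) (Fin 2) ℂ → Matrix (Fin 2) (Fin 2) ℂ)
    (Φ₂ : Matrix α α ℂ → Matrix α α ℂ) (X : Matrix (Fin 2 × α) (Fin 2 × α) ℂ)
    (p p' : Fin 2 × α) :
    tensorMap Φ₁ Φ₂ X p p' = Φ₁ (slice Φ₂ X p.2 p'.2) p.1 p'.1 := rfl

/-- Tensor products of Kraus maps are Kraus maps. -/
lemma hasKraus_tensorMap {α : Type} [Fintype α]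
    (Φ₁ : Matrix (Fin 2) (Fin 2) ℂ → Matrix (Fin 2) (Fin 2) ℂ)
    (Φ₂ : Matrix α α ℂ → Matrix α α ℂ) (h₁ : HasKraus Φ₁) (h₂ : HasKraus Φ₂) :
    HasKraus (tensorMap Φ₁ Φ₂) := by
  obtain ⟨m₁, K, hK⟩ := h₁
  obtain ⟨m₂, L, hL⟩ := h₂
  refine ⟨m₁ * m₂, fun i => kron2 (K (finProdFinEquiv.symm i).1) (L (finProdFinEquiv.symm i).2),
    fun X => ?_⟩
  rw [← finProdFinEquiv.sum_comp]
  simp only [Equiv.symm_apply_apply]
  rw [Fintype.sum_prod_type]
  ext p p'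
  rw [tensorMap_apply, hK]
  simp only [Matrix.sum_apply]
  refine Finset.sum_congr rfl fun i _ => ?_
  rw [kraus_apply]
  simp only [slice_apply, hL, Matrix.sum_apply]
  simp only [kraus_apply, Fintype.sum_prod_type, kron2, star_mul', block]
  simp only [Finset.mul_sum, Finset.sum_mul]
  have key : ∀ F : Fin 2 → Fin 2 → Fin m₂ → α → α → ℂ,
      ∑ c, ∑ d, ∑ j, ∑ w, ∑ w', F c d j w w' = ∑ j, ∑ c, ∑ w, ∑ d, ∑ w', F c d j w w' := by
    intro F
    calc ∑ c, ∑ d, ∑ j, ∑ w, ∑ w', F c d j w w'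
        = ∑ c, ∑ j, ∑ d, ∑ w, ∑ w', F c d j w w' :=
          Finset.sum_congr rfl fun c _ => Finset.sum_comm
      _ = ∑ j, ∑ c, ∑ d, ∑ w, ∑ w', F c d j w w' := Finset.sum_comm
      _ = ∑ j, ∑ c, ∑ w, ∑ d, ∑ w', F c d j w w' :=
          Finset.sum_congr rfl fun j _ => Finset.sum_congr rfl fun c _ => Finset.sum_comm
  refine (key _).trans ?_
  refine Finset.sum_congr rfl fun j _ => Finset.sum_congr rfl fun c _ =>
    Finset.sum_congr rfl fun w _ => Finset.sum_congr rfl fun d _ =>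
    Finset.sum_congr rfl fun w' _ => ?_
  ring

lemma hasKraus_id {α : Type} [Fintype α] [DecidableEq α] : HasKraus (id : Matrix α α ℂ → Matrix α α ℂ) :=
  ⟨1, fun _ => 1, fun X => by simp⟩

lemma hasKraus_gadPow (γ ν : ℝ) (h0 : 0 ≤ γ) (h1 : γ ≤ 1) (h2 : 0 ≤ ν) (h3 : ν ≤ 1) (n : ℕ) :
    HasKraus (gadPow γ ν n) := by
  induction n with
  | zero => exact hasKraus_id
  | succ n ih => exact hasKraus_tensorMap _ _ (hasKraus_gad γ ν h0 h1 h2 h3) ih

lemma posSemidef_of_hasKraus {α : Type} [Fintype α] [DecidableEq α]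
    (Φ : Matrix α α ℂ → Matrix α α ℂ) (hΦ : HasKraus Φ) (X : Matrix α α ℂ) (hX : X.PosSemidef) :
    (Φ X).PosSemidef := by
  obtain ⟨m, K, hK⟩ := hΦ
  rw [hK]
  exact Matrix.posSemidef_sum _ fun i _ => hX.mul_mul_conjTranspose_same (K i)

/-- `id ⊗ Φ` preserves positivity if `Φ` has a Kraus form. -/
lemma posSemidef_tensorMap_id {α : Type} [Fintype α] [DecidableEq α]
    (Φ : Matrix α α ℂ → Matrix α α ℂ) (hΦ : HasKraus Φ) (X : Matrix (Fin 2 × α) (Fin 2 × α) ℂ)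
    (hX : X.PosSemidef) : (tensorMap id Φ X).PosSemidef :=
  posSemidef_of_hasKraus _ (hasKraus_tensorMap _ _ hasKraus_id hΦ) X hX

lemma tensorMap_comp {α : Type} (γ ν : ℝ) (Φ : Matrix α α ℂ → Matrix α α ℂ)
    (X : Matrix (Fin 2 × α) (Fin 2 × α) ℂ) :
    tensorMap (gad γ ν) Φ X = tensorMap (gad γ ν) id (tensorMap id Φ X) := rfl

lemma block_tensorMap_id {α : Type} (Φ : Matrix α α ℂ → Matrix α α ℂ)
    (X : Matrix (Fin 2 × α) (Fin 2 × α) ℂ) (c d : Fin 2) :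
    block c d (tensorMap id Φ X) = Φ (block c d X) := rfl

/-- The trace of a matrix on a qubit tensor `α` is the sum of the traces of its blocks. -/
lemma trace_eq_block {α : Type} [Fintype α] (X : Matrix (Fin 2 × α) (Fin 2 × α) ℂ) :
    X.trace = (block 0 0 X).trace + (block 1 1 X).trace := by
  simp only [Matrix.trace, Matrix.diag, Fintype.sum_prod_type, Fin.sum_univ_two, block]

lemma block_gad_tensorMap_trace {α : Type} [Fintype α] (γ ν : ℝ) (Φ : Matrix α α ℂ → Matrix α α ℂ)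
    (X : Matrix (Fin 2 × α) (Fin 2 × α) ℂ) (hΦ : ∀ Y, (Φ Y).trace = Y.trace) :
    (tensorMap (gad γ ν) Φ X).trace = X.trace := by
  have h : ∀ w, (gad γ ν (slice Φ X w w)).trace
      = Φ (block 0 0 X) w w + Φ (block 1 1 X) w w := by
    intro w
    rw [gad_trace, Matrix.trace_fin_two]
    rfl
  rw [trace_eq_block X, ← hΦ (block 0 0 X), ← hΦ (block 1 1 X)]
  have e : (tensorMap (gad γ ν) Φ X).trace = ∑ w, (gad γ ν (slice Φ X w w)).trace := by
    simp only [Matrix.trace, Matrix.diag, Fintype.sum_prod_type, tensorMap_apply]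
    rw [Finset.sum_comm]
  rw [e]
  simp only [h]
  rw [Finset.sum_add_distrib]
  rfl

lemma trace_gadPow (γ ν : ℝ) (n : ℕ) (X : Matrix (Q n) (Q n) ℂ) :
    (gadPow γ ν n X).trace = X.trace := by
  induction n with
  | zero => rfl
  | succ n ih => exact block_gad_tensorMap_trace γ ν (gadPow γ ν n) X ih

lemma tensorMap_add {α : Type} (Φ₁ : Matrix (Fin 2) (Fin 2) ℂ → Matrix (Fin 2) (Fin 2) ℂ)
    (Φ₂ : Matrix α α ℂ → Matrix α α ℂ)
    (h₁ : ∀ X Y, Φ₁ (X + Y) = Φ₁ X + Φ₁ Y) (h₂ : ∀ X Y, Φ₂ (X + Y) = Φ₂ X + Φ₂ Y)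
    (X Y : Matrix (Fin 2 × α) (Fin 2 × α) ℂ) :
    tensorMap Φ₁ Φ₂ (X + Y) = tensorMap Φ₁ Φ₂ X + tensorMap Φ₁ Φ₂ Y := by
  ext p p'
  rw [Matrix.add_apply, tensorMap_apply, tensorMap_apply, tensorMap_apply, ← Matrix.add_apply,
    ← h₁]
  congr 1
  ext c d
  rw [Matrix.add_apply, slice_apply, slice_apply, slice_apply, ← Matrix.add_apply, ← h₂]
  rfl

lemma tensorMap_smul {α : Type} (Φ₁ : Matrix (Fin 2) (Fin 2) ℂ → Matrix (Fin 2) (Fin 2) ℂ)
    (Φ₂ : Matrix α α ℂ → Matrix α α ℂ) (a : ℂ)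
    (h₁ : ∀ X, Φ₁ (a • X) = a • Φ₁ X) (h₂ : ∀ X, Φ₂ (a • X) = a • Φ₂ X)
    (X : Matrix (Fin 2 × α) (Fin 2 × α) ℂ) :
    tensorMap Φ₁ Φ₂ (a • X) = a • tensorMap Φ₁ Φ₂ X := by
  ext p p'
  rw [Matrix.smul_apply, tensorMap_apply, tensorMap_apply, ← Matrix.smul_apply, ← h₁]
  congr 1
  ext c d
  rw [Matrix.smul_apply, slice_apply, slice_apply, ← Matrix.smul_apply, ← h₂]
  rfl

lemma gadPow_add (γ ν : ℝ) (n : ℕ) (X Y : Matrix (Q n) (Q n) ℂ) :
    gadPow γ ν n (X + Y) = gadPow γ ν n X + gadPow γ ν n Y := by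
  induction n with
  | zero => rfl
  | succ n ih => exact tensorMap_add _ _ (gad_add γ ν) ih X Y

lemma gadPow_smul (γ ν : ℝ) (n : ℕ) (a : ℂ) (X : Matrix (Q n) (Q n) ℂ) :
    gadPow γ ν n (a • X) = a • gadPow γ ν n X := by
  induction n with
  | zero => rfl
  | succ n ih => exact tensorMap_smul _ _ a (gad_smul γ ν a) ih X

/-- Excited population of each qubit. -/
noncomputable def pop : (n : ℕ) → Matrix (Q n) (Q n) ℂ → Fin n → ℝ
  | 0, _ => Fin.elim0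
  | n + 1, X => Fin.cons ((block 1 1 X).trace.re)
      (fun i => pop n (block 0 0 X) i + pop n (block 1 1 X) i)

lemma pop_succ_zero (n : ℕ) (X : Matrix (Fin 2 × Q n) (Fin 2 × Q n) ℂ) :
    pop (n + 1) X 0 = (block 1 1 X).trace.re := rfl

lemma pop_succ_succ (n : ℕ) (X : Matrix (Fin 2 × Q n) (Fin 2 × Q n) ℂ) (i : Fin n) :
    pop (n + 1) X i.succ = pop n (block 0 0 X) i + pop n (block 1 1 X) i := rfl

lemma block_add {α : Type} (c d : Fin 2) (X Y : Matrix (Fin 2 × α) (Fin 2 × α) ℂ) :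
    block c d (X + Y) = block c d X + block c d Y := rfl

lemma block_smul {α : Type} (c d : Fin 2) (a : ℂ) (X : Matrix (Fin 2 × α) (Fin 2 × α) ℂ) :
    block c d (a • X) = a • block c d X := rfl

lemma pop_add (n : ℕ) (X Y : Matrix (Q n) (Q n) ℂ) (i : Fin n) :
    pop n (X + Y) i = pop n X i + pop n Y i := by
  induction n with
  | zero => exact i.elim0
  | succ n ih =>
    have key : ∀ (X Y : Matrix (Fin 2 × Q n) (Fin 2 × Q n) ℂ) (i : Fin (n + 1)),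
        pop (n + 1) (X + Y) i = pop (n + 1) X i + pop (n + 1) Y i := by
      intro X Y i
      refine Fin.cases ?_ (fun i => ?_) i
      · rw [pop_succ_zero, pop_succ_zero, pop_succ_zero, block_add, Matrix.trace_add,
          Complex.add_re]
      · rw [pop_succ_succ, pop_succ_succ, pop_succ_succ, block_add, block_add, ih, ih]
        ring
    exact key X Y i

lemma pop_smul (n : ℕ) (a : ℝ) (X : Matrix (Q n) (Q n) ℂ) (i : Fin n) :
    pop n (((a : ℝ) : ℂ) • X) i = a * pop n X i := by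
  induction n with
  | zero => exact i.elim0
  | succ n ih =>
    have key : ∀ (X : Matrix (Fin 2 × Q n) (Fin 2 × Q n) ℂ) (i : Fin (n + 1)),
        pop (n + 1) (((a : ℝ) : ℂ) • X) i = a * pop (n + 1) X i := by
      intro X i
      refine Fin.cases ?_ (fun i => ?_) i
      · rw [pop_succ_zero, pop_succ_zero, block_smul, Matrix.trace_smul, smul_eq_mul,
          Complex.re_ofReal_mul]
      · rw [pop_succ_succ, pop_succ_succ, block_smul, block_smul, ih, ih]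
        ring
    exact key X i

lemma posSemidef_block {α : Type} [Fintype α] (c : Fin 2) (X : Matrix (Fin 2 × α) (Fin 2 × α) ℂ)
    (hX : X.PosSemidef) : (block c c X).PosSemidef := by
  have : block c c X = X.submatrix (fun w => (c, w)) (fun w => (c, w)) := rfl
  rw [this]
  exact hX.submatrix _

lemma trace_re_nonneg_of_posSemidef {α : Type} [Fintype α] (X : Matrix α α ℂ) (hX : X.PosSemidef) :
    0 ≤ (X.trace).re := by
  have h := hX.trace_nonneg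
  exact (Complex.le_def.mp h).1

lemma pop_nonneg (n : ℕ) (X : Matrix (Q n) (Q n) ℂ) (hX : X.PosSemidef) (i : Fin n) :
    0 ≤ pop n X i := by
  induction n with
  | zero => exact i.elim0
  | succ n ih =>
    have key : ∀ (X : Matrix (Fin 2 × Q n) (Fin 2 × Q n) ℂ) (_ : X.PosSemidef) (i : Fin (n + 1)),
        0 ≤ pop (n + 1) X i := by
      intro X hX i
      refine Fin.cases ?_ (fun i => ?_) i
      · rw [pop_succ_zero]
        exact trace_re_nonneg_of_posSemidef _ (posSemidef_block 1 X hX)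
      · rw [pop_succ_succ]
        exact add_nonneg (ih _ (posSemidef_block 0 X hX) i) (ih _ (posSemidef_block 1 X hX) i)
    exact key X hX i

lemma pop_le_trace (n : ℕ) (X : Matrix (Q n) (Q n) ℂ) (hX : X.PosSemidef) (i : Fin n) :
    pop n X i ≤ (X.trace).re := by
  induction n with
  | zero => exact i.elim0
  | succ n ih =>
    have key : ∀ (X : Matrix (Fin 2 × Q n) (Fin 2 × Q n) ℂ) (_ : X.PosSemidef) (i : Fin (n + 1)),
        pop (n + 1) X i ≤ (X.trace).re := by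
      intro X hX i
      have h0 := trace_re_nonneg_of_posSemidef _ (posSemidef_block 0 X hX)
      have h1 := trace_re_nonneg_of_posSemidef _ (posSemidef_block 1 X hX)
      rw [trace_eq_block X, Complex.add_re]
      refine Fin.cases ?_ (fun i => ?_) i
      · rw [pop_succ_zero]; linarith
      · rw [pop_succ_succ]
        have := ih _ (posSemidef_block 0 X hX) i
        have := ih _ (posSemidef_block 1 X hX) i
        linarith
    exact key X hX i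

lemma block_eleven_tensorMap {α : Type} (γ ν : ℝ) (Φ : Matrix α α ℂ → Matrix α α ℂ)
    (X : Matrix (Fin 2 × α) (Fin 2 × α) ℂ) :
    block 1 1 (tensorMap (gad γ ν) Φ X) = ((1 - γ : ℝ) : ℂ) • Φ (block 1 1 X) +
      ((γ * ν : ℝ) : ℂ) • (Φ (block 0 0 X) + Φ (block 1 1 X)) := by
  ext w w'
  exact gad_apply_11 γ ν (slice Φ X w w')

lemma block_sum_tensorMap {α : Type} (γ ν : ℝ) (Φ : Matrix α α ℂ → Matrix α α ℂ)
    (X : Matrix (Fin 2 × α) (Fin 2 × α) ℂ) :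
    block 0 0 (tensorMap (gad γ ν) Φ X) + block 1 1 (tensorMap (gad γ ν) Φ X) =
      Φ (block 0 0 X) + Φ (block 1 1 X) := by
  ext w w'
  have h0 := gad_apply_00 γ ν (slice Φ X w w')
  have h1 := gad_apply_11 γ ν (slice Φ X w w')
  rw [Matrix.add_apply, Matrix.add_apply]
  change gad γ ν (slice Φ X w w') 0 0 + gad γ ν (slice Φ X w w') 1 1 = _
  rw [h0, h1, slice_apply, slice_apply]
  ring

lemma pop_gadPow (γ ν : ℝ) (n : ℕ) (X : Matrix (Q n) (Q n) ℂ) (i : Fin n) :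
    pop n (gadPow γ ν n X) i = (1 - γ) * pop n X i + γ * ν * (X.trace).re := by
  induction n with
  | zero => exact i.elim0
  | succ n ih =>
    have key : ∀ (X : Matrix (Fin 2 × Q n) (Fin 2 × Q n) ℂ) (i : Fin (n + 1)),
        pop (n + 1) (tensorMap (gad γ ν) (gadPow γ ν n) X) i =
          (1 - γ) * pop (n + 1) X i + γ * ν * (X.trace).re := by
      intro X i
      rw [trace_eq_block X, Complex.add_re]
      refine Fin.cases ?_ (fun i => ?_) i
      · rw [pop_succ_zero, pop_succ_zero, block_eleven_tensorMap, Matrix.trace_add,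
          Matrix.trace_smul, Matrix.trace_smul, Matrix.trace_add, trace_gadPow, trace_gadPow]
        simp only [smul_eq_mul, Complex.add_re, Complex.re_ofReal_mul]
      · rw [pop_succ_succ, pop_succ_succ, ← pop_add, block_sum_tensorMap, pop_add, ih, ih]
        ring
    exact key X i

end Vale.Agent.P358
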