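import Vale.Agent.Lib.P358.ChainA

/-!
# P358: the entropy bounds through the populations (the chain rule and the iterated ECI)
-/

open Matrix Real
open scoped ComplexOrder

namespace Vale.Agent.P358

/-- Perspective of the binary entropy. -/
noncomputable def Hb (a t : ℝ) : ℝ := negMulLog a + negMulLog (t - a) - negMulLog t

/-- Output entropy of the pure qubit state with excited population `q`. -/
noncomputable def fq (γ ν q : ℝ) : ℝ := stil (gad γ ν (psi (1 - q) q))

/-- Perspective of a function on `[0, 1]`. -/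
noncomputable def persp (g : ℝ → ℝ) (a t : ℝ) : ℝ := t * g (a / t)

/-- Perspectives of convex functions are subadditive. -/
lemma persp_add_le (g : ℝ → ℝ) (hg : ConvexOn ℝ (Set.Icc 0 1) g) {a0 u a1 v : ℝ}
    (ha0 : 0 ≤ a0) (h0 : a0 ≤ u) (ha1 : 0 ≤ a1) (h1 : a1 ≤ v) :
    persp g (a0 + a1) (u + v) ≤ persp g a0 u + persp g a1 v := by
  unfold persp
  rcases (ha0.trans h0).eq_or_lt with hu | hu
  · have ha0' : a0 = 0 := le_antisymm (by linarith) ha0
    subst hu
    subst ha0'
    simp
  rcases (ha1.trans h1).eq_or_lt with hv | hv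
  · have ha1' : a1 = 0 := le_antisymm (by linarith) ha1
    subst hv
    subst ha1'
    simp
  have ht : 0 < u + v := add_pos hu hv
  have hx : a0 / u ∈ Set.Icc (0 : ℝ) 1 := ⟨by positivity, (div_le_one hu).mpr h0⟩
  have hy : a1 / v ∈ Set.Icc (0 : ℝ) 1 := ⟨by positivity, (div_le_one hv).mpr h1⟩
  have hab : u / (u + v) + v / (u + v) = 1 := by field_simp
  have key := hg.2 hx hy (by positivity) (by positivity) hab
  simp only [smul_eq_mul] at key
  have e : u / (u + v) * (a0 / u) + v / (u + v) * (a1 / v) = (a0 + a1) / (u + v) := by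
    field_simp
  rw [e] at key
  calc (u + v) * g ((a0 + a1) / (u + v))
      ≤ (u + v) * (u / (u + v) * g (a0 / u) + v / (u + v) * g (a1 / v)) :=
        mul_le_mul_of_nonneg_left key ht.le
    _ = u * g (a0 / u) + v * g (a1 / v) := by field_simp

/-- Binary entropy function. -/
noncomputable def hbin (q : ℝ) : ℝ := negMulLog q + negMulLog (1 - q)

lemma concaveOn_hbin : ConcaveOn ℝ (Set.Icc 0 1) hbin := by
  refine ⟨convex_Icc _ _, ?_⟩
  intro x hx y hy a b ha hb hab
  have h1 := concaveOn_negMulLog.2 (Set.mem_Ici.mpr hx.1) (Set.mem_Ici.mpr hy.1) ha hb hab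
  have h2 := concaveOn_negMulLog.2 (x := 1 - x) (y := 1 - y)
    (Set.mem_Ici.mpr (by linarith [hx.2])) (Set.mem_Ici.mpr (by linarith [hy.2])) ha hb hab
  simp only [smul_eq_mul] at h1 h2 ⊢
  have e : 1 - (a * x + b * y) = a * (1 - x) + b * (1 - y) := by
    have : a = 1 - b := by linarith
    subst this
    ring
  unfold hbin
  rw [e]
  nlinarith [h1, h2]

lemma Hb_eq_persp {a t : ℝ} (ha : 0 ≤ a) (hat : a ≤ t) : Hb a t = persp hbin a t := by
  unfold Hb persp hbin
  rcases (ha.trans hat).eq_or_lt with ht | ht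
  · have ha' : a = 0 := le_antisymm (by linarith) ha
    subst ht
    subst ha'
    simp
  · have e1 : a / t = a * t⁻¹ := div_eq_mul_inv _ _
    have e2 : 1 - a / t = (t - a) * t⁻¹ := by field_simp
    rw [e2, e1, negMulLog_mul, negMulLog_mul]
    have e3 : negMulLog t⁻¹ = t⁻¹ * Real.log t := by
      simp [negMulLog, Real.log_inv]
    rw [e3]
    unfold negMulLog
    field_simp
    ring

/-- Superadditivity of the perspective of the binary entropy. -/
lemma Hb_add_le {a0 u a1 v : ℝ} (ha0 : 0 ≤ a0) (h0 : a0 ≤ u) (ha1 : 0 ≤ a1) (h1 : a1 ≤ v) :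
    Hb a0 u + Hb a1 v ≤ Hb (a0 + a1) (u + v) := by
  rw [Hb_eq_persp ha0 h0, Hb_eq_persp ha1 h1, Hb_eq_persp (by linarith) (by linarith)]
  have hc : ConvexOn ℝ (Set.Icc 0 1) (fun q => -hbin q) := concaveOn_hbin.neg
  have := persp_add_le _ hc ha0 h0 ha1 h1
  unfold persp at this ⊢
  simp only at this
  linarith

lemma sum_Q_succ {M : Type} [AddCommMonoid M] {n : ℕ} (f : Q (n + 1) → M) :
    ∑ w, f w = ∑ w : Q n, f (0, w) + ∑ w : Q n, f (1, w) := by
  let f' : Fin 2 × Q n → M := f
  have h : ∑ w : Fin 2 × Q n, f' w = ∑ c, ∑ w, f' (c, w) := Fintype.sum_prod_type f'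
  rw [Fin.sum_univ_two] at h
  exact h

lemma sum_Q_zero {M : Type} [AddCommMonoid M] (f : Q 0 → M) : ∑ w, f w = f () := by
  let f' : Unit → M := f
  exact Fintype.sum_unique f'

lemma trace_Q_succ {n : ℕ} (X : Matrix (Q (n + 1)) (Q (n + 1)) ℂ) :
    X.trace = (block 0 0 X).trace + (block 1 1 X).trace := by
  unfold Matrix.trace
  simp only [diag_apply]
  rw [sum_Q_succ]
  rfl

lemma trace_block_re_nonneg {α : Type} [Fintype α] [DecidableEq α]
    (X : Matrix (Fin 2 × α) (Fin 2 × α) ℂ) (hX : X.PosSemidef) (c : Fin 2) :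
    0 ≤ (block c c X).trace.re := by
  have := (posSemidef_block c X hX).trace_nonneg
  exact (Complex.nonneg_iff.mp this).1

/-- The classical chain rule on the diagonal. -/
lemma diag_le_sum_Hb (n : ℕ) (X : Matrix (Q n) (Q n) ℂ) (hX : X.PosSemidef) :
    ∑ w, negMulLog (X w w).re ≤ ∑ i, Hb (pop n X i) (X.trace).re + negMulLog (X.trace).re := by
  induction n with
  | zero =>
    rw [sum_Q_zero]
    have : (X.trace).re = (X () ()).re := by
      unfold Matrix.trace
      simp only [diag_apply]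
      rw [sum_Q_zero]
    rw [this]
    simp
  | succ n ih =>
    have hX0 : (block 0 0 X).PosSemidef := posSemidef_block (α := Q n) 0 X hX
    have hX1 : (block 1 1 X).PosSemidef := posSemidef_block (α := Q n) 1 X hX
    have h0 := ih _ hX0
    have h1 := ih _ hX1
    set u := (block 0 0 X).trace.re with hu
    set v := (block 1 1 X).trace.re with hv
    have htr : (X.trace).re = u + v := by
      rw [trace_Q_succ, Complex.add_re]
    rw [sum_Q_succ, htr, Fin.sum_univ_succ]
    have e0 : pop (n + 1) X 0 = v := rfl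
    have e1 : ∀ i : Fin n, pop (n + 1) X i.succ
        = pop n (block 0 0 X) i + pop n (block 1 1 X) i := fun i => rfl
    rw [e0]
    simp only [e1]
    have hsum : ∑ i, Hb (pop n (block 0 0 X) i) u + ∑ i, Hb (pop n (block 1 1 X) i) v
        ≤ ∑ i, Hb (pop n (block 0 0 X) i + pop n (block 1 1 X) i) (u + v) := by
      rw [← Finset.sum_add_distrib]
      exact Finset.sum_le_sum fun i _ => Hb_add_le (pop_nonneg n _ hX0 i)
        (pop_le_trace n _ hX0 i) (pop_nonneg n _ hX1 i) (pop_le_trace n _ hX1 i)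
    have e2 : Hb v (u + v) + negMulLog (u + v) = negMulLog u + negMulLog v := by
      unfold Hb
      rw [add_sub_cancel_right]
      ring
    have e3 : ∑ w : Q n, negMulLog ((block 0 0 X) w w).re = ∑ w : Q n, negMulLog (X (0, w) (0, w)).re := rfl
    have e4 : ∑ w : Q n, negMulLog ((block 1 1 X) w w).re = ∑ w : Q n, negMulLog (X (1, w) (1, w)).re := rfl
    rw [e3] at h0
    rw [e4] at h1
    linarith

/-- The classical chain rule bound: entropy at most the sum of the binary entropies of the marginal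
populations (Klein with a product reference state). -/
theorem stil_le_sum_Hb (n : ℕ) (X : Matrix (Q n) (Q n) ℂ) (hX : X.PosSemidef) :
    stil X ≤ ∑ i, Hb (pop n X i) (X.trace).re + negMulLog (X.trace).re :=
  (stil_le_diag X hX).trans (diag_le_sum_Hb n X hX)

lemma gad_smul_real (γ ν : ℝ) (a : ℝ) (X : Matrix (Fin 2) (Fin 2) ℂ) :
    gad γ ν (((a : ℝ) : ℂ) • X) = ((a : ℝ) : ℂ) • gad γ ν X := by
  ext i j
  fin_cases i <;> fin_cases j <;> simp [gad] <;> ring

lemma isHermitian_gad_psi (γ ν u v : ℝ) : (gad γ ν (psi u v)).IsHermitian := by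
  unfold IsHermitian
  ext i j
  fin_cases i <;> fin_cases j <;> simp [gad, psi, Complex.conj_ofReal]

lemma trace_gad_psi (γ ν u v : ℝ) : (gad γ ν (psi u v)).trace = ((u + v : ℝ) : ℂ) := by
  simp [gad, psi, Matrix.trace_fin_two]

lemma psi_scale {u v : ℝ} (hu : 0 ≤ u) (hv : 0 ≤ v) (ht : 0 < u + v) :
    psi u v = (((u + v : ℝ) : ℂ)) • psi (1 - v / (u + v)) (v / (u + v)) := by
  have e1 : 1 - v / (u + v) = u / (u + v) := by field_simp; ring
  have e2 : √(u / (u + v) * (v / (u + v))) = √(u * v) / (u + v) := by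
    have : u / (u + v) * (v / (u + v)) = (u * v) / (u + v) ^ 2 := by field_simp
    rw [this, Real.sqrt_div (by positivity), Real.sqrt_sq ht.le]
  unfold psi
  rw [e1, e2]
  have hne : ((u : ℂ) + (v : ℂ)) ≠ 0 := by exact_mod_cast ht.ne'
  ext i j
  fin_cases i <;> fin_cases j <;> simp <;> field_simp

/-- The qubit term in the iterated ECI. -/
lemma persp_le_stil_psi (γ ν : ℝ) (g : ℝ → ℝ)
    (hgf : ∀ q ∈ Set.Icc (0 : ℝ) 1, g q ≤ fq γ ν q) {u v : ℝ} (hu : 0 ≤ u) (hv : 0 ≤ v) :
    persp g v (u + v) ≤ stil (gad γ ν (psi u v)) - negMulLog (u + v) := by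
  rcases (add_nonneg hu hv).eq_or_lt with ht | ht
  · have hu0 : u = 0 := by linarith
    have hv0 : v = 0 := by linarith
    subst hu0
    subst hv0
    have h0 : gad γ ν (psi 0 0) = diagonal (fun _ => ((0 : ℝ) : ℂ)) := by
      ext i j
      fin_cases i <;> fin_cases j <;> simp [gad, psi]
    rw [h0, stil_diagonal]
    simp [persp]
  · set q := v / (u + v) with hq
    have hq01 : q ∈ Set.Icc (0 : ℝ) 1 :=
      ⟨by positivity, (div_le_one ht).mpr (by linarith)⟩
    have hpsi := psi_scale hu hv ht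
    have hY := isHermitian_gad_psi γ ν (1 - q) q
    rw [hpsi, gad_smul_real, stil_smul _ hY, trace_gad_psi]
    have e : ((1 - q + q : ℝ) : ℂ).re = 1 := by simp
    rw [e, mul_one, add_sub_cancel_right]
    unfold persp
    exact mul_le_mul_of_nonneg_left (hgf q hq01) ht.le

/-- Iterated ECI: the output entropy is at least the sum of the perspective of any convex minorant
of `fq` at the populations. -/
theorem stil_gadPow_ge (γ ν : ℝ) (h0 : 0 ≤ γ) (h1 : γ ≤ 1) (h2 : 0 ≤ ν) (h3 : ν ≤ 1)
    (hE : ECI γ ν) (g : ℝ → ℝ) (hg : ConvexOn ℝ (Set.Icc 0 1) g)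
    (hgf : ∀ q ∈ Set.Icc (0 : ℝ) 1, g q ≤ fq γ ν q) (n : ℕ) (X : Matrix (Q n) (Q n) ℂ)
    (hX : X.PosSemidef) :
    ∑ i, persp g (pop n X i) (X.trace).re ≤
      stil (gadPow γ ν n X) - negMulLog (X.trace).re := by
  induction n with
  | zero =>
    have hH : X.IsHermitian := hX.isHermitian
    have hs : stil (gadPow γ ν 0 X) = negMulLog (X.trace).re := by
      show stil X = _
      rw [stil_eq X hH, sum_Q_zero, ← sum_eigenvalues_eq_trace X hH, sum_Q_zero]
    rw [hs]
    simp
  | succ n ih =>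
    have hK := hasKraus_gadPow γ ν h0 h1 h2 h3 n
    have hX0 : (block 0 0 X).PosSemidef := posSemidef_block (α := Q n) 0 X hX
    have hX1 : (block 1 1 X).PosSemidef := posSemidef_block (α := Q n) 1 X hX
    have i0 := ih _ hX0
    have i1 := ih _ hX1
    set ρ : Matrix (Fin 2 × Q n) (Fin 2 × Q n) ℂ := tensorMap id (gadPow γ ν n) X with hρ
    have hρpsd : ρ.PosSemidef := posSemidef_tensorMap_id (gadPow γ ν n) hK X hX
    have hE' := hE (α := Q n) ρ hρpsd
    have hb0 : block 0 0 ρ = gadPow γ ν n (block 0 0 X) := block_tensorMap_id _ X 0 0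
    have hb1 : block 1 1 ρ = gadPow γ ν n (block 1 1 X) := block_tensorMap_id _ X 1 1
    rw [hb0, hb1, trace_gadPow, trace_gadPow] at hE'
    have hcomp : gadPow γ ν (n + 1) X = tensorMap (gad γ ν) id ρ := tensorMap_comp γ ν _ X
    have hu : 0 ≤ (block 0 0 X).trace.re := trace_block_re_nonneg (α := Q n) X hX 0
    have hv : 0 ≤ (block 1 1 X).trace.re := trace_block_re_nonneg (α := Q n) X hX 1
    set u := (block 0 0 X).trace.re with hu'
    set v := (block 1 1 X).trace.re with hv'
    have htr : (X.trace).re = u + v := by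
      rw [trace_Q_succ, Complex.add_re]
    have hpsi := persp_le_stil_psi γ ν g hgf hu hv
    rw [htr, Fin.sum_univ_succ]
    have e0 : pop (n + 1) X 0 = v := rfl
    have e1 : ∀ i : Fin n, pop (n + 1) X i.succ
        = pop n (block 0 0 X) i + pop n (block 1 1 X) i := fun i => rfl
    rw [e0]
    simp only [e1]
    have hsum : ∑ i, persp g (pop n (block 0 0 X) i + pop n (block 1 1 X) i) (u + v)
        ≤ ∑ i, persp g (pop n (block 0 0 X) i) u + ∑ i, persp g (pop n (block 1 1 X) i) v := by
      rw [← Finset.sum_add_distrib]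
      exact Finset.sum_le_sum fun i _ => persp_add_le g hg (pop_nonneg n _ hX0 i)
        (pop_le_trace n _ hX0 i) (pop_nonneg n _ hX1 i) (pop_le_trace n _ hX1 i)
    have hfinal : stil (gadPow γ ν (n + 1) X) = stil (tensorMap (gad γ ν) id ρ) := by
      rw [hcomp]
      rfl
    rw [hfinal]
    linarith

end Vale.Agent.P358
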