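import Vale.Agent.Lib.P358.ChainB

/-!
# P358: from ECI to additivity of the Holevo capacity (part C)
-/

open Matrix Real
open scoped ComplexOrder

namespace Vale.Agent.P358

/-- Holevo quantities may be indexed by any finite type. -/
lemma mem_holevoSet_fintypeC {ι κ : Type} [Fintype ι] [DecidableEq ι] [Fintype κ]
    (Φ : Matrix ι ι ℂ → Matrix ι ι ℂ) (p : κ → ℝ) (ρ : κ → Matrix ι ι ℂ) (hp : ∀ a, 0 ≤ p a)
    (hp1 : ∑ a, p a = 1) (hρ : ∀ a, IsState (ρ a)) :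
    entropy (∑ a, ((p a : ℝ) : ℂ) • Φ (ρ a)) - ∑ a, p a * entropy (Φ (ρ a)) ∈ holevoSet Φ := by
  let e := Fintype.equivFin κ
  refine ⟨Fintype.card κ, fun j => p (e.symm j), fun j => ρ (e.symm j), fun j => hp _, ?_,
    fun j => hρ _, ?_⟩
  · rw [← hp1]
    exact Equiv.sum_comp e.symm p
  · have h1 : ∑ j, ((p (e.symm j) : ℝ) : ℂ) • Φ (ρ (e.symm j)) = ∑ a, ((p a : ℝ) : ℂ) • Φ (ρ a) :=
      Equiv.sum_comp e.symm (fun a => ((p a : ℝ) : ℂ) • Φ (ρ a))
    have h2 : ∑ j, p (e.symm j) * entropy (Φ (ρ (e.symm j))) = ∑ a, p a * entropy (Φ (ρ a)) :=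
      Equiv.sum_comp e.symm (fun a => p a * entropy (Φ (ρ a)))
    rw [h1, h2]

/-- The rank one qubit matrix is positive semidefinite. -/
lemma psi_posSemidef {u v : ℝ} (hu : 0 ≤ u) (hv : 0 ≤ v) : (psi u v).PosSemidef := by
  let w : Fin 2 → ℂ := ![((√u : ℝ) : ℂ), ((√v : ℝ) : ℂ)]
  have : psi u v = vecMulVec w (star w) := by
    ext i j
    fin_cases i <;> fin_cases j <;>
      simp [psi, w, vecMulVec_apply, Real.sqrt_mul hu, ← Complex.ofReal_mul,
        Real.mul_self_sqrt hu, Real.mul_self_sqrt hv, mul_comm]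
  rw [this]
  exact posSemidef_vecMulVec_self_star w

/-- The same matrix with the opposite sign of the off-diagonal entry. -/
noncomputable def psiN (u v : ℝ) : Matrix (Fin 2) (Fin 2) ℂ :=
  !![(u : ℂ), -((√(u * v) : ℝ) : ℂ); -((√(u * v) : ℝ) : ℂ), (v : ℂ)]

lemma psiN_posSemidef {u v : ℝ} (hu : 0 ≤ u) (hv : 0 ≤ v) : (psiN u v).PosSemidef := by
  let w : Fin 2 → ℂ := ![((√u : ℝ) : ℂ), -((√v : ℝ) : ℂ)]
  have : psiN u v = vecMulVec w (star w) := by
    ext i j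
    fin_cases i <;> fin_cases j <;>
      simp [psiN, w, vecMulVec_apply, Real.sqrt_mul hu, ← Complex.ofReal_mul,
        Real.mul_self_sqrt hu, Real.mul_self_sqrt hv, mul_comm]
  rw [this]
  exact posSemidef_vecMulVec_self_star w

lemma psi_trace (u v : ℝ) : (psi u v).trace = ((u + v : ℝ) : ℂ) := by
  simp [psi, Matrix.trace_fin_two]

lemma psiN_trace (u v : ℝ) : (psiN u v).trace = ((u + v : ℝ) : ℂ) := by
  simp [psiN, Matrix.trace_fin_two]

lemma gad_posSemidef {γ ν : ℝ} (h0 : 0 ≤ γ) (h1 : γ ≤ 1) (h2 : 0 ≤ ν) (h3 : ν ≤ 1)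
    {X : Matrix (Fin 2) (Fin 2) ℂ} (hX : X.PosSemidef) : (gad γ ν X).PosSemidef :=
  posSemidef_of_hasKraus _ (hasKraus_gad γ ν h0 h1 h2 h3) X hX

/-- The pure state with population `q` in the interval is a state. -/
lemma psi_isState {q : ℝ} (hq : q ∈ Set.Icc (0 : ℝ) 1) : IsState (psi (1 - q) q) := by
  refine ⟨psi_posSemidef (by linarith [hq.2]) hq.1, ?_⟩
  rw [psi_trace]; simp

lemma psiN_isState {q : ℝ} (hq : q ∈ Set.Icc (0 : ℝ) 1) : IsState (psiN (1 - q) q) := by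
  refine ⟨psiN_posSemidef (by linarith [hq.2]) hq.1, ?_⟩
  rw [psiN_trace]; simp

lemma fq_nonneg {γ ν q : ℝ} (h0 : 0 ≤ γ) (h1 : γ ≤ 1) (h2 : 0 ≤ ν) (h3 : ν ≤ 1)
    (hq : q ∈ Set.Icc (0 : ℝ) 1) : 0 ≤ fq γ ν q := by
  have hS := psi_isState hq
  apply stil_nonneg _ (gad_posSemidef h0 h1 h2 h3 hS.1)
  rw [gad_trace, hS.2]; simp

/-- The flip of the off-diagonal entry does not change the output entropy. -/
lemma stil_gad_psiN {γ ν u v : ℝ} (h0 : 0 ≤ γ) (h1 : γ ≤ 1) (h2 : 0 ≤ ν) (h3 : ν ≤ 1)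
    (hu : 0 ≤ u) (hv : 0 ≤ v) :
    stil (gad γ ν (psiN u v)) = stil (gad γ ν (psi u v)) := by
  have hH1 := (gad_posSemidef h0 h1 h2 h3 (psiN_posSemidef hu hv)).isHermitian
  have hH2 := (gad_posSemidef h0 h1 h2 h3 (psi_posSemidef hu hv)).isHermitian
  rw [stil_two _ hH1, stil_two _ hH2]
  have ht : (gad γ ν (psiN u v)).trace = (gad γ ν (psi u v)).trace := by
    rw [gad_trace, gad_trace, psi_trace, psiN_trace]
  have hd : (gad γ ν (psiN u v)).det = (gad γ ν (psi u v)).det := by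
    simp only [Matrix.det_fin_two, gad_apply_00, gad_apply_01, gad_apply_10, gad_apply_11]
    simp only [psi, psiN, Matrix.of_apply, Matrix.cons_val', Matrix.cons_val_zero,
      Matrix.cons_val_one, Matrix.cons_val_fin_one]
    ring
  rw [ht, hd]


/-- Entropy upper bound through the diagonal. -/
lemma stil_le_card {ι : Type} [Fintype ι] [DecidableEq ι] (X : Matrix ι ι ℂ) (hX : X.PosSemidef) :
    stil X ≤ Fintype.card ι := by
  refine (stil_le_diag X hX).trans ?_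
  have h : ∀ w, negMulLog (X w w).re ≤ 1 := by
    intro w
    have h0 : 0 ≤ (X w w).re := by
      have := hX.diag_nonneg (i := w)
      exact (Complex.nonneg_iff.mp this).1
    have := Real.negMulLog_le_one_sub_self h0
    linarith
  calc ∑ w, negMulLog (X w w).re ≤ ∑ _w : ι, (1 : ℝ) := Finset.sum_le_sum (fun w _ => h w)
    _ = Fintype.card ι := by simp

/-- The average of an ensemble of positive semidefinite matrices. -/
lemma posSemidef_avg {ι κ : Type} [Fintype ι] [Fintype κ] (p : κ → ℝ)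
    (X : κ → Matrix ι ι ℂ) (hp : ∀ a, 0 ≤ p a) (hX : ∀ a, (X a).PosSemidef) :
    (∑ a, ((p a : ℝ) : ℂ) • X a).PosSemidef := by
  classical
  apply posSemidef_sum
  intro a _
  apply (hX a).smul
  exact_mod_cast hp a

lemma trace_avg {ι κ : Type} [Fintype ι] [Fintype κ] (p : κ → ℝ)
    (X : κ → Matrix ι ι ℂ) (hp1 : ∑ a, p a = 1) (hX : ∀ a, (X a).trace = 1) :
    (∑ a, ((p a : ℝ) : ℂ) • X a).trace = 1 := by
  rw [Matrix.trace_sum]
  simp only [Matrix.trace_smul, hX, smul_eq_mul, mul_one]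
  rw [← Complex.ofReal_sum, hp1]
  simp

/-- The set of Holevo quantities of one use is bounded above. -/
lemma bddAbove_holevoSet_gad (γ ν : ℝ) (h0 : 0 ≤ γ) (h1 : γ ≤ 1) (h2 : 0 ≤ ν) (h3 : ν ≤ 1) :
    BddAbove (holevoSet (gad γ ν)) := by
  refine ⟨2 / Real.log 2, ?_⟩
  rintro x ⟨m, p, ρ, hp, hp1, hρ, rfl⟩
  have hl : 0 < Real.log 2 := Real.log_pos (by norm_num)
  have hPSD : ∀ a, (gad γ ν (ρ a)).PosSemidef := fun a => gad_posSemidef h0 h1 h2 h3 (hρ a).1
  have h4 : entropy (∑ a, ((p a : ℝ) : ℂ) • gad γ ν (ρ a)) ≤ 2 / Real.log 2 := by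
    rw [entropy_eq_stil]
    apply div_le_div_of_nonneg_right _ hl.le
    have := stil_le_card _ (posSemidef_avg p (fun a => gad γ ν (ρ a)) hp hPSD)
    simpa using this
  have h5 : 0 ≤ ∑ a, p a * entropy (gad γ ν (ρ a)) := by
    apply Finset.sum_nonneg
    intro a _
    apply mul_nonneg (hp a)
    rw [entropy_eq_stil]
    apply div_nonneg _ hl.le
    apply stil_nonneg _ (hPSD a)
    rw [gad_trace, (hρ a).2]; simp
  linarith

/-- Sum of the two flipped outputs. -/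
lemma gad_psi_add_psiN (γ ν q : ℝ) :
    gad γ ν (psi (1 - q) q) + gad γ ν (psiN (1 - q) q) =
      ((2 : ℝ) : ℂ) • diagonal (fun i : Fin 2 =>
        ((![1 - ((1 - γ) * q + γ * ν), (1 - γ) * q + γ * ν] i : ℝ) : ℂ)) := by
  ext i j
  fin_cases i <;> fin_cases j <;>
    simp [gad_apply_00, gad_apply_01, gad_apply_10, gad_apply_11, psi, psiN, diagonal]
  all_goals ring

/-- One-copy ensembles: for any decomposition of the population `q̄` the Holevo quantity of the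
corresponding symmetrized ensemble of pure states is at most the capacity of one use. -/
theorem one_copy_bound (γ ν : ℝ) (h0 : 0 ≤ γ) (h1 : γ ≤ 1) (h2 : 0 ≤ ν) (h3 : ν ≤ 1)
    {m : ℕ} (p q : Fin m → ℝ) (hp : ∀ j, 0 ≤ p j) (hp1 : ∑ j, p j = 1)
    (hq : ∀ j, q j ∈ Set.Icc (0 : ℝ) 1) :
    (Hb ((1 - γ) * (∑ j, p j * q j) + γ * ν) 1 - ∑ j, p j * fq γ ν (q j)) / Real.log 2 ≤
      holevoCapacity (gad γ ν) := by
  set t := (1 - γ) * (∑ j, p j * q j) + γ * ν with ht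
  -- the ensemble
  let P : Fin m × Fin 2 → ℝ := fun a => p a.1 / 2
  let R : Fin m × Fin 2 → Matrix (Fin 2) (Fin 2) ℂ := fun a =>
    if a.2 = 0 then psi (1 - q a.1) (q a.1) else psiN (1 - q a.1) (q a.1)
  have hP : ∀ a, 0 ≤ P a := fun a => div_nonneg (hp a.1) (by norm_num)
  have hP1 : ∑ a, P a = 1 := by
    rw [Fintype.sum_prod_type]
    simp only [P, Fin.sum_univ_two]
    rw [← hp1]
    apply Finset.sum_congr rfl
    intro j _
    ring
  have hR : ∀ a, IsState (R a) := by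
    intro a
    by_cases h : a.2 = 0
    · simp only [R, h, if_true]; exact psi_isState (hq a.1)
    · simp only [R, h, if_false]; exact psiN_isState (hq a.1)
  have hmem := mem_holevoSet_fintypeC (gad γ ν) P R hP hP1 hR
  have hle := le_csSup (bddAbove_holevoSet_gad γ ν h0 h1 h2 h3) hmem
  refine le_trans (le_of_eq ?_) hle
  -- the average output
  have hR0 : ∀ j, R (j, 0) = psi (1 - q j) (q j) := fun j => if_pos rfl
  have hR1 : ∀ j, R (j, 1) = psiN (1 - q j) (q j) := fun j => if_neg (by simp)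
  have hs1 : ∑ j, p j * ((1 - γ) * q j + γ * ν) = t := by
    rw [ht, Finset.mul_sum]
    have : ∀ j, p j * ((1 - γ) * q j + γ * ν) = (1 - γ) * (p j * q j) + p j * (γ * ν) := by
      intro j; ring
    rw [Finset.sum_congr rfl (fun j _ => this j), Finset.sum_add_distrib, ← Finset.sum_mul, hp1]
    ring
  have hs0 : ∑ j, p j * (1 - ((1 - γ) * q j + γ * ν)) = 1 - t := by
    have : ∀ j, p j * (1 - ((1 - γ) * q j + γ * ν)) = p j - p j * ((1 - γ) * q j + γ * ν) := by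
      intro j; ring
    rw [Finset.sum_congr rfl (fun j _ => this j), Finset.sum_sub_distrib, hp1, hs1]
  have hA : ∑ a, ((P a : ℝ) : ℂ) • gad γ ν (R a) =
      diagonal (fun i : Fin 2 => ((![1 - t, t] i : ℝ) : ℂ)) := by
    rw [Fintype.sum_prod_type]
    have : ∀ j, ∑ c : Fin 2, ((P (j, c) : ℝ) : ℂ) • gad γ ν (R (j, c)) =
        ((p j : ℝ) : ℂ) • diagonal (fun i : Fin 2 =>
          ((![1 - ((1 - γ) * q j + γ * ν), (1 - γ) * q j + γ * ν] i : ℝ) : ℂ)) := by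
      intro j
      rw [Fin.sum_univ_two, hR0, hR1]
      simp only [P]
      rw [← smul_add, gad_psi_add_psiN, smul_smul, ← Complex.ofReal_mul]
      congr 2
      ring
    rw [Finset.sum_congr rfl (fun j _ => this j)]
    ext i i'
    rw [Matrix.sum_apply]
    simp only [Matrix.smul_apply, diagonal_apply, smul_eq_mul]
    by_cases hii : i = i'
    · subst hii
      simp only [if_true]
      fin_cases i
      · simp only [Fin.zero_eta, Matrix.cons_val_zero]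
        rw [← hs0]
        push_cast
        rfl
      · simp only [Fin.mk_one, Matrix.cons_val_one, Matrix.cons_val_zero]
        rw [← hs1]
        push_cast
        rfl
    · simp [hii]
  have hE : ∑ a, P a * entropy (gad γ ν (R a)) = (∑ j, p j * fq γ ν (q j)) / Real.log 2 := by
    rw [Fintype.sum_prod_type, Finset.sum_div]
    apply Finset.sum_congr rfl
    intro j _
    rw [Fin.sum_univ_two, hR0, hR1]
    simp only [P]
    rw [entropy_eq_stil, entropy_eq_stil, stil_gad_psiN h0 h1 h2 h3 (by linarith [(hq j).2]) (hq j).1]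
    unfold fq
    ring
  rw [hA, hE, entropy_eq_stil, stil_diagonal, Fin.sum_univ_two]
  simp only [Matrix.cons_val_zero, Matrix.cons_val_one]
  unfold Hb
  rw [negMulLog_one]
  ring

/-- The lower convex envelope of `fq`, through the convex hull of its graph. -/
def fqHull (γ ν : ℝ) : Set (ℝ × ℝ) :=
  convexHull ℝ ((fun r => (r, fq γ ν r)) '' Set.Icc (0 : ℝ) 1)

/-- The lower convex envelope of `fq`. -/
noncomputable def fhat (γ ν q : ℝ) : ℝ := sInf {y | (q, y) ∈ fqHull γ ν}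

lemma fqHull_bounds {γ ν : ℝ} (h0 : 0 ≤ γ) (h1 : γ ≤ 1) (h2 : 0 ≤ ν) (h3 : ν ≤ 1) {q y : ℝ}
    (h : (q, y) ∈ fqHull γ ν) : q ∈ Set.Icc (0 : ℝ) 1 ∧ 0 ≤ y := by
  have hsub : fqHull γ ν ⊆ Set.Icc (0 : ℝ) 1 ×ˢ Set.Ici (0 : ℝ) := by
    apply convexHull_min
    · rintro _ ⟨r, hr, rfl⟩
      exact ⟨hr, fq_nonneg h0 h1 h2 h3 hr⟩
    · exact (convex_Icc 0 1).prod (convex_Ici 0)
  have := hsub h
  exact ⟨this.1, this.2⟩

lemma fqHull_decomp {γ ν q y : ℝ} (h : (q, y) ∈ fqHull γ ν) :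
    ∃ (m : ℕ) (p r : Fin m → ℝ), (∀ j, 0 ≤ p j) ∧ ∑ j, p j = 1 ∧
      (∀ j, r j ∈ Set.Icc (0 : ℝ) 1) ∧ q = ∑ j, p j * r j ∧ y = ∑ j, p j * fq γ ν (r j) := by
  obtain ⟨ι, _, w, z, hw, hw1, hz, hsum⟩ := mem_convexHull_iff_exists_fintype.mp h
  choose r hr hzr using hz
  let e := Fintype.equivFin ι
  refine ⟨Fintype.card ι, fun j => w (e.symm j), fun j => r (e.symm j), fun j => hw _, ?_,
    fun j => hr _, ?_, ?_⟩
  · rw [← hw1]; exact Equiv.sum_comp e.symm w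
  · have h1 : q = (∑ i, w i • z i).1 := by rw [hsum]
    rw [h1, Prod.fst_sum]
    rw [← Equiv.sum_comp e.symm]
    apply Finset.sum_congr rfl
    intro j _
    simp [← hzr]
  · have h1 : y = (∑ i, w i • z i).2 := by rw [hsum]
    rw [h1, Prod.snd_sum]
    rw [← Equiv.sum_comp e.symm]
    apply Finset.sum_congr rfl
    intro j _
    simp [← hzr]

lemma fhat_set_nonempty {γ ν q : ℝ} (hq : q ∈ Set.Icc (0 : ℝ) 1) :
    {y | (q, y) ∈ fqHull γ ν}.Nonempty :=
  ⟨fq γ ν q, subset_convexHull ℝ _ ⟨q, hq, rfl⟩⟩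

lemma fhat_set_bdd {γ ν q : ℝ} (h0 : 0 ≤ γ) (h1 : γ ≤ 1) (h2 : 0 ≤ ν) (h3 : ν ≤ 1) :
    BddBelow {y | (q, y) ∈ fqHull γ ν} :=
  ⟨0, fun _ hy => (fqHull_bounds h0 h1 h2 h3 hy).2⟩

lemma fhat_le_fq {γ ν q : ℝ} (h0 : 0 ≤ γ) (h1 : γ ≤ 1) (h2 : 0 ≤ ν) (h3 : ν ≤ 1)
    (hq : q ∈ Set.Icc (0 : ℝ) 1) : fhat γ ν q ≤ fq γ ν q :=
  csInf_le (fhat_set_bdd h0 h1 h2 h3) (subset_convexHull ℝ _ ⟨q, hq, rfl⟩)

lemma fhat_convex {γ ν : ℝ} (h0 : 0 ≤ γ) (h1 : γ ≤ 1) (h2 : 0 ≤ ν) (h3 : ν ≤ 1) :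
    ConvexOn ℝ (Set.Icc 0 1) (fhat γ ν) := by
  refine ⟨convex_Icc 0 1, ?_⟩
  intro q₁ hq₁ q₂ hq₂ a b ha hb hab
  apply le_of_forall_pos_le_add
  intro ε hε
  obtain ⟨y₁, hy₁, hlt₁⟩ := Real.lt_sInf_add_pos (fhat_set_nonempty (γ := γ) (ν := ν) hq₁) hε
  obtain ⟨y₂, hy₂, hlt₂⟩ := Real.lt_sInf_add_pos (fhat_set_nonempty (γ := γ) (ν := ν) hq₂) hε
  have hconv := (convex_convexHull ℝ ((fun r => (r, fq γ ν r)) '' Set.Icc (0 : ℝ) 1)) hy₁ hy₂ ha hb hab
  have hmem : (a • q₁ + b • q₂, a * y₁ + b * y₂) ∈ fqHull γ ν := by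
    unfold fqHull
    simpa [Prod.smul_mk, Prod.mk_add_mk] using hconv
  have hle : fhat γ ν (a • q₁ + b • q₂) ≤ a * y₁ + b * y₂ :=
    csInf_le (fhat_set_bdd h0 h1 h2 h3) hmem
  have h4 : a * y₁ ≤ a * (fhat γ ν q₁ + ε) := mul_le_mul_of_nonneg_left hlt₁.le ha
  have h5 : b * y₂ ≤ b * (fhat γ ν q₂ + ε) := mul_le_mul_of_nonneg_left hlt₂.le hb
  have h6 : a * ε + b * ε = ε := by rw [← add_mul, hab, one_mul]
  simp only [smul_eq_mul] at hle ⊢
  nlinarith

/-- The capacity controls the envelope. -/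
lemma Hb_sub_fhat_le {γ ν q : ℝ} (h0 : 0 ≤ γ) (h1 : γ ≤ 1) (h2 : 0 ≤ ν) (h3 : ν ≤ 1)
    (hq : q ∈ Set.Icc (0 : ℝ) 1) :
    (Hb ((1 - γ) * q + γ * ν) 1 - fhat γ ν q) / Real.log 2 ≤ holevoCapacity (gad γ ν) := by
  have hl : 0 < Real.log 2 := Real.log_pos (by norm_num)
  rw [div_le_iff₀ hl]
  have : Hb ((1 - γ) * q + γ * ν) 1 - holevoCapacity (gad γ ν) * Real.log 2 ≤ fhat γ ν q := by
    apply le_csInf (fhat_set_nonempty hq)
    intro y hy
    obtain ⟨m, p, r, hp, hp1, hr, hqe, hye⟩ := fqHull_decomp hy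
    have := one_copy_bound γ ν h0 h1 h2 h3 p r hp hp1 hr
    rw [← hqe, ← hye, div_le_iff₀ hl] at this
    linarith
  linarith

lemma gadPow_sum {κ : Type} [Fintype κ] (γ ν : ℝ) (n : ℕ) (c : κ → ℂ)
    (X : κ → Matrix (Q n) (Q n) ℂ) :
    gadPow γ ν n (∑ a, c a • X a) = ∑ a, c a • gadPow γ ν n (X a) := by
  classical
  induction (Finset.univ : Finset κ) using Finset.induction_on with
  | empty =>
    have := gadPow_smul γ ν n 0 0
    simpa using this
  | insert a s ha ih =>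
    rw [Finset.sum_insert ha, Finset.sum_insert ha, gadPow_add, gadPow_smul, ih]

lemma pop_sum {κ : Type} [Fintype κ] (n : ℕ) (c : κ → ℝ) (X : κ → Matrix (Q n) (Q n) ℂ) (i : Fin n) :
    pop n (∑ a, ((c a : ℝ) : ℂ) • X a) i = ∑ a, c a * pop n (X a) i := by
  classical
  induction (Finset.univ : Finset κ) using Finset.induction_on with
  | empty =>
    have := pop_smul n 0 0 i
    simpa using this
  | insert a s ha ih =>
    rw [Finset.sum_insert ha, Finset.sum_insert ha, pop_add, pop_smul, ih]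

/-- The main additivity bound from ECI. -/
theorem holevo_le_of_ECI (γ ν : ℝ) (h0 : 0 ≤ γ) (h1 : γ ≤ 1) (h2 : 0 ≤ ν) (h3 : ν ≤ 1)
    (hE : ECI γ ν) (n : ℕ) :
    ∀ x ∈ holevoSet (gadPow γ ν n), x ≤ n * holevoCapacity (gad γ ν) := by
  rintro x ⟨m, p, ρ, hp, hp1, hρ, rfl⟩
  have hl : 0 < Real.log 2 := Real.log_pos (by norm_num)
  set ρbar := ∑ a, ((p a : ℝ) : ℂ) • ρ a with hρbar
  have hbarPSD : ρbar.PosSemidef := posSemidef_avg p ρ hp (fun a => (hρ a).1)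
  have hbarTr : ρbar.trace = 1 := trace_avg p ρ hp1 (fun a => (hρ a).2)
  have hout : ∑ a, ((p a : ℝ) : ℂ) • gadPow γ ν n (ρ a) = gadPow γ ν n ρbar :=
    (gadPow_sum γ ν n _ ρ).symm
  rw [hout]
  -- output entropy of the average
  have hKr := hasKraus_gadPow γ ν h0 h1 h2 h3 n
  have hoPSD : (gadPow γ ν n ρbar).PosSemidef := posSemidef_of_hasKraus _ hKr _ hbarPSD
  have hTr1 : (gadPow γ ν n ρbar).trace.re = 1 := by
    rw [trace_gadPow, hbarTr]; simp
  have hup := stil_le_sum_Hb n _ hoPSD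
  rw [hTr1, negMulLog_one, add_zero] at hup
  have hpop : ∀ i, pop n (gadPow γ ν n ρbar) i = (1 - γ) * pop n ρbar i + γ * ν := by
    intro i
    rw [pop_gadPow, hbarTr]
    simp
  simp only [hpop] at hup
  -- populations are in the unit interval
  have hIcc : ∀ a i, pop n (ρ a) i ∈ Set.Icc (0 : ℝ) 1 := by
    intro a i
    refine ⟨pop_nonneg n _ (hρ a).1 i, ?_⟩
    have := pop_le_trace n _ (hρ a).1 i
    rw [(hρ a).2] at this
    simpa using this
  have hbarIcc : ∀ i, pop n ρbar i ∈ Set.Icc (0 : ℝ) 1 := by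
    intro i
    refine ⟨pop_nonneg n _ hbarPSD i, ?_⟩
    have := pop_le_trace n _ hbarPSD i
    rw [hbarTr] at this
    simpa using this
  -- lower bounds for the individual outputs
  have hlow : ∀ a, ∑ i, fhat γ ν (pop n (ρ a) i) ≤ stil (gadPow γ ν n (ρ a)) := by
    intro a
    have := stil_gadPow_ge γ ν h0 h1 h2 h3 hE (fhat γ ν) (fhat_convex h0 h1 h2 h3)
      (fun q hq => fhat_le_fq h0 h1 h2 h3 hq) n (ρ a) (hρ a).1
    rw [(hρ a).2] at this
    simpa [persp, negMulLog_one] using this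
  -- Jensen
  have hJ : ∀ i, fhat γ ν (pop n ρbar i) ≤ ∑ a, p a * fhat γ ν (pop n (ρ a) i) := by
    intro i
    have := (fhat_convex (γ := γ) (ν := ν) h0 h1 h2 h3).map_sum_le (t := Finset.univ) (w := p)
      (p := fun a => pop n (ρ a) i) (fun a _ => hp a) hp1 (fun a _ => hIcc a i)
    simp only [smul_eq_mul] at this
    rw [hρbar, pop_sum]
    exact this
  have hlowsum : ∑ i, fhat γ ν (pop n ρbar i) ≤ ∑ a, p a * stil (gadPow γ ν n (ρ a)) := by
    calc ∑ i, fhat γ ν (pop n ρbar i)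
        ≤ ∑ i, ∑ a, p a * fhat γ ν (pop n (ρ a) i) := Finset.sum_le_sum (fun i _ => hJ i)
      _ = ∑ a, p a * ∑ i, fhat γ ν (pop n (ρ a) i) := by
          rw [Finset.sum_comm]
          apply Finset.sum_congr rfl
          intro a _
          rw [Finset.mul_sum]
      _ ≤ ∑ a, p a * stil (gadPow γ ν n (ρ a)) :=
          Finset.sum_le_sum (fun a _ => mul_le_mul_of_nonneg_left (hlow a) (hp a))
  -- assemble
  have hcap : ∑ i : Fin n, (Hb ((1 - γ) * pop n ρbar i + γ * ν) 1 - fhat γ ν (pop n ρbar i))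
      ≤ n * (holevoCapacity (gad γ ν) * Real.log 2) := by
    calc ∑ i : Fin n, (Hb ((1 - γ) * pop n ρbar i + γ * ν) 1 - fhat γ ν (pop n ρbar i))
        ≤ ∑ _i : Fin n, (holevoCapacity (gad γ ν) * Real.log 2) := by
          apply Finset.sum_le_sum
          intro i _
          have := Hb_sub_fhat_le h0 h1 h2 h3 (hbarIcc i)
          rwa [div_le_iff₀ hl] at this
      _ = n * (holevoCapacity (gad γ ν) * Real.log 2) := by simp
  have hS : ∑ a, p a * entropy (gadPow γ ν n (ρ a)) =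
      (∑ a, p a * stil (gadPow γ ν n (ρ a))) / Real.log 2 := by
    rw [Finset.sum_div]
    apply Finset.sum_congr rfl
    intro a _
    rw [entropy_eq_stil]
    ring
  rw [hS, entropy_eq_stil, ← sub_div, div_le_iff₀ hl]
  rw [Finset.sum_sub_distrib] at hcap
  nlinarith

end Vale.Agent.P358
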