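import Mathlib

/-!
# P358: definitions for the classical capacity of the generalized amplitude damping channel
-/

open Matrix
open scoped ComplexOrder

namespace Vale.Agent.P358

/-- Computational basis of `n` qubits. -/
def Q : ℕ → Type
  | 0 => Unit
  | n + 1 => Fin 2 × Q n

/-- `Q n` is finite. -/
instance instFintypeQ : (n : ℕ) → Fintype (Q n)
  | 0 => inferInstanceAs (Fintype Unit)
  | n + 1 =>
    letI := instFintypeQ n
    inferInstanceAs (Fintype (Fin 2 × Q n))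

/-- `Q n` has decidable equality. -/
instance instDecidableEqQ : (n : ℕ) → DecidableEq (Q n)
  | 0 => inferInstanceAs (DecidableEq Unit)
  | n + 1 =>
    letI := instDecidableEqQ n
    inferInstanceAs (DecidableEq (Fin 2 × Q n))

/-- The generalized amplitude damping channel on `2 × 2` matrices: on a density matrix with
diagonal `(1 - q, q)` and off-diagonal entry `z` it gives diagonal `(1 - t, t)` with
`t = (1 - γ) q + γ ν` and off-diagonal entry `√(1 - γ) z`. -/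
noncomputable def gad (γ ν : ℝ) (X : Matrix (Fin 2) (Fin 2) ℂ) : Matrix (Fin 2) (Fin 2) ℂ :=
  let t : ℂ := ((1 - γ : ℝ) : ℂ) * X 1 1 + ((γ * ν : ℝ) : ℂ) * (X 0 0 + X 1 1)
  !![X 0 0 + X 1 1 - t, ((√(1 - γ) : ℝ) : ℂ) * X 0 1;
     ((√(1 - γ) : ℝ) : ℂ) * X 1 0, t]

/-- Tensor product of a qubit map `Φ₁` and a map `Φ₂` on matrices indexed by `α`. -/
def tensorMap {α : Type} (Φ₁ : Matrix (Fin 2) (Fin 2) ℂ → Matrix (Fin 2) (Fin 2) ℂ)
    (Φ₂ : Matrix α α ℂ → Matrix α α ℂ) (X : Matrix (Fin 2 × α) (Fin 2 × α) ℂ) :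
    Matrix (Fin 2 × α) (Fin 2 × α) ℂ :=
  fun p p' => Φ₁ (fun c d => Φ₂ (fun w w' => X (c, w) (d, w')) p.2 p'.2) p.1 p'.1

/-- The `n`-fold tensor power of the channel `gad γ ν`. -/
noncomputable def gadPow (γ ν : ℝ) : (n : ℕ) → Matrix (Q n) (Q n) ℂ → Matrix (Q n) (Q n) ℂ
  | 0 => id
  | n + 1 => tensorMap (gad γ ν) (gadPow γ ν n)

/-- Von Neumann entropy in bits of a Hermitian matrix (junk value `0` on non-Hermitian input). -/
noncomputable def entropy {ι : Type} [Fintype ι] [DecidableEq ι] (X : Matrix ι ι ℂ) : ℝ :=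
  open Classical in
  if h : X.IsHermitian then (∑ i, Real.negMulLog (h.eigenvalues i)) / Real.log 2 else 0

/-- Density matrices. -/
def IsState {ι : Type} [Fintype ι] (X : Matrix ι ι ℂ) : Prop :=
  X.PosSemidef ∧ X.trace = 1

/-- The set of Holevo quantities of finite ensembles of input states for the map `Φ`. -/
def holevoSet {ι : Type} [Fintype ι] [DecidableEq ι] (Φ : Matrix ι ι ℂ → Matrix ι ι ℂ) : Set ℝ :=
  {x | ∃ (m : ℕ) (p : Fin m → ℝ) (ρ : Fin m → Matrix ι ι ℂ),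
    (∀ a, 0 ≤ p a) ∧ ∑ a, p a = 1 ∧ (∀ a, IsState (ρ a)) ∧
    x = entropy (∑ a, ((p a : ℝ) : ℂ) • Φ (ρ a)) - ∑ a, p a * entropy (Φ (ρ a))}

/-- The Holevo capacity of the map `Φ`. -/
noncomputable def holevoCapacity {ι : Type} [Fintype ι] [DecidableEq ι]
    (Φ : Matrix ι ι ℂ → Matrix ι ι ℂ) : ℝ :=
  sSup (holevoSet Φ)

/-- The classical capacity `sup_{n ≥ 1} χ(𝒜^{⊗ n}) / n`. -/
noncomputable def classicalCapacity (γ ν : ℝ) : ℝ :=
  ⨆ n : ℕ, holevoCapacity (gadPow γ ν (n + 1)) / ((n : ℝ) + 1)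

end Vale.Agent.P358
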