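import Vale.Agent.Lib.P358.EntIntegral

/-!
# P358: the scalar function `Jsc`
-/

open Real MeasureTheory Set

namespace Vale.Agent.P358

/-- Larger root of `t² - (a + b + d) t + b d`. -/
noncomputable def lamP (a b d : ℝ) : ℝ := ((a + b + d) + √((a + b + d) ^ 2 - 4 * (b * d))) / 2

/-- Smaller root of `t² - (a + b + d) t + b d`. -/
noncomputable def lamM (a b d : ℝ) : ℝ := ((a + b + d) - √((a + b + d) ^ 2 - 4 * (b * d))) / 2

/-- The scalar function. -/
noncomputable def Jsc (a b d : ℝ) : ℝ :=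
  negMulLog (lamP a b d) + negMulLog (lamM a b d) - negMulLog a - negMulLog b - negMulLog d

/-- Its integrand. -/
noncomputable def gInt (a b d y : ℝ) : ℝ :=
  Real.log (1 + y * a / ((y + b) * (y + d))) - Real.log (1 + a / y)

lemma disc_nonneg {a b d : ℝ} (ha : 0 ≤ a) (hb : 0 ≤ b) (hd : 0 ≤ d) :
    0 ≤ (a + b + d) ^ 2 - 4 * (b * d) := by
  nlinarith [mul_nonneg ha hb, mul_nonneg ha hd, sq_nonneg (b - d), sq_nonneg a]

lemma lam_add (a b d : ℝ) : lamP a b d + lamM a b d = a + b + d := by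
  unfold lamP lamM; ring

lemma lam_mul {a b d : ℝ} (ha : 0 ≤ a) (hb : 0 ≤ b) (hd : 0 ≤ d) :
    lamP a b d * lamM a b d = b * d := by
  unfold lamP lamM
  have h := Real.sq_sqrt (disc_nonneg ha hb hd)
  nlinarith

lemma sqrt_disc_le {a b d : ℝ} (ha : 0 ≤ a) (hb : 0 ≤ b) (hd : 0 ≤ d) :
    √((a + b + d) ^ 2 - 4 * (b * d)) ≤ a + b + d := by
  apply Real.sqrt_le_iff.mpr
  constructor
  · positivity
  · nlinarith [mul_nonneg hb hd]

lemma lamP_nonneg {a b d : ℝ} (ha : 0 ≤ a) (hb : 0 ≤ b) (hd : 0 ≤ d) : 0 ≤ lamP a b d := by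
  unfold lamP
  have := Real.sqrt_nonneg ((a + b + d) ^ 2 - 4 * (b * d))
  positivity

lemma lamM_nonneg {a b d : ℝ} (ha : 0 ≤ a) (hb : 0 ≤ b) (hd : 0 ≤ d) : 0 ≤ lamM a b d := by
  unfold lamM
  have := sqrt_disc_le ha hb hd
  linarith

lemma log_one_add_div {x y : ℝ} (hx : 0 ≤ x) (hy : 0 < y) :
    Real.log (1 + x / y) = Real.log (y + x) - Real.log y := by
  have h1 : y + x ≠ 0 := by positivity
  have : 1 + x / y = (y + x) / y := by field_simp
  rw [this, Real.log_div h1 hy.ne']

lemma gInt_eq {a b d y : ℝ} (ha : 0 ≤ a) (hb : 0 ≤ b) (hd : 0 ≤ d) (hy : 0 < y) :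
    eInt (lamP a b d) y + eInt (lamM a b d) y - eInt a y - eInt b y - eInt d y = gInt a b d y := by
  have hP := lamP_nonneg ha hb hd
  have hM := lamM_nonneg ha hb hd
  have hadd := lam_add a b d
  have hmul := lam_mul ha hb hd
  have e1 : Real.log (1 + y * a / ((y + b) * (y + d))) =
      Real.log (y + lamP a b d) + Real.log (y + lamM a b d) - Real.log (y + b) - Real.log (y + d) := by
    have h1 : 0 < y + b := by positivity
    have h2 : 0 < y + d := by positivity
    have h3 : 0 < y + lamP a b d := by positivity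
    have h4 : 0 < y + lamM a b d := by positivity
    have : 1 + y * a / ((y + b) * (y + d)) =
        ((y + lamP a b d) * (y + lamM a b d)) / ((y + b) * (y + d)) := by
      field_simp
      have : (y + lamP a b d) * (y + lamM a b d) = y ^ 2 + (lamP a b d + lamM a b d) * y
          + lamP a b d * lamM a b d := by ring
      rw [this, hadd, hmul]
      ring
    rw [this, Real.log_div (by positivity) (by positivity), Real.log_mul h3.ne' h4.ne',
      Real.log_mul h1.ne' h2.ne']
    ring
  unfold eInt gInt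
  rw [e1, log_one_add_div hP hy, log_one_add_div hM hy, log_one_add_div ha hy,
    log_one_add_div hb hy, log_one_add_div hd hy]
  have e2 : lamP a b d / (1 + y) + lamM a b d / (1 + y) = a / (1 + y) + b / (1 + y) + d / (1 + y) := by
    rw [← add_div, hadd, add_div, add_div]
  linarith

lemma gInt_integrable_aux {a b d : ℝ} (ha : 0 ≤ a) (hb : 0 ≤ b) (hd : 0 ≤ d) :
    IntegrableOn (fun y => eInt (lamP a b d) y + eInt (lamM a b d) y - eInt a y - eInt b y
      - eInt d y) (Ioi 0) :=
  (((((eInt_integrableOn _ (lamP_nonneg ha hb hd)).add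
    (eInt_integrableOn _ (lamM_nonneg ha hb hd))).sub (eInt_integrableOn _ ha)).sub
    (eInt_integrableOn _ hb)).sub (eInt_integrableOn _ hd))

theorem Jsc_integrable (a b d : ℝ) (ha : 0 ≤ a) (hb : 0 ≤ b) (hd : 0 ≤ d) :
    IntegrableOn (gInt a b d) (Ioi 0) :=
  (gInt_integrable_aux ha hb hd).congr_fun (fun _ hy => gInt_eq ha hb hd hy) measurableSet_Ioi

theorem Jsc_integral (a b d : ℝ) (ha : 0 ≤ a) (hb : 0 ≤ b) (hd : 0 ≤ d) :
    ∫ y in Ioi 0, gInt a b d y = Jsc a b d := by
  have hP := eInt_integrableOn _ (lamP_nonneg ha hb hd)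
  have hM := eInt_integrableOn _ (lamM_nonneg ha hb hd)
  have hA := eInt_integrableOn _ ha
  have hB := eInt_integrableOn _ hb
  have hD := eInt_integrableOn _ hd
  rw [← setIntegral_congr_fun measurableSet_Ioi (fun y hy => gInt_eq ha hb hd hy)]
  have hPM : IntegrableOn (fun y => eInt (lamP a b d) y + eInt (lamM a b d) y) (Ioi 0) := hP.add hM
  have hPMA : IntegrableOn (fun y => eInt (lamP a b d) y + eInt (lamM a b d) y - eInt a y) (Ioi 0) :=
    hPM.sub hA
  have hPMAB : IntegrableOn
      (fun y => eInt (lamP a b d) y + eInt (lamM a b d) y - eInt a y - eInt b y) (Ioi 0) :=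
    hPMA.sub hB
  have i1 : ∫ y in Ioi 0, (eInt (lamP a b d) y + eInt (lamM a b d) y - eInt a y - eInt b y
      - eInt d y) = (∫ y in Ioi 0, eInt (lamP a b d) y) + (∫ y in Ioi 0, eInt (lamM a b d) y)
      - (∫ y in Ioi 0, eInt a y) - (∫ y in Ioi 0, eInt b y) - (∫ y in Ioi 0, eInt d y) := by
    rw [integral_sub hPMAB hD, integral_sub hPMA hB, integral_sub hPM hA, integral_add hP hM]
  rw [i1, eInt_integral _ (lamP_nonneg ha hb hd), eInt_integral _ (lamM_nonneg ha hb hd),
    eInt_integral _ ha, eInt_integral _ hb, eInt_integral _ hd]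
  unfold Jsc
  have := lam_add a b d
  linarith

lemma lamP_smul {t a b d : ℝ} (ht : 0 < t) : lamP (t * a) (t * b) (t * d) = t * lamP a b d := by
  unfold lamP
  have : (t * a + t * b + t * d) ^ 2 - 4 * (t * b * (t * d)) =
      t ^ 2 * ((a + b + d) ^ 2 - 4 * (b * d)) := by ring
  rw [this, Real.sqrt_mul (by positivity), Real.sqrt_sq ht.le]
  ring

lemma lamM_smul {t a b d : ℝ} (ht : 0 < t) : lamM (t * a) (t * b) (t * d) = t * lamM a b d := by
  unfold lamM
  have : (t * a + t * b + t * d) ^ 2 - 4 * (t * b * (t * d)) =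
      t ^ 2 * ((a + b + d) ^ 2 - 4 * (b * d)) := by ring
  rw [this, Real.sqrt_mul (by positivity), Real.sqrt_sq ht.le]
  ring

/-- `Jsc` is homogeneous of degree one. -/
lemma Jsc_smul (t a b d : ℝ) (ht : 0 < t) (_ha : 0 ≤ a) (_hb : 0 ≤ b) (_hd : 0 ≤ d) :
    Jsc (t * a) (t * b) (t * d) = t * Jsc a b d := by
  unfold Jsc
  rw [lamP_smul ht, lamM_smul ht, negMulLog_mul, negMulLog_mul, negMulLog_mul, negMulLog_mul,
    negMulLog_mul]
  have := lam_add a b d
  have e : (lamP a b d + lamM a b d) * negMulLog t = (a + b + d) * negMulLog t := by rw [this]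
  linarith

lemma Jsc_zero {b d : ℝ} (hb : 0 ≤ b) (hd : 0 ≤ d) : Jsc 0 b d = 0 := by
  rw [← Jsc_integral 0 b d le_rfl hb hd]
  simp [gInt]

/-- The convex function behind the scalar subadditivity. -/
noncomputable def hlog (k x : ℝ) : ℝ := Real.log (x ^ 2 + k) - 2 * Real.log x

lemma hlog_convex {k : ℝ} (hk : 0 ≤ k) : ConvexOn ℝ (Ioi 0) (hlog k) := by
  have hD : interior (Ioi (0 : ℝ)) = Ioi 0 := interior_Ioi
  refine convexOn_of_hasDerivWithinAt2_nonneg (convex_Ioi 0)
    (f' := fun x => 2 * x / (x ^ 2 + k) - 2 * x⁻¹)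
    (f'' := fun x => (2 * (x ^ 2 + k) - 2 * x * (2 * x)) / (x ^ 2 + k) ^ 2 + 2 / x ^ 2) ?_ ?_ ?_ ?_
  · intro x hx
    have hx' : 0 < x := hx
    apply ContinuousAt.continuousWithinAt
    unfold hlog
    apply ContinuousAt.sub
    · apply ContinuousAt.log (by fun_prop)
      positivity
    · apply ContinuousAt.mul continuousAt_const
      exact Real.continuousAt_log hx'.ne'
  · intro x hx
    rw [hD] at hx ⊢
    have hx' : 0 < x := hx
    apply HasDerivAt.hasDerivWithinAt
    have h1 : HasDerivAt (fun t : ℝ => t ^ 2 + k) (2 * x) x := by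
      have := ((hasDerivAt_id x).pow 2).add_const k
      simpa using this
    have h2 := h1.log (by positivity : x ^ 2 + k ≠ 0)
    have h3 := (Real.hasDerivAt_log hx'.ne').const_mul 2
    exact h2.sub h3
  · intro x hx
    rw [hD] at hx ⊢
    have hx' : 0 < x := hx
    apply HasDerivAt.hasDerivWithinAt
    have h1 : HasDerivAt (fun t : ℝ => t ^ 2 + k) (2 * x) x := by
      have := ((hasDerivAt_id x).pow 2).add_const k
      simpa using this
    have h2 : HasDerivAt (fun t : ℝ => 2 * t) 2 x := by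
      simpa using (hasDerivAt_id x).const_mul (2 : ℝ)
    have h3 := h2.fun_div h1 (by positivity : x ^ 2 + k ≠ 0)
    have h4 : HasDerivAt (fun t : ℝ => 2 * t⁻¹) (-2 / x ^ 2) x := by
      have := (hasDerivAt_inv hx'.ne').const_mul (2 : ℝ)
      refine this.congr_deriv ?_
      ring
    have h5 := h3.fun_sub h4
    refine h5.congr_deriv ?_
    have : x ^ 2 + k ≠ 0 := by positivity
    field_simp
    ring
  · intro x hx
    rw [hD] at hx
    have hx' : 0 < x := hx
    have h0 : 0 < x ^ 2 + k := by positivity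
    have : (2 * (x ^ 2 + k) - 2 * x * (2 * x)) / (x ^ 2 + k) ^ 2 + 2 / x ^ 2 =
        (6 * k * x ^ 2 + 2 * k ^ 2) / ((x ^ 2 + k) ^ 2 * x ^ 2) := by
      field_simp
      ring
    rw [this]
    positivity

lemma hlog_sqrt {k A : ℝ} (hk : 0 ≤ k) (hA : 0 < A) :
    hlog k (√A) = Real.log (1 + k / A) := by
  unfold hlog
  rw [Real.sq_sqrt hA.le, Real.log_sqrt hA.le]
  have : 1 + k / A = (A + k) / A := by field_simp
  rw [this, Real.log_div (by positivity) hA.ne']
  ring

lemma log_one_add_div_anti {k A B : ℝ} (hk : 0 ≤ k) (hA : 0 < A) (hAB : A ≤ B) :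
    Real.log (1 + k / B) ≤ Real.log (1 + k / A) := by
  have hB : 0 < B := lt_of_lt_of_le hA hAB
  apply Real.log_le_log (by positivity)
  have : k / B ≤ k / A := div_le_div_of_nonneg_left hk hA hAB
  linarith

/-- Pointwise Jensen inequality. -/
lemma log_jensen {κ : Type} (S : Finset κ) (w A C : κ → ℝ) {k : ℝ} (hk : 0 ≤ k)
    (hw : ∀ i ∈ S, 0 ≤ w i) (hw1 : ∑ i ∈ S, w i = 1) (hA : ∀ i ∈ S, 0 < A i)
    (hC : ∀ i ∈ S, 0 < C i) :
    Real.log (1 + k / ((∑ i ∈ S, w i * A i) * (∑ i ∈ S, w i * C i))) ≤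
      ∑ i ∈ S, w i * Real.log (1 + k / (A i * C i)) := by
  classical
  -- the set has a point of positive weight
  have hne : S.Nonempty := by
    by_contra h
    rw [Finset.not_nonempty_iff_eq_empty] at h
    subst h
    simp at hw1
  have hv : ∀ i ∈ S, 0 < √(A i * C i) := fun i hi =>
    Real.sqrt_pos.mpr (mul_pos (hA i hi) (hC i hi))
  have hJ := (hlog_convex hk).map_sum_le (t := S) (w := w) (p := fun i => √(A i * C i)) hw hw1
    (fun i hi => hv i hi)
  simp only [smul_eq_mul] at hJ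
  have hsum : ∑ i ∈ S, w i * hlog k (√(A i * C i)) =
      ∑ i ∈ S, w i * Real.log (1 + k / (A i * C i)) := by
    apply Finset.sum_congr rfl
    intro i hi
    rw [hlog_sqrt hk (mul_pos (hA i hi) (hC i hi))]
  rw [hsum] at hJ
  refine le_trans ?_ hJ
  -- now compare the square of the mean with the product of means
  set v := ∑ i ∈ S, w i * √(A i * C i) with hvdef
  have hvpos : 0 < v := by
    have : ∃ i ∈ S, 0 < w i := by
      by_contra h
      have h' : ∀ i ∈ S, w i ≤ 0 := fun i hi => not_lt.mp (fun hp => h ⟨i, hi, hp⟩)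
      have : ∑ i ∈ S, w i ≤ 0 := Finset.sum_nonpos h'
      linarith
    obtain ⟨i, hi, hwi⟩ := this
    apply Finset.sum_pos'
    · intro j hj
      exact mul_nonneg (hw j hj) (hv j hj).le
    · exact ⟨i, hi, mul_pos hwi (hv i hi)⟩
  have hCS : v ^ 2 ≤ (∑ i ∈ S, w i * A i) * (∑ i ∈ S, w i * C i) := by
    have h1 := Finset.sum_mul_sq_le_sq_mul_sq S (fun i => √(w i * A i)) (fun i => √(w i * C i))
    have e1 : ∑ i ∈ S, √(w i * A i) * √(w i * C i) = v := by
      apply Finset.sum_congr rfl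
      intro i hi
      rw [← Real.sqrt_mul (mul_nonneg (hw i hi) (hA i hi).le)]
      have : w i * A i * (w i * C i) = w i ^ 2 * (A i * C i) := by ring
      rw [this, Real.sqrt_mul (by positivity), Real.sqrt_sq (hw i hi)]
    have e2 : ∑ i ∈ S, √(w i * A i) ^ 2 = ∑ i ∈ S, w i * A i := by
      apply Finset.sum_congr rfl
      intro i hi
      rw [Real.sq_sqrt (mul_nonneg (hw i hi) (hA i hi).le)]
    have e3 : ∑ i ∈ S, √(w i * C i) ^ 2 = ∑ i ∈ S, w i * C i := by
      apply Finset.sum_congr rfl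
      intro i hi
      rw [Real.sq_sqrt (mul_nonneg (hw i hi) (hC i hi).le)]
    rw [e1, e2, e3] at h1
    exact h1
  have hk2 : hlog k v = Real.log (1 + k / v ^ 2) := by
    have := hlog_sqrt hk (show 0 < v ^ 2 by positivity)
    rwa [Real.sqrt_sq hvpos.le] at this
  rw [hk2]
  exact log_one_add_div_anti hk (by positivity) hCS

/-- `Jsc` is subadditive. -/
theorem Jsc_subadd {κ : Type} [Fintype κ] (a b d : κ → ℝ) (ha : ∀ k, 0 ≤ a k) (hb : ∀ k, 0 ≤ b k)
    (hd : ∀ k, 0 ≤ d k) :
    Jsc (∑ k, a k) (∑ k, b k) (∑ k, d k) ≤ ∑ k, Jsc (a k) (b k) (d k) := by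
  classical
  set u := ∑ k, a k with hu
  have hu0 : 0 ≤ u := Finset.sum_nonneg (fun k _ => ha k)
  have hB0 : 0 ≤ ∑ k, b k := Finset.sum_nonneg (fun k _ => hb k)
  have hD0 : 0 ≤ ∑ k, d k := Finset.sum_nonneg (fun k _ => hd k)
  rcases hu0.eq_or_lt with h0 | hupos
  · -- all `a k` vanish
    have hak : ∀ k, a k = 0 := by
      intro k
      have := (Finset.sum_eq_zero_iff_of_nonneg (fun k _ => ha k)).mp (by rw [← hu, ← h0])
        k (Finset.mem_univ k)
      exact this
    rw [← h0, Jsc_zero hB0 hD0]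
    apply le_of_eq
    symm
    apply Finset.sum_eq_zero
    intro k _
    rw [hak k, Jsc_zero (hb k) (hd k)]
  · set S := Finset.univ.filter (fun k => 0 < a k) with hS
    have hmem : ∀ k, k ∈ S ↔ 0 < a k := by intro k; simp [hS]
    have hzero : ∀ k, k ∉ S → a k = 0 := by
      intro k hk
      have h1 : ¬ 0 < a k := fun h => hk ((hmem k).mpr h)
      exact le_antisymm (not_lt.mp h1) (ha k)
    set w : κ → ℝ := fun k => a k / u with hw
    have hwpos : ∀ k ∈ S, 0 < w k := fun k hk => div_pos ((hmem k).mp hk) hupos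
    have hwS : ∑ k ∈ S, w k = 1 := by
      have h1 : ∑ k ∈ S, a k = u := by
        rw [hu]
        apply Finset.sum_subset (Finset.subset_univ S)
        intro k _ hk
        exact hzero k hk
      simp only [hw]
      rw [← Finset.sum_div, h1, div_self hupos.ne']
    set β : κ → ℝ := fun k => b k / w k with hβ
    set δ : κ → ℝ := fun k => d k / w k with hδ
    have hβ0 : ∀ k ∈ S, 0 ≤ β k := fun k hk => div_nonneg (hb k) (hwpos k hk).le
    have hδ0 : ∀ k ∈ S, 0 ≤ δ k := fun k hk => div_nonneg (hd k) (hwpos k hk).le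
    have hJ : ∀ k ∈ S, Jsc (a k) (b k) (d k) = w k * Jsc u (β k) (δ k) := by
      intro k hk
      have hwk := hwpos k hk
      rw [← Jsc_smul (w k) u (β k) (δ k) hwk hu0 (hβ0 k hk) (hδ0 k hk)]
      have e1 : w k * u = a k := by simp only [hw]; field_simp
      have e2 : w k * β k = b k := by simp only [hβ]; field_simp
      have e3 : w k * δ k = d k := by simp only [hδ]; field_simp
      rw [e1, e2, e3]
    have hsum : ∑ k, Jsc (a k) (b k) (d k) = ∑ k ∈ S, w k * Jsc u (β k) (δ k) := by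
      rw [← Finset.sum_subset (Finset.subset_univ S)]
      · exact Finset.sum_congr rfl hJ
      · intro k _ hk
        rw [hzero k hk, Jsc_zero (hb k) (hd k)]
    rw [hsum, ← Jsc_integral u _ _ hu0 hB0 hD0]
    have hint : ∀ k ∈ S, IntegrableOn (gInt u (β k) (δ k)) (Ioi 0) :=
      fun k hk => Jsc_integrable u _ _ hu0 (hβ0 k hk) (hδ0 k hk)
    have hexp : ∑ k ∈ S, w k * Jsc u (β k) (δ k) =
        ∫ y in Ioi 0, ∑ k ∈ S, w k * gInt u (β k) (δ k) y := by
      rw [integral_finsetSum]
      · apply Finset.sum_congr rfl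
        intro k hk
        rw [integral_const_mul, Jsc_integral u _ _ hu0 (hβ0 k hk) (hδ0 k hk)]
      · intro k hk
        exact (hint k hk).const_mul _
    rw [hexp]
    apply setIntegral_mono_on (Jsc_integrable u _ _ hu0 hB0 hD0)
      (integrable_finsetSum _ (fun k hk => (hint k hk).const_mul _)) measurableSet_Ioi
    intro y hy
    have hy' : 0 < y := hy
    -- pointwise comparison
    have hA : ∀ k ∈ S, 0 < y + β k := fun k hk => by
      have := hβ0 k hk; linarith
    have hC : ∀ k ∈ S, 0 < y + δ k := fun k hk => by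
      have := hδ0 k hk; linarith
    have hJens := log_jensen S w (fun k => y + β k) (fun k => y + δ k)
      (k := y * u) (by positivity) (fun k hk => (hwpos k hk).le) hwS hA hC
    have hmean1 : ∑ k ∈ S, w k * (y + β k) = y + ∑ k ∈ S, b k := by
      have : ∀ k ∈ S, w k * (y + β k) = w k * y + b k := by
        intro k hk
        have hwk := hwpos k hk
        simp only [hβ]; field_simp
      rw [Finset.sum_congr rfl this, Finset.sum_add_distrib, ← Finset.sum_mul, hwS, one_mul]
    have hmean2 : ∑ k ∈ S, w k * (y + δ k) = y + ∑ k ∈ S, d k := by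
      have : ∀ k ∈ S, w k * (y + δ k) = w k * y + d k := by
        intro k hk
        have hwk := hwpos k hk
        simp only [hδ]; field_simp
      rw [Finset.sum_congr rfl this, Finset.sum_add_distrib, ← Finset.sum_mul, hwS, one_mul]
    rw [hmean1, hmean2] at hJens
    have hle1 : ∑ k ∈ S, b k ≤ ∑ k, b k :=
      Finset.sum_le_sum_of_subset_of_nonneg (Finset.subset_univ S) (fun k _ _ => hb k)
    have hle2 : ∑ k ∈ S, d k ≤ ∑ k, d k :=
      Finset.sum_le_sum_of_subset_of_nonneg (Finset.subset_univ S) (fun k _ _ => hd k)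
    have hSb : 0 ≤ ∑ k ∈ S, b k := Finset.sum_nonneg (fun k _ => hb k)
    have hSd : 0 ≤ ∑ k ∈ S, d k := Finset.sum_nonneg (fun k _ => hd k)
    have hmono : Real.log (1 + y * u / ((y + ∑ k, b k) * (y + ∑ k, d k))) ≤
        Real.log (1 + y * u / ((y + ∑ k ∈ S, b k) * (y + ∑ k ∈ S, d k))) := by
      apply log_one_add_div_anti (by positivity) (by positivity)
      apply mul_le_mul (by linarith) (by linarith) (by positivity) (by positivity)
    have hexpand : ∑ k ∈ S, w k * gInt u (β k) (δ k) y =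
        ∑ k ∈ S, w k * Real.log (1 + y * u / ((y + β k) * (y + δ k))) - Real.log (1 + u / y) := by
      unfold gInt
      simp only [mul_sub]
      rw [Finset.sum_sub_distrib, ← Finset.sum_mul, hwS, one_mul]
    rw [hexpand]
    unfold gInt
    linarith

end Vale.Agent.P358
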