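import Vale.Agent.Lib.P358.PinY
import Vale.Agent.Lib.P358.Scalar

/-!
# P358: the entropic conditional inequality (ECI)
-/

set_option linter.unusedSimpArgs false
set_option linter.unusedSectionVars false

open Matrix Real MeasureTheory Set
open scoped ComplexOrder

namespace Vale.Agent.P358

variable {β : Type} [Fintype β] [DecidableEq β]

/-- Blocks of a matrix on a qubit tensor `α`. -/
def block {α : Type} (c d : Fin 2) (ρ : Matrix (Fin 2 × α) (Fin 2 × α) ℂ) : Matrix α α ℂ :=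
  fun w w' => ρ (c, w) (d, w')

/-- The rank one qubit matrix with populations `u, v`. -/
noncomputable def psi (u v : ℝ) : Matrix (Fin 2) (Fin 2) ℂ :=
  !![(u : ℂ), ((√(u * v) : ℝ) : ℂ); ((√(u * v) : ℝ) : ℂ), (v : ℂ)]

/-- The entropic conditional inequality for the parameters `γ, ν`. -/
def ECI (γ ν : ℝ) : Prop :=
  ∀ {α : Type} [Fintype α] [DecidableEq α] (ρ : Matrix (Fin 2 × α) (Fin 2 × α) ℂ),
    ρ.PosSemidef →
    stil (block 0 0 ρ) + stil (block 1 1 ρ)
        + stil (gad γ ν (psi ((block 0 0 ρ).trace.re) ((block 1 1 ρ).trace.re)))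
        - negMulLog ((block 0 0 ρ).trace.re) - negMulLog ((block 1 1 ρ).trace.re)
      ≤ stil (tensorMap (gad γ ν) id ρ)

/-- Log-determinant of a unitary conjugate of a diagonal matrix. -/
lemma LD_of_unitary_diag (U : Matrix β β ℂ) (hU : U ∈ unitaryGroup β ℂ) (d : β → ℝ)
    (hd : ∀ k, 0 ≤ d k) (X : Matrix β β ℂ) (hX : X = U * diagonal (fun k => (d k : ℂ)) * Uᴴ)
    {y : ℝ} (hy : 0 < y) : LD X y = ∑ k, Real.log (1 + d k / y) := by
  have h1 : Uᴴ * U = 1 := by
    have := (mem_unitaryGroup_iff' (A := U)).mp hU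
    simpa [star_eq_conjTranspose] using this
  have h2 : U * Uᴴ = 1 := by
    have := (mem_unitaryGroup_iff (A := U)).mp hU
    simpa [star_eq_conjTranspose] using this
  have e : 1 + ((y⁻¹ : ℝ) : ℂ) • X =
      U * diagonal (fun k => (((1 + d k / y : ℝ)) : ℂ)) * Uᴴ := by
    have : diagonal (fun k => (((1 + d k / y : ℝ)) : ℂ)) =
        1 + ((y⁻¹ : ℝ) : ℂ) • diagonal (fun k => (d k : ℂ)) := by
      ext i j
      by_cases h : i = j
      · subst h
        simp [div_eq_mul_inv, mul_comm]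
      · simp [h]
    rw [this, Matrix.mul_add, Matrix.add_mul, Matrix.mul_one, h2, hX, Matrix.mul_smul,
      Matrix.smul_mul]
  unfold LD
  rw [e, det_mul, det_mul, det_diagonal, mul_comm, ← mul_assoc]
  have h3 : (Uᴴ).det * U.det = 1 := by rw [← det_mul, h1, det_one]
  rw [h3, one_mul, ← Complex.ofReal_prod, Complex.ofReal_re,
    Real.log_prod (fun k _ => by have := hd k; positivity)]

lemma trace_fromBlocks' {m n : Type} [Fintype m] [Fintype n] (A : Matrix m m ℂ) (B : Matrix m n ℂ)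
    (C : Matrix n m ℂ) (D : Matrix n n ℂ) : (fromBlocks A B C D).trace = A.trace + D.trace := by
  simp [Matrix.trace, Fintype.sum_sum_type]

/-- Square version: entropy form of the pinching inequality. -/
theorem pin_entropy (c s : ℝ) (A B₁ B₂ U V : Matrix β β ℂ) (g : β → ℝ)
    (hU : U ∈ unitaryGroup β ℂ) (hV : V ∈ unitaryGroup β ℂ) (hg : ∀ k, 0 ≤ g k)
    (hA : A = U * diagonal (fun k => (g k : ℂ)) * Vᴴ) :
    ∑ k, Jsc ((g k) ^ 2) (s ^ 2 * ((Uᴴ * (B₁ * B₁ᴴ) * U) k k).re)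
        (c ^ 2 * ((Vᴴ * (B₂ᴴ * B₂) * V) k k).re) ≤
      stil (sigmaBlock c s A B₁ B₂) - stil (A * Aᴴ) - stil (((s ^ 2 : ℝ) : ℂ) • (B₁ * B₁ᴴ))
        - stil (((c ^ 2 : ℝ) : ℂ) • (B₂ᴴ * B₂)) := by
  set σ := sigmaBlock c s A B₁ B₂ with hσ
  set P := A * Aᴴ with hP
  set Rs : Matrix β β ℂ := ((s ^ 2 : ℝ) : ℂ) • (B₁ * B₁ᴴ) with hRs
  set Rc : Matrix β β ℂ := ((c ^ 2 : ℝ) : ℂ) • (B₂ᴴ * B₂) with hRc
  have hσp : σ.PosSemidef := sigmaBlock_posSemidef c s A B₁ B₂
  have hPp : P.PosSemidef := posSemidef_self_mul_conjTranspose A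
  have hs2 : (0 : ℂ) ≤ ((s ^ 2 : ℝ) : ℂ) := by exact_mod_cast sq_nonneg s
  have hc2 : (0 : ℂ) ≤ ((c ^ 2 : ℝ) : ℂ) := by exact_mod_cast sq_nonneg c
  have hRsp : Rs.PosSemidef := (posSemidef_self_mul_conjTranspose B₁).smul hs2
  have hRcp : Rc.PosSemidef := (posSemidef_conjTranspose_mul_self B₂).smul hc2
  -- traces
  have htr : (σ.trace).re = (P.trace).re + (Rs.trace).re + (Rc.trace).re := by
    simp only [hσ, sigmaBlock, trace_fromBlocks', trace_add, trace_smul, hRs, hRc, hP,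
      Complex.add_re, smul_eq_mul, Complex.re_ofReal_mul]
    rw [trace_mul_comm B₂ᴴ B₂]
  -- the pinched scalars
  set r : β → ℝ := fun k => ((Uᴴ * (B₁ * B₁ᴴ) * U) k k).re with hr
  set rh : β → ℝ := fun k => ((Vᴴ * (B₂ᴴ * B₂) * V) k k).re with hrh
  have hrnn : ∀ k, 0 ≤ r k := by
    intro k
    have := ((posSemidef_self_mul_conjTranspose B₁).conjTranspose_mul_mul_same U).diag_nonneg
      (i := k)
    exact (Complex.le_def.mp this).1
  have hrhnn : ∀ k, 0 ≤ rh k := by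
    intro k
    have := ((posSemidef_conjTranspose_mul_self B₂).conjTranspose_mul_mul_same V).diag_nonneg
      (i := k)
    exact (Complex.le_def.mp this).1
  have hb : ∀ k, 0 ≤ s ^ 2 * r k := fun k => mul_nonneg (sq_nonneg s) (hrnn k)
  have hd : ∀ k, 0 ≤ c ^ 2 * rh k := fun k => mul_nonneg (sq_nonneg c) (hrhnn k)
  have ha : ∀ k, 0 ≤ (g k) ^ 2 := fun k => sq_nonneg _
  -- `P` in terms of `g`
  have hPdiag : P = U * diagonal (fun k => (((g k) ^ 2 : ℝ) : ℂ)) * Uᴴ := by
    have hV1 : Vᴴ * V = 1 := by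
      have := (mem_unitaryGroup_iff' (A := V)).mp hV
      simpa [star_eq_conjTranspose] using this
    have hdd : (diagonal (fun k => (g k : ℂ)))ᴴ = diagonal (fun k => (g k : ℂ)) := by
      rw [diagonal_conjTranspose]
      congr 1
      ext k
      simp
    rw [hP, hA]
    simp only [conjTranspose_mul, conjTranspose_conjTranspose, hdd]
    calc U * diagonal (fun k => (g k : ℂ)) * Vᴴ * (V * (diagonal (fun k => (g k : ℂ)) * Uᴴ))
        = U * diagonal (fun k => (g k : ℂ)) * (Vᴴ * V) * (diagonal (fun k => (g k : ℂ)) * Uᴴ) := by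
          simp only [Matrix.mul_assoc]
      _ = U * (diagonal (fun k => (g k : ℂ)) * diagonal (fun k => (g k : ℂ))) * Uᴴ := by
          rw [hV1, Matrix.mul_one]; simp only [Matrix.mul_assoc]
      _ = _ := by
          rw [diagonal_mul_diagonal]
          congr 2
          ext k
          push_cast
          ring_nf
  -- integrate
  obtain ⟨iσ, vσ⟩ := stil_integral σ hσp
  obtain ⟨iP, vP⟩ := stil_integral P hPp
  obtain ⟨iRs, vRs⟩ := stil_integral Rs hRsp
  obtain ⟨iRc, vRc⟩ := stil_integral Rc hRcp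
  have hleft : IntegrableOn (fun y => ∑ k, gInt ((g k) ^ 2) (s ^ 2 * r k) (c ^ 2 * rh k) y) (Ioi 0) :=
    integrable_finsetSum _ fun k _ => Jsc_integrable _ _ _ (ha k) (hb k) (hd k)
  have hright : IntegrableOn (fun y => (LD σ y - (σ.trace).re / (1 + y))
      - (LD P y - (P.trace).re / (1 + y)) - (LD Rs y - (Rs.trace).re / (1 + y))
      - (LD Rc y - (Rc.trace).re / (1 + y))) (Ioi 0) :=
    ((iσ.sub iP).sub iRs).sub iRc
  have hle := setIntegral_mono_on hleft hright measurableSet_Ioi (by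
    intro y hy
    have hy0 : 0 < y := hy
    have hpin := pin_y c s y hy0 A B₁ B₂ U V g hU hV hA
    have hLP : LD P y = ∑ k, Real.log (1 + (g k) ^ 2 / y) :=
      LD_of_unitary_diag U hU _ ha P hPdiag hy0
    simp only [gInt, Finset.sum_sub_distrib]
    have e : (σ.trace).re / (1 + y) = (P.trace).re / (1 + y) + (Rs.trace).re / (1 + y)
        + (Rc.trace).re / (1 + y) := by
      rw [htr]; ring
    rw [hLP, e]
    have hpin' : ∑ k, Real.log (1 + y * (g k) ^ 2 / ((y + s ^ 2 * r k) * (y + c ^ 2 * rh k))) ≤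
        LD σ y - LD Rs y - LD Rc y := hpin
    linarith [hpin'])
  rw [integral_finsetSum _ (fun k _ => Jsc_integrable _ _ _ (ha k) (hb k) (hd k))] at hle
  simp only [Jsc_integral _ _ _ (ha _) (hb _) (hd _)] at hle
  have h1 : IntegrableOn (fun y => (LD σ y - (σ.trace).re / (1 + y))
      - (LD P y - (P.trace).re / (1 + y))) (Ioi 0) := iσ.sub iP
  have h2 : IntegrableOn (fun y => (LD σ y - (σ.trace).re / (1 + y))
      - (LD P y - (P.trace).re / (1 + y)) - (LD Rs y - (Rs.trace).re / (1 + y))) (Ioi 0) :=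
    h1.sub iRs
  rw [integral_sub h2 iRc, integral_sub h1 iRs, integral_sub iσ iP, vσ, vP, vRs, vRc] at hle
  linarith


/-- Sum of the diagonal real parts is the trace. -/
lemma sum_diag_re (Y : Matrix β β ℂ) : ∑ k, (Y k k).re = (Y.trace).re := by
  simp [Matrix.trace]

/-- The trace is invariant under unitary conjugation. -/
lemma trace_unitary_conj (U X : Matrix β β ℂ) (hU : U ∈ unitaryGroup β ℂ) :
    (Uᴴ * X * U).trace = X.trace := by
  have h2 : U * Uᴴ = 1 := by
    have := (mem_unitaryGroup_iff (A := U)).mp hU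
    simpa [star_eq_conjTranspose] using this
  rw [trace_mul_comm, ← Matrix.mul_assoc, h2, Matrix.one_mul]

/-- The singular values squared sum to the trace. -/
lemma sum_sq_svd (A U V : Matrix β β ℂ) (g : β → ℝ) (hU : U ∈ unitaryGroup β ℂ)
    (hV : V ∈ unitaryGroup β ℂ) (hA : A = U * diagonal (fun k => (g k : ℂ)) * Vᴴ) :
    ∑ k, (g k) ^ 2 = ((A * Aᴴ).trace).re := by
  have hV1 : Vᴴ * V = 1 := by
    have := (mem_unitaryGroup_iff' (A := V)).mp hV
    simpa [star_eq_conjTranspose] using this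
  have hdd : (diagonal (fun k => (g k : ℂ)))ᴴ = diagonal (fun k => (g k : ℂ)) := by
    rw [diagonal_conjTranspose]
    congr 1
    ext k
    simp
  have e : A * Aᴴ = U * (diagonal (fun k => (g k : ℂ)) * diagonal (fun k => (g k : ℂ))) * Uᴴ := by
    rw [hA]
    simp only [conjTranspose_mul, conjTranspose_conjTranspose, hdd]
    calc U * diagonal (fun k => (g k : ℂ)) * Vᴴ * (V * (diagonal (fun k => (g k : ℂ)) * Uᴴ))
        = U * diagonal (fun k => (g k : ℂ)) * (Vᴴ * V) * (diagonal (fun k => (g k : ℂ)) * Uᴴ) := by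
          simp only [Matrix.mul_assoc]
      _ = _ := by
          rw [hV1, Matrix.mul_one]; simp only [Matrix.mul_assoc]
  have h2 : Uᴴ * U = 1 := by
    have := (mem_unitaryGroup_iff' (A := U)).mp hU
    simpa [star_eq_conjTranspose] using this
  rw [e, trace_mul_comm, ← Matrix.mul_assoc, h2, Matrix.one_mul, diagonal_mul_diagonal,
    trace_diagonal]
  simp [pow_two]

variable {α : Type} [Fintype α] [DecidableEq α]

/-- The isometric embedding of `α` into `Fin 2 × α` as the slice `0`. -/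
def isoE (α : Type) [DecidableEq α] : Matrix (Fin 2 × α) α ℂ :=
  fun p a => if p = (0, a) then 1 else 0

lemma isoE_mul : (isoE α)ᴴ * isoE α = 1 := by
  ext a b
  simp only [Matrix.mul_apply, conjTranspose_apply, isoE, Fintype.sum_prod_type, Fin.sum_univ_two,
    Matrix.one_apply]
  simp [Prod.ext_iff]
  by_cases h : a = b
  · subst h; simp
  · simp [h, eq_comm]

/-- Conjugating with an isometry does not change the entropy. -/
lemma stil_isometry {m n : Type} [Fintype m] [DecidableEq m] [Fintype n] [DecidableEq n]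
    (E : Matrix m n ℂ) (hE : Eᴴ * E = 1) (X : Matrix n n ℂ) (hX : X.IsHermitian) :
    stil (E * X * Eᴴ) = stil X := by
  have h1 : (E * X * Eᴴ).IsHermitian := isHermitian_mul_mul_conjTranspose E hX
  have h2 : (Eᴴ * (E * X)) = X := by rw [← Matrix.mul_assoc, hE, Matrix.one_mul]
  have := stil_mul_comm (E * X) Eᴴ h1 (by rw [h2]; exact hX)
  rw [this, h2]

/-- The equivalence of `α ⊕ α` with the qubit tensor `α`. -/
def sumEquiv (α : Type) : α ⊕ α ≃ Fin 2 × α where
  toFun := Sum.elim (fun a => (0, a)) (fun a => (1, a))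
  invFun := fun p => if p.1 = 0 then Sum.inl p.2 else Sum.inr p.2
  left_inv := by
    rintro (a | a) <;> simp
  right_inv := by
    rintro ⟨i, a⟩
    fin_cases i <;> simp

/-- The output blocks in terms of the two rows of a factor. -/
noncomputable def outBlocks {ω : Type} (c s : ℝ) (G0 G1 : Matrix α ω ℂ) [Fintype ω] :
    Matrix (α ⊕ α) (α ⊕ α) ℂ :=
  fromBlocks (G0 * G0ᴴ + ((s ^ 2 : ℝ) : ℂ) • (G1 * G1ᴴ)) (((c : ℝ) : ℂ) • (G0 * G1ᴴ))
    (((c : ℝ) : ℂ) • (G1 * G0ᴴ)) (((c ^ 2 : ℝ) : ℂ) • (G1 * G1ᴴ))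

lemma sigmaBlock_eq_outBlocks (c s : ℝ) (G0 G1 : Matrix α (Fin 2 × α) ℂ) :
    sigmaBlock c s (isoE α * G0) (isoE α * G1) (isoE α * G1) =
      fromBlocks (isoE α) 0 0 (isoE α) * outBlocks c s G0 G1 *
        (fromBlocks (isoE α) 0 0 (isoE α))ᴴ := by
  simp only [sigmaBlock, outBlocks, fromBlocks_conjTranspose, fromBlocks_multiply,
    conjTranspose_zero, Matrix.zero_mul, Matrix.mul_zero, add_zero, zero_add, conjTranspose_mul,
    Matrix.mul_add, Matrix.add_mul, Matrix.mul_smul, Matrix.smul_mul, Matrix.mul_assoc, smul_zero]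

lemma isoE_sum_mul : (fromBlocks (isoE α) 0 0 (isoE α))ᴴ * fromBlocks (isoE α) 0 0 (isoE α) = 1 := by
  simp only [fromBlocks_conjTranspose, fromBlocks_multiply, conjTranspose_zero, Matrix.zero_mul,
    Matrix.mul_zero, add_zero, zero_add, isoE_mul, fromBlocks_one]

lemma outBlocks_eq_conj (c s : ℝ) (G0 G1 : Matrix α (Fin 2 × α) ℂ) :
    outBlocks c s G0 G1 = (fromBlocks (isoE α) 0 0 (isoE α))ᴴ *
      sigmaBlock c s (isoE α * G0) (isoE α * G1) (isoE α * G1) *
      fromBlocks (isoE α) 0 0 (isoE α) := by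
  rw [sigmaBlock_eq_outBlocks]
  have h := isoE_sum_mul (α := α)
  calc outBlocks c s G0 G1
      = ((fromBlocks (isoE α) 0 0 (isoE α))ᴴ * fromBlocks (isoE α) 0 0 (isoE α)) *
          outBlocks c s G0 G1 *
          ((fromBlocks (isoE α) 0 0 (isoE α))ᴴ * fromBlocks (isoE α) 0 0 (isoE α)) := by
        rw [h, Matrix.one_mul, Matrix.mul_one]
    _ = _ := by simp only [Matrix.mul_assoc]

lemma outBlocks_posSemidef (c s : ℝ) (G0 G1 : Matrix α (Fin 2 × α) ℂ) :
    (outBlocks c s G0 G1).PosSemidef := by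
  rw [outBlocks_eq_conj]
  exact (sigmaBlock_posSemidef c s _ _ _).conjTranspose_mul_mul_same _

lemma stil_sigmaBlock_eq (c s : ℝ) (G0 G1 : Matrix α (Fin 2 × α) ℂ) :
    stil (sigmaBlock c s (isoE α * G0) (isoE α * G1) (isoE α * G1)) = stil (outBlocks c s G0 G1) := by
  rw [sigmaBlock_eq_outBlocks]
  exact stil_isometry _ isoE_sum_mul _ (outBlocks_posSemidef c s G0 G1).isHermitian

/-- Output entropy of the rank one matrix `psi u v` under amplitude damping. -/
lemma stil_gad_psi (γ u v : ℝ) (h0 : 0 ≤ γ) (h1 : γ ≤ 1) (hu : 0 ≤ u) (hv : 0 ≤ v) :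
    stil (gad γ 0 (psi u v)) = negMulLog (lamP u (γ * v) ((1 - γ) * v))
      + negMulLog (lamM u (γ * v) ((1 - γ) * v)) := by
  have hc : √(1 - γ) * √(1 - γ) = 1 - γ := Real.mul_self_sqrt (by linarith)
  have hq : √(u * v) * √(u * v) = u * v := Real.mul_self_sqrt (mul_nonneg hu hv)
  have e : gad γ 0 (psi u v) = !![((u + γ * v : ℝ) : ℂ), ((√(1 - γ) * √(u * v) : ℝ) : ℂ);
      ((√(1 - γ) * √(u * v) : ℝ) : ℂ), (((1 - γ) * v : ℝ) : ℂ)] := by
    ext i j
    fin_cases i <;> fin_cases j <;> simp [gad, psi] <;> ring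
  have hH : (gad γ 0 (psi u v)).IsHermitian := by
    rw [e]
    ext i j
    fin_cases i <;> fin_cases j <;> simp [Matrix.conjTranspose_apply]
  have htr : ((gad γ 0 (psi u v)).trace).re = u + γ * v + (1 - γ) * v := by
    rw [e, Matrix.trace_fin_two]
    simp
  have hdet : ((gad γ 0 (psi u v)).det).re = (γ * v) * ((1 - γ) * v) := by
    rw [e, Matrix.det_fin_two]
    simp only [Matrix.of_apply, Matrix.cons_val', Matrix.cons_val_zero, Matrix.cons_val_one,
      Matrix.cons_val_fin_one, ← Complex.ofReal_mul, ← Complex.ofReal_sub, Complex.ofReal_re]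
    nlinarith [hc, hq]
  rw [stil_two _ hH, htr, hdet]
  unfold lamP lamM
  simp only [mul_assoc]


/-- The core inequality in terms of the rows of a factor. -/
theorem ECI_core (γ : ℝ) (h0 : 0 ≤ γ) (h1 : γ ≤ 1) (G0 G1 : Matrix α (Fin 2 × α) ℂ) :
    stil (G0 * G0ᴴ) + stil (G1 * G1ᴴ)
        + stil (gad γ 0 (psi (((G0 * G0ᴴ).trace).re) (((G1 * G1ᴴ).trace).re)))
        - negMulLog (((G0 * G0ᴴ).trace).re) - negMulLog (((G1 * G1ᴴ).trace).re)
      ≤ stil (outBlocks (√(1 - γ)) (√γ) G0 G1) := by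
  set c := √(1 - γ) with hc
  set s := √γ with hs
  have hc2 : c ^ 2 = 1 - γ := Real.sq_sqrt (by linarith)
  have hs2 : s ^ 2 = γ := Real.sq_sqrt h0
  set E := isoE α with hE
  have hEE : Eᴴ * E = 1 := isoE_mul
  set A := E * G0 with hA
  set B := E * G1 with hB
  obtain ⟨U, V, g, hU, hV, hg, hAs⟩ := exists_svd A
  have hpin := pin_entropy c s A B B U V g hU hV hg hAs
  rw [stil_sigmaBlock_eq] at hpin
  set P := G0 * G0ᴴ with hP
  set R := G1 * G1ᴴ with hR
  have hPp : P.PosSemidef := posSemidef_self_mul_conjTranspose G0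
  have hRp : R.PosSemidef := posSemidef_self_mul_conjTranspose G1
  have eA : A * Aᴴ = E * P * Eᴴ := by
    simp only [hA, hP, conjTranspose_mul, Matrix.mul_assoc]
  have eB : B * Bᴴ = E * R * Eᴴ := by
    simp only [hB, hR, conjTranspose_mul, Matrix.mul_assoc]
  have sA : stil (A * Aᴴ) = stil P := by rw [eA]; exact stil_isometry E hEE P hPp.isHermitian
  have sB : stil (B * Bᴴ) = stil R := by rw [eB]; exact stil_isometry E hEE R hRp.isHermitian
  have sB' : stil (Bᴴ * B) = stil R := by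
    rw [← sB]
    exact stil_mul_comm Bᴴ B (isHermitian_conjTranspose_mul_self B)
      (isHermitian_mul_conjTranspose_self B)
  have tA : ((A * Aᴴ).trace).re = (P.trace).re := by
    rw [eA, trace_mul_comm, ← Matrix.mul_assoc, hEE, Matrix.one_mul]
  have tB : ((B * Bᴴ).trace).re = (R.trace).re := by
    rw [eB, trace_mul_comm, ← Matrix.mul_assoc, hEE, Matrix.one_mul]
  have tB' : ((Bᴴ * B).trace).re = (R.trace).re := by
    rw [trace_mul_comm, tB]
  set u := (P.trace).re with hu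
  set v := (R.trace).re with hv
  have hu0 : 0 ≤ u := by
    have := hPp.trace_nonneg
    exact (Complex.le_def.mp this).1
  have hv0 : 0 ≤ v := by
    have := hRp.trace_nonneg
    exact (Complex.le_def.mp this).1
  -- scalars
  set r : Fin 2 × α → ℝ := fun k => ((Uᴴ * (B * Bᴴ) * U) k k).re with hr
  set rh : Fin 2 × α → ℝ := fun k => ((Vᴴ * (Bᴴ * B) * V) k k).re with hrh
  have hrnn : ∀ k, 0 ≤ r k := by
    intro k
    have := ((posSemidef_self_mul_conjTranspose B).conjTranspose_mul_mul_same U).diag_nonneg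
      (i := k)
    exact (Complex.le_def.mp this).1
  have hrhnn : ∀ k, 0 ≤ rh k := by
    intro k
    have := ((posSemidef_conjTranspose_mul_self B).conjTranspose_mul_mul_same V).diag_nonneg
      (i := k)
    exact (Complex.le_def.mp this).1
  have sumr : ∑ k, r k = v := by
    rw [hr, sum_diag_re (Uᴴ * (B * Bᴴ) * U), trace_unitary_conj U _ hU, tB]
  have sumrh : ∑ k, rh k = v := by
    rw [hrh, sum_diag_re (Vᴴ * (Bᴴ * B) * V), trace_unitary_conj V _ hV, tB']
  have sumg : ∑ k, (g k) ^ 2 = u := by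
    rw [sum_sq_svd A U V g hU hV hAs, tA]
  have hsub := Jsc_subadd (fun k => (g k) ^ 2) (fun k => s ^ 2 * r k) (fun k => c ^ 2 * rh k)
    (fun k => sq_nonneg _) (fun k => mul_nonneg (sq_nonneg _) (hrnn k))
    (fun k => mul_nonneg (sq_nonneg _) (hrhnn k))
  simp only [← Finset.mul_sum, sumr, sumrh, sumg] at hsub
  rw [hc2, hs2] at hsub
  have hJ : Jsc u (γ * v) ((1 - γ) * v) = stil (gad γ 0 (psi u v)) - negMulLog u
      - (v * negMulLog γ + γ * negMulLog v) - (v * negMulLog (1 - γ) + (1 - γ) * negMulLog v) := by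
    rw [stil_gad_psi γ u v h0 h1 hu0 hv0]
    unfold Jsc
    rw [negMulLog_mul, negMulLog_mul]
  rw [hJ] at hsub
  have hs3 : stil (((s ^ 2 : ℝ) : ℂ) • (B * Bᴴ)) = γ * stil R + negMulLog γ * v := by
    rw [hs2, stil_smul _ (isHermitian_mul_conjTranspose_self B), sB, tB]
  have hc3 : stil (((c ^ 2 : ℝ) : ℂ) • (Bᴴ * B)) = (1 - γ) * stil R + negMulLog (1 - γ) * v := by
    rw [hc2, stil_smul _ (isHermitian_conjTranspose_mul_self B), sB', tB']
  rw [sA, hs3, hc3] at hpin
  have hhh : ∑ k, Jsc ((g k) ^ 2) (s ^ 2 * r k) (c ^ 2 * rh k) ≤ _ := hpin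
  rw [hc2, hs2] at hhh
  have e1 : negMulLog γ * v = v * negMulLog γ := mul_comm _ _
  have e2 : negMulLog (1 - γ) * v = v * negMulLog (1 - γ) := mul_comm _ _
  rw [e1, e2] at hhh
  have e3 := hsub.trans hhh
  linarith [e3]

/-- The output of the amplitude damping channel in blocks. -/
lemma submatrix_tensorMap (γ : ℝ) (G0 G1 : Matrix α (Fin 2 × α) ℂ)
    (ρ : Matrix (Fin 2 × α) (Fin 2 × α) ℂ) (h0 : 0 ≤ γ) (h1 : γ ≤ 1)
    (h00 : block 0 0 ρ = G0 * G0ᴴ) (h01 : block 0 1 ρ = G0 * G1ᴴ)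
    (h10 : block 1 0 ρ = G1 * G0ᴴ) (h11 : block 1 1 ρ = G1 * G1ᴴ) :
    (tensorMap (gad γ 0) id ρ).submatrix (sumEquiv α) (sumEquiv α) =
      outBlocks (√(1 - γ)) (√γ) G0 G1 := by
  have hc2 : √(1 - γ) ^ 2 = 1 - γ := Real.sq_sqrt (by linarith)
  have hs2 : √γ ^ 2 = γ := Real.sq_sqrt h0
  unfold outBlocks
  rw [hc2, hs2, ← h00, ← h01, ← h10, ← h11]
  ext p q
  rcases p with a | a <;> rcases q with b | b <;>
    simp [tensorMap, sumEquiv, gad, block, id] <;> ring

/-- Entropic conditional inequality for amplitude damping. -/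
theorem ECI_ad (γ : ℝ) (h0 : 0 ≤ γ) (h1 : γ ≤ 1) : ECI γ 0 := by
  intro α _ _ ρ hρ
  obtain ⟨N, hN⟩ := exists_factor ρ hρ
  let G0 : Matrix α (Fin 2 × α) ℂ := fun a w => Nᴴ (0, a) w
  let G1 : Matrix α (Fin 2 × α) ℂ := fun a w => Nᴴ (1, a) w
  have hb : ∀ (i j : Fin 2) (Gi Gj : Matrix α (Fin 2 × α) ℂ),
      (∀ a w, Gi a w = Nᴴ (i, a) w) → (∀ a w, Gj a w = Nᴴ (j, a) w) →
      block i j ρ = Gi * Gjᴴ := by
    intro i j Gi Gj hi hj
    ext a b
    rw [hN]
    simp only [block, Matrix.mul_apply, conjTranspose_apply, hi, hj, star_star]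
  have h00 := hb 0 0 G0 G0 (fun _ _ => rfl) (fun _ _ => rfl)
  have h01 := hb 0 1 G0 G1 (fun _ _ => rfl) (fun _ _ => rfl)
  have h10 := hb 1 0 G1 G0 (fun _ _ => rfl) (fun _ _ => rfl)
  have h11 := hb 1 1 G1 G1 (fun _ _ => rfl) (fun _ _ => rfl)
  have hcore := ECI_core γ h0 h1 G0 G1
  rw [← submatrix_tensorMap γ G0 G1 ρ h0 h1 h00 h01 h10 h11] at hcore
  have hr := stil_reindex (sumEquiv α).symm (tensorMap (gad γ 0) id ρ)
  rw [Equiv.symm_symm] at hr
  rw [hr, ← h00, ← h11] at hcore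
  exact hcore

end Vale.Agent.P358
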