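import Vale.Agent.Lib.P358.Spectral

/-!
# P358: integral formula for the entropy
-/

open Matrix Real MeasureTheory Set Filter Topology
open scoped ComplexOrder

namespace Vale.Agent.P358

variable {ι : Type} [Fintype ι] [DecidableEq ι]

/-- Integrand for the scalar entropy. -/
noncomputable def eInt (x y : ℝ) : ℝ := Real.log (1 + x / y) - x / (1 + y)

/-- First primitive. -/
noncomputable def eF1 (x y : ℝ) : ℝ := y * Real.log (y + x) - y * Real.log y

/-- Its derivative. -/
noncomputable def eF1' (x y : ℝ) : ℝ := Real.log (1 + x / y) - x / (x + y)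

/-- Second primitive. -/
noncomputable def eF2 (x y : ℝ) : ℝ := x * (Real.log (x + y) - Real.log (1 + y))

/-- Its derivative. -/
noncomputable def eF2' (x y : ℝ) : ℝ := x / (x + y) - x / (1 + y)

lemma eF1_hasDeriv {x y : ℝ} (hx : 0 < x) (hy : 0 < y) : HasDerivAt (eF1 x) (eF1' x y) y := by
  have h1 : y + x ≠ 0 := by positivity
  have h2 : y ≠ 0 := hy.ne'
  have hd1 : HasDerivAt (fun t : ℝ => t * Real.log (t + x))
      (1 * Real.log (y + x) + y * (1 / (y + x))) y := by
    have : HasDerivAt (fun t : ℝ => Real.log (t + x)) (1 / (y + x)) y := by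
      have := ((hasDerivAt_id y).add_const x).log h1
      simpa using this
    exact (hasDerivAt_id y).mul this
  have hd2 : HasDerivAt (fun t : ℝ => t * Real.log t) (1 * Real.log y + y * (1 / y)) y := by
    have : HasDerivAt (fun t : ℝ => Real.log t) (1 / y) y := by
      simpa using (Real.hasDerivAt_log h2)
    exact (hasDerivAt_id y).mul this
  have := hd1.sub hd2
  have e : eF1' x y = 1 * Real.log (y + x) + y * (1 / (y + x)) - (1 * Real.log y + y * (1 / y)) := by
    unfold eF1'
    have : 1 + x / y = (y + x) / y := by field_simp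
    rw [this, Real.log_div h1 h2]
    field_simp
    ring
  rw [e]
  exact this

lemma eF2_hasDeriv {x y : ℝ} (hx : 0 < x) (hy : 0 < y) : HasDerivAt (eF2 x) (eF2' x y) y := by
  have h1 : x + y ≠ 0 := by positivity
  have h2 : 1 + y ≠ 0 := by positivity
  have hd1 : HasDerivAt (fun t : ℝ => Real.log (x + t)) (1 / (x + y)) y := by
    have := ((hasDerivAt_id y).const_add x).log h1
    simpa using this
  have hd2 : HasDerivAt (fun t : ℝ => Real.log (1 + t)) (1 / (1 + y)) y := by
    have := ((hasDerivAt_id y).const_add 1).log h2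
    simpa using this
  have := (hd1.sub hd2).const_mul x
  have e : eF2' x y = x * (1 / (x + y) - 1 / (1 + y)) := by
    unfold eF2'; ring
  rw [e]
  exact this

lemma eF1_cont {x : ℝ} (hx : 0 < x) : ContinuousWithinAt (eF1 x) (Ici 0) 0 := by
  apply ContinuousAt.continuousWithinAt
  unfold eF1
  apply ContinuousAt.sub
  · apply ContinuousAt.mul continuousAt_id
    apply ContinuousAt.log (by fun_prop)
    simpa using hx.ne'
  · exact continuous_mul_log.continuousAt

lemma eF2_cont {x : ℝ} (hx : 0 < x) : ContinuousWithinAt (eF2 x) (Ici 0) 0 := by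
  apply ContinuousAt.continuousWithinAt
  unfold eF2
  apply ContinuousAt.mul continuousAt_const
  apply ContinuousAt.sub
  · apply ContinuousAt.log (by fun_prop)
    simpa using hx.ne'
  · apply ContinuousAt.log (by fun_prop)
    simp

lemma eF1_tendsto {x : ℝ} (hx : 0 < x) : Tendsto (eF1 x) atTop (𝓝 x) := by
  have := Real.tendsto_mul_log_one_add_div_atTop x
  refine this.congr' ?_
  filter_upwards [eventually_gt_atTop 0] with y hy
  unfold eF1
  have h1 : y + x ≠ 0 := by positivity
  have : 1 + x / y = (y + x) / y := by field_simp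
  rw [this, Real.log_div h1 hy.ne']
  ring

lemma eF2_tendsto {x : ℝ} (hx : 0 < x) : Tendsto (eF2 x) atTop (𝓝 0) := by
  have h0 : Tendsto (fun y : ℝ => (x + y) / (1 + y)) atTop (𝓝 1) := by
    have : (fun y : ℝ => (x + y) / (1 + y)) =ᶠ[atTop] fun y => 1 + (x - 1) * (1 + y)⁻¹ := by
      filter_upwards [eventually_gt_atTop 0] with y hy
      have : 1 + y ≠ 0 := by positivity
      field_simp
      ring
    rw [tendsto_congr' this]
    have h3 : Tendsto (fun y : ℝ => (1 + y)⁻¹) atTop (𝓝 0) :=
      tendsto_inv_atTop_zero.comp (tendsto_atTop_add_const_left _ _ tendsto_id)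
    simpa using (h3.const_mul (x - 1)).const_add 1
  have h1 : Tendsto (fun y : ℝ => Real.log ((x + y) / (1 + y))) atTop (𝓝 0) := by
    have := (Real.continuousAt_log (one_ne_zero)).tendsto.comp h0
    simpa [Function.comp_def] using this
  have h2 := h1.const_mul x
  simp only [mul_zero] at h2
  refine h2.congr' ?_
  filter_upwards [eventually_gt_atTop 0] with y hy
  unfold eF2
  rw [Real.log_div (by positivity) (by positivity)]

lemma eF1'_nonneg {x y : ℝ} (hx : 0 < x) (hy : 0 < y) : 0 ≤ eF1' x y := by
  unfold eF1'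
  have h := Real.one_sub_inv_le_log_of_pos (show 0 < 1 + x / y by positivity)
  have e : 1 - (1 + x / y)⁻¹ = x / (x + y) := by field_simp; ring
  rw [e] at h
  linarith

lemma eF2'_integrable {x : ℝ} (hx : 0 < x) : IntegrableOn (eF2' x) (Ioi 0) := by
  rcases le_total x 1 with h | h
  · refine integrableOn_Ioi_deriv_of_nonneg (eF2_cont hx) (fun y hy => eF2_hasDeriv hx hy) ?_
      (eF2_tendsto hx)
    intro y hy
    have hy' : 0 < y := hy
    unfold eF2'
    have : x / (1 + y) ≤ x / (x + y) := by
      apply div_le_div_of_nonneg_left hx.le (by positivity) (by linarith)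
    linarith
  · refine integrableOn_Ioi_deriv_of_nonpos (eF2_cont hx) (fun y hy => eF2_hasDeriv hx hy) ?_
      (eF2_tendsto hx)
    intro y hy
    have hy' : 0 < y := hy
    unfold eF2'
    have : x / (x + y) ≤ x / (1 + y) := by
      apply div_le_div_of_nonneg_left hx.le (by positivity) (by linarith)
    linarith

lemma eF1'_integrable {x : ℝ} (hx : 0 < x) : IntegrableOn (eF1' x) (Ioi 0) :=
  integrableOn_Ioi_deriv_of_nonneg (eF1_cont hx) (fun _ hy => eF1_hasDeriv hx hy)
    (fun _ hy => eF1'_nonneg hx hy) (eF1_tendsto hx)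

lemma eInt_eq {x y : ℝ} : eInt x y = eF1' x y + eF2' x y := by
  unfold eInt eF1' eF2'; ring

lemma eInt_integrableOn (x : ℝ) (h0 : 0 ≤ x) : IntegrableOn (eInt x) (Ioi 0) := by
  rcases h0.eq_or_lt with rfl | hx
  · have : eInt 0 = fun _ => 0 := by
      funext y; simp [eInt]
    rw [this]
    exact integrableOn_zero
  · have := (eF1'_integrable hx).add (eF2'_integrable hx)
    refine this.congr_fun ?_ measurableSet_Ioi
    intro y _
    simp [eInt_eq]

/-- `∫₀^∞ (log (1 + x / y) - x / (1 + y)) dy = x - x log x`. -/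
lemma eInt_integral (x : ℝ) (h0 : 0 ≤ x) : ∫ y in Ioi 0, eInt x y = x + negMulLog x := by
  rcases h0.eq_or_lt with rfl | hx
  · simp [eInt]
  · have hd : ∀ y ∈ Ioi (0 : ℝ), HasDerivAt (fun t => eF1 x t + eF2 x t) (eInt x y) y := by
      intro y hy
      rw [eInt_eq]
      exact (eF1_hasDeriv hx hy).add (eF2_hasDeriv hx hy)
    have := integral_Ioi_of_hasDerivAt_of_tendsto (f := fun t => eF1 x t + eF2 x t)
      (f' := eInt x) (a := 0) (m := x + 0) ((eF1_cont hx).add (eF2_cont hx)) hd
      (eInt_integrableOn x h0) ((eF1_tendsto hx).add (eF2_tendsto hx))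
    rw [this]
    simp [eF1, eF2, negMulLog]
    ring

/-- Integral formula for the entropy of a positive semidefinite matrix. -/
theorem stil_integral (X : Matrix ι ι ℂ) (hX : X.PosSemidef) :
    IntegrableOn (fun y => LD X y - (X.trace).re / (1 + y)) (Ioi 0) ∧
      ∫ y in Ioi 0, (LD X y - (X.trace).re / (1 + y)) = stil X + (X.trace).re := by
  have hH := hX.isHermitian
  have hev : ∀ i, 0 ≤ hH.eigenvalues i := hX.eigenvalues_nonneg
  have heq : ∀ y ∈ Ioi (0 : ℝ), (∑ i, eInt (hH.eigenvalues i) y) =
      LD X y - (X.trace).re / (1 + y) := by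
    intro y hy
    rw [LD_eq_sum X hX hy, ← sum_eigenvalues_eq_trace X hH]
    unfold eInt
    rw [Finset.sum_sub_distrib, Finset.sum_div]
  have hint : IntegrableOn (fun y => ∑ i, eInt (hH.eigenvalues i) y) (Ioi 0) := by
    apply integrable_finsetSum
    intro i _
    exact eInt_integrableOn _ (hev i)
  refine ⟨hint.congr_fun heq measurableSet_Ioi, ?_⟩
  rw [← setIntegral_congr_fun measurableSet_Ioi heq, integral_finsetSum]
  · rw [stil_eq X hH, ← sum_eigenvalues_eq_trace X hH, ← Finset.sum_add_distrib]
    apply Finset.sum_congr rfl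
    intro i _
    rw [eInt_integral _ (hev i)]
    ring
  · intro i _
    exact eInt_integrableOn _ (hev i)

end Vale.Agent.P358
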