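import Mathlib

/-!
# P358: Fiedler's determinant inequality

For positive semidefinite `C, D` with eigenvalues listed in the same sorted order,
`∑ k, log (1 + λ k + μ k) ≤ log det (1 + C + D)`.
The proof: lower trace inequality (Birkhoff and rearrangement) applied with `(1 + C + D)⁻¹`,
then `log u ≥ 1 - 1 / u`.
-/

open Matrix
open scoped ComplexOrder

namespace Vale.Agent.P358

variable {β : Type} [Fintype β] [DecidableEq β]

/-- Rearrangement for doubly stochastic weights. -/
lemma ds_rearrange (S : Matrix β β ℝ) (hS : S ∈ doublyStochastic ℝ β) (p q : β → ℝ)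
    (h : Antivary p q) :
    ∑ i, p i * q i ≤ ∑ i, ∑ j, p i * q j * S i j := by
  obtain ⟨w, hw0, hw1, hw⟩ := exists_eq_sum_perm_of_mem_doublyStochastic hS
  have key : ∀ σ : Equiv.Perm β, ∑ i, ∑ j, p i * q j * (σ.permMatrix ℝ) i j
      = ∑ i, p i * q (σ i) := by
    intro σ
    apply Finset.sum_congr rfl
    intro i _
    rw [Finset.sum_eq_single (σ i)]
    · simp [Equiv.Perm.permMatrix, PEquiv.toMatrix_apply]
    · intro j _ hj
      have : (σ.permMatrix ℝ) i j = 0 := by
        simp [Equiv.Perm.permMatrix, PEquiv.toMatrix_apply, Ne.symm hj]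
      rw [this, mul_zero]
    · simp
  have hS_eq : ∀ i j, S i j = ∑ σ, w σ * (σ.permMatrix ℝ) i j := by
    intro i j
    rw [← hw, Matrix.sum_apply]
    simp [Matrix.smul_apply, smul_eq_mul]
  have e : ∑ i, ∑ j, p i * q j * S i j = ∑ σ, w σ * ∑ i, p i * q (σ i) := by
    calc ∑ i, ∑ j, p i * q j * S i j
        = ∑ i, ∑ j, ∑ σ, w σ * (p i * q j * (σ.permMatrix ℝ) i j) := by
          apply Finset.sum_congr rfl; intro i _
          apply Finset.sum_congr rfl; intro j _
          rw [hS_eq, Finset.mul_sum]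
          apply Finset.sum_congr rfl; intro σ _
          ring
      _ = ∑ i, ∑ σ, ∑ j, w σ * (p i * q j * (σ.permMatrix ℝ) i j) := by
          apply Finset.sum_congr rfl; intro i _
          rw [Finset.sum_comm]
      _ = ∑ σ, ∑ i, ∑ j, w σ * (p i * q j * (σ.permMatrix ℝ) i j) := by
          rw [Finset.sum_comm]
      _ = ∑ σ, w σ * ∑ i, p i * q (σ i) := by
          apply Finset.sum_congr rfl; intro σ _
          rw [← key, Finset.mul_sum]
          apply Finset.sum_congr rfl; intro i _
          rw [Finset.mul_sum]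
  rw [e]
  calc ∑ i, p i * q i = ∑ σ, w σ * ∑ i, p i * q i := by
        rw [← Finset.sum_mul, hw1, one_mul]
    _ ≤ ∑ σ, w σ * ∑ i, p i * q (σ i) := by
        apply Finset.sum_le_sum; intro σ _
        apply mul_le_mul_of_nonneg_left _ (hw0 σ)
        exact h.sum_mul_le_sum_mul_comp_perm

/-- The squared moduli of the entries of a unitary matrix form a doubly stochastic matrix. -/
lemma ds_of_unitary (W : Matrix β β ℂ) (hW : W ∈ unitaryGroup β ℂ) :
    (Matrix.of fun i j => ‖W i j‖ ^ 2 : Matrix β β ℝ) ∈ doublyStochastic ℝ β := by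
  rw [mem_doublyStochastic_iff_sum]
  have h1 : W * Wᴴ = 1 := by
    simpa [star_eq_conjTranspose] using (mem_unitaryGroup_iff (A := W)).mp hW
  have h2 : Wᴴ * W = 1 := by
    simpa [star_eq_conjTranspose] using (mem_unitaryGroup_iff' (A := W)).mp hW
  refine ⟨fun i j => by simp, fun i => ?_, fun j => ?_⟩
  · have := congrFun (congrFun h1 i) i
    simp only [Matrix.mul_apply, conjTranspose_apply, Matrix.one_apply_eq] at this
    have e : ∀ j, W i j * star (W i j) = ((‖W i j‖ ^ 2 : ℝ) : ℂ) := by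
      intro j
      rw [Complex.star_def, Complex.mul_conj, Complex.normSq_eq_norm_sq]
    simp_rw [e] at this
    have h3 : ((∑ j, ‖W i j‖ ^ 2 : ℝ) : ℂ) = 1 := by
      push_cast; push_cast at this; exact this
    simpa using (by exact_mod_cast h3 : (∑ j, ‖W i j‖ ^ 2 : ℝ) = 1)
  · have := congrFun (congrFun h2 j) j
    simp only [Matrix.mul_apply, conjTranspose_apply, Matrix.one_apply_eq] at this
    have e : ∀ i, star (W i j) * W i j = ((‖W i j‖ ^ 2 : ℝ) : ℂ) := by
      intro i
      rw [Complex.star_def, mul_comm, Complex.mul_conj, Complex.normSq_eq_norm_sq]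
    simp_rw [e] at this
    have h3 : ((∑ i, ‖W i j‖ ^ 2 : ℝ) : ℂ) = 1 := by
      push_cast; push_cast at this; exact this
    simpa using (by exact_mod_cast h3 : (∑ i, ‖W i j‖ ^ 2 : ℝ) = 1)

/-- Lower trace inequality. -/
theorem trace_mul_ge (U V : Matrix β β ℂ) (hU : U ∈ unitaryGroup β ℂ) (hV : V ∈ unitaryGroup β ℂ)
    (p q : β → ℝ) (h : Antivary p q) :
    ∑ i, p i * q i ≤
      (trace ((U * diagonal (fun i => ((p i : ℝ) : ℂ)) * Uᴴ) *
        (V * diagonal (fun i => ((q i : ℝ) : ℂ)) * Vᴴ))).re := by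
  set W := Uᴴ * V with hWdef
  have hW : W ∈ unitaryGroup β ℂ := by
    apply Submonoid.mul_mem _ _ hV
    exact (Unitary.star_mem hU)
  have e : trace ((U * diagonal (fun i => ((p i : ℝ) : ℂ)) * Uᴴ) *
        (V * diagonal (fun i => ((q i : ℝ) : ℂ)) * Vᴴ))
      = trace (diagonal (fun i => ((p i : ℝ) : ℂ)) * W * diagonal (fun i => ((q i : ℝ) : ℂ)) * Wᴴ) := by
    have hWH : Wᴴ = Vᴴ * U := by
      rw [hWdef, conjTranspose_mul, conjTranspose_conjTranspose]
    rw [hWH, hWdef]
    calc trace ((U * diagonal (fun i => ((p i : ℝ) : ℂ)) * Uᴴ) *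
          (V * diagonal (fun i => ((q i : ℝ) : ℂ)) * Vᴴ))
        = trace (U * (diagonal (fun i => ((p i : ℝ) : ℂ)) * (Uᴴ * V) *
            diagonal (fun i => ((q i : ℝ) : ℂ)) * Vᴴ)) := by
          simp only [Matrix.mul_assoc]
      _ = trace ((diagonal (fun i => ((p i : ℝ) : ℂ)) * (Uᴴ * V) *
            diagonal (fun i => ((q i : ℝ) : ℂ)) * Vᴴ) * U) := trace_mul_comm _ _
      _ = _ := by simp only [Matrix.mul_assoc]
  have e2 : (trace (diagonal (fun i => ((p i : ℝ) : ℂ)) * W * diagonal (fun i => ((q i : ℝ) : ℂ)) * Wᴴ)).re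
      = ∑ i, ∑ j, p i * q j * (Matrix.of fun i j => ‖W i j‖ ^ 2 : Matrix β β ℝ) i j := by
    have hent : ∀ i, ((diagonal (fun i => ((p i : ℝ) : ℂ)) * W * diagonal (fun i => ((q i : ℝ) : ℂ))) * Wᴴ) i i
        = ∑ j, ((p i : ℂ) * W i j * (q j : ℂ)) * star (W i j) := by
      intro i
      rw [Matrix.mul_apply]
      apply Finset.sum_congr rfl; intro j _
      rw [mul_diagonal, diagonal_mul, conjTranspose_apply]
    simp only [Matrix.trace, Matrix.diag_apply, hent, Complex.re_sum, Matrix.of_apply]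
    apply Finset.sum_congr rfl; intro i _
    apply Finset.sum_congr rfl; intro j _
    have : star (W i j) = (starRingEnd ℂ) (W i j) := rfl
    have e3 : ((p i : ℂ) * W i j * (q j : ℂ) * star (W i j)) = ((p i * q j * ‖W i j‖ ^ 2 : ℝ) : ℂ) := by
      rw [this]
      have : W i j * (starRingEnd ℂ) (W i j) = ((‖W i j‖ ^ 2 : ℝ) : ℂ) := by
        rw [Complex.mul_conj, Complex.normSq_eq_norm_sq]
      push_cast at this ⊢
      linear_combination (p i : ℂ) * (q j : ℂ) * this
    rw [e3, Complex.ofReal_re]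
  rw [e, e2]
  exact ds_rearrange _ (ds_of_unitary W hW) p q h

/-- Eigenvalues of Hermitian matrices over a common index are listed in a common order. -/
lemma eigenvalues_monovary (A B : Matrix β β ℂ) (hA : A.IsHermitian) (hB : B.IsHermitian) :
    Monovary hA.eigenvalues hB.eigenvalues := by
  intro i j hij
  unfold IsHermitian.eigenvalues at hij ⊢
  by_contra hcon
  rw [not_le] at hcon
  have h1 := hA.eigenvalues₀_antitone
  have h2 := hB.eigenvalues₀_antitone
  rcases le_total ((Fintype.equivOfCardEq (Fintype.card_fin _)).symm i)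
    ((Fintype.equivOfCardEq (Fintype.card_fin _)).symm j) with h | h
  · have := h2 h
    exact absurd hij (not_lt.mpr this)
  · have := h1 h
    exact absurd hcon (not_lt.mpr this)

/-- **Fiedler's inequality** in log form, with common sorted order. -/
theorem sum_log_le_logdet (C D : Matrix β β ℂ) (hC : C.PosSemidef) (hD : D.PosSemidef) :
    ∑ i, Real.log (1 + hC.isHermitian.eigenvalues i + hD.isHermitian.eigenvalues i)
      ≤ Real.log (det (1 + C + D)).re := by
  have hMpd : (1 + C + D).PosDef := by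
    have h1 : (1 + C).PosDef := by
      have := Matrix.PosDef.one (n := β) (R := ℂ)
      exact this.add_posSemidef hC
    exact h1.add_posSemidef hD
  have hMH : (1 + C + D).IsHermitian := hMpd.isHermitian
  set ν := hMH.eigenvalues with hν
  set lam := hC.isHermitian.eigenvalues with hlam
  set mu := hD.isHermitian.eigenvalues with hmu
  have hνpos : ∀ i, 0 < ν i := fun i => hMpd.eigenvalues_pos i
  have hlam0 : ∀ i, 0 ≤ lam i := fun i => hC.eigenvalues_nonneg i
  have hmu0 : ∀ i, 0 ≤ mu i := fun i => hD.eigenvalues_nonneg i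
  -- spectral decompositions
  have spec : ∀ (X : Matrix β β ℂ) (h : X.IsHermitian), ∃ U : Matrix β β ℂ, U ∈ unitaryGroup β ℂ ∧
      X = U * diagonal (fun i => ((h.eigenvalues i : ℝ) : ℂ)) * Uᴴ := by
    intro X h
    refine ⟨(h.eigenvectorUnitary : Matrix β β ℂ), h.eigenvectorUnitary.2, ?_⟩
    have := h.spectral_theorem
    rw [Unitary.conjStarAlgAut_apply] at this
    simpa [Function.comp_def, star_eq_conjTranspose] using this
  obtain ⟨U, hU, hUM⟩ := spec _ hMH
  obtain ⟨V, hV, hVC⟩ := spec _ hC.isHermitian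
  obtain ⟨W, hW, hWD⟩ := spec _ hD.isHermitian
  set Pm : Matrix β β ℂ := U * diagonal (fun i => (((ν i)⁻¹ : ℝ) : ℂ)) * Uᴴ with hPm
  have hUU : Uᴴ * U = 1 := by
    simpa [star_eq_conjTranspose] using (mem_unitaryGroup_iff' (A := U)).mp hU
  have hUU' : U * Uᴴ = 1 := by
    simpa [star_eq_conjTranspose] using (mem_unitaryGroup_iff (A := U)).mp hU
  have hPmM : Pm * (1 + C + D) = 1 := by
    rw [hPm, hUM]
    calc U * diagonal (fun i => (((ν i)⁻¹ : ℝ) : ℂ)) * Uᴴ *
          (U * diagonal (fun i => ((ν i : ℝ) : ℂ)) * Uᴴ)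
        = U * (diagonal (fun i => (((ν i)⁻¹ : ℝ) : ℂ)) * (Uᴴ * U) *
            diagonal (fun i => ((ν i : ℝ) : ℂ))) * Uᴴ := by
          simp only [Matrix.mul_assoc]
      _ = U * (diagonal (fun i => (((ν i)⁻¹ : ℝ) : ℂ)) *
            diagonal (fun i => ((ν i : ℝ) : ℂ))) * Uᴴ := by rw [hUU, Matrix.mul_one]
      _ = U * 1 * Uᴴ := by
          congr 2
          rw [diagonal_mul_diagonal, ← diagonal_one]
          congr 1
          funext i
          have := (hνpos i).ne'
          push_cast
          rw [inv_mul_cancel₀]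
          exact_mod_cast this
      _ = 1 := by rw [Matrix.mul_one, hUU']
  -- the trace identity
  have htr : (Fintype.card β : ℝ) = (trace Pm).re + (trace (Pm * C)).re + (trace (Pm * D)).re := by
    have h1 : trace (Pm * (1 + C + D)) = (Fintype.card β : ℂ) := by
      rw [hPmM, trace_one]
    rw [Matrix.mul_add, Matrix.mul_add, Matrix.mul_one, trace_add, trace_add] at h1
    have := congrArg Complex.re h1
    simpa using this.symm
  have htrP : (trace Pm).re = ∑ i, (ν i)⁻¹ := by
    have : trace Pm = trace (diagonal (fun i => (((ν i)⁻¹ : ℝ) : ℂ)) * (Uᴴ * U)) := by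
      rw [hPm, Matrix.mul_assoc, trace_mul_comm, Matrix.mul_assoc]
    rw [this, hUU, Matrix.mul_one, trace_diagonal, Complex.re_sum]
    simp
  -- antivariance
  have hanti : ∀ (X : Matrix β β ℂ) (h : X.IsHermitian),
      Antivary (fun i => (ν i)⁻¹) h.eigenvalues := by
    intro X h i j hij
    have := eigenvalues_monovary _ _ hMH h hij
    exact inv_anti₀ (hνpos i) this
  have hC' : ∑ i, (ν i)⁻¹ * lam i ≤ (trace (Pm * C)).re := by
    have := trace_mul_ge U V hU hV (fun i => (ν i)⁻¹) lam (hanti C hC.isHermitian)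
    rwa [← hVC] at this
  have hD' : ∑ i, (ν i)⁻¹ * mu i ≤ (trace (Pm * D)).re := by
    have := trace_mul_ge U W hU hW (fun i => (ν i)⁻¹) mu (hanti D hD.isHermitian)
    rwa [← hWD] at this
  have hsum : ∑ i, (1 + lam i + mu i) / ν i ≤ (Fintype.card β : ℝ) := by
    rw [htr, htrP]
    have : ∑ i, (1 + lam i + mu i) / ν i
        = ∑ i, (ν i)⁻¹ + ∑ i, (ν i)⁻¹ * lam i + ∑ i, (ν i)⁻¹ * mu i := by
      rw [← Finset.sum_add_distrib, ← Finset.sum_add_distrib]
      apply Finset.sum_congr rfl; intro i _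
      field_simp
    rw [this]
    linarith
  -- determinant
  have hdet : Real.log (det (1 + C + D)).re = ∑ i, Real.log (ν i) := by
    have h0 : det (1 + C + D) = ((∏ i, ν i : ℝ) : ℂ) := by
      rw [hMH.det_eq_prod_eigenvalues, Complex.ofReal_prod]
      rfl
    rw [h0, Complex.ofReal_re, Real.log_prod (fun i _ => (hνpos i).ne')]
  rw [hdet]
  have hpt : ∀ i, Real.log (1 + lam i + mu i) - Real.log (ν i) ≤ (1 + lam i + mu i) / ν i - 1 := by
    intro i
    have hd : 0 < 1 + lam i + mu i := by have := hlam0 i; have := hmu0 i; linarith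
    rw [← Real.log_div hd.ne' (hνpos i).ne']
    exact Real.log_le_sub_one_of_pos (div_pos hd (hνpos i))
  have hfin : ∑ i, (Real.log (1 + lam i + mu i) - Real.log (ν i)) ≤ 0 := by
    calc ∑ i, (Real.log (1 + lam i + mu i) - Real.log (ν i))
        ≤ ∑ i, ((1 + lam i + mu i) / ν i - 1) := Finset.sum_le_sum (fun i _ => hpt i)
      _ = ∑ i, (1 + lam i + mu i) / ν i - (Fintype.card β : ℝ) := by
          rw [Finset.sum_sub_distrib]; simp
      _ ≤ 0 := by linarith
  rw [Finset.sum_sub_distrib] at hfin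
  linarith

/-- Separated form: any pointwise separated lower bound of `log (1 + λ + μ)` lifts to matrices. -/
theorem sep_le_logdet (C D : Matrix β β ℂ) (hC : C.PosSemidef) (hD : D.PosSemidef)
    (f g : ℝ → ℝ) (hfg : ∀ l m, 0 ≤ l → 0 ≤ m → f l + g m ≤ Real.log (1 + l + m)) :
    ∑ i, f (hC.isHermitian.eigenvalues i) + ∑ i, g (hD.isHermitian.eigenvalues i)
      ≤ Real.log (det (1 + C + D)).re := by
  refine le_trans ?_ (sum_log_le_logdet C D hC hD)
  rw [← Finset.sum_add_distrib]
  apply Finset.sum_le_sum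
  intro i _
  exact hfg _ _ (hC.eigenvalues_nonneg i) (hD.eigenvalues_nonneg i)

end Vale.Agent.P358
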