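import Vale.Agent.Lib.P358.Chain

/-!
# P358: final assembly
-/

open Matrix Real
open scoped ComplexOrder Kronecker

namespace Vale.Agent.P358

section Reindex

set_option linter.unusedSectionVars false

variable {ι κ : Type} [Fintype ι] [DecidableEq ι] [Fintype κ] [DecidableEq κ]

lemma isState_submatrix (e : κ ≃ ι) {X : Matrix ι ι ℂ} (hX : IsState X) :
    IsState (X.submatrix e e) := by
  refine ⟨hX.1.submatrix e, ?_⟩
  rw [← hX.2, trace, trace]
  simp only [diag_apply, submatrix_apply]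
  exact Equiv.sum_comp e (fun i => X i i)

lemma holevoSet_subset_of_equiv (e : ι ≃ κ) (Φ : Matrix ι ι ℂ → Matrix ι ι ℂ)
    (Ψ : Matrix κ κ ℂ → Matrix κ κ ℂ)
    (h : ∀ X, (Φ X).submatrix e.symm e.symm = Ψ (X.submatrix e.symm e.symm)) :
    holevoSet Φ ⊆ holevoSet Ψ := by
  rintro x ⟨m, p, ρ, hp, hp1, hρ, rfl⟩
  refine ⟨m, p, fun a => (ρ a).submatrix e.symm e.symm, hp, hp1,
    fun a => isState_submatrix e.symm (hρ a), ?_⟩
  have h1 : (∑ a, ((p a : ℝ) : ℂ) • Ψ ((ρ a).submatrix e.symm e.symm)) =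
      (∑ a, ((p a : ℝ) : ℂ) • Φ (ρ a)).submatrix e.symm e.symm := by
    ext i j
    simp [← h, Matrix.sum_apply]
  rw [h1]
  simp only [entropy_eq_stil, stil_reindex]
  congr 1
  refine Finset.sum_congr rfl fun a _ => ?_
  rw [← h, stil_reindex]

lemma holevoSet_eq_of_equiv (e : ι ≃ κ) (Φ : Matrix ι ι ℂ → Matrix ι ι ℂ)
    (Ψ : Matrix κ κ ℂ → Matrix κ κ ℂ)
    (h : ∀ X, (Φ X).submatrix e.symm e.symm = Ψ (X.submatrix e.symm e.symm)) :
    holevoSet Φ = holevoSet Ψ := by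
  refine Set.Subset.antisymm (holevoSet_subset_of_equiv e Φ Ψ h)
    (holevoSet_subset_of_equiv e.symm Ψ Φ ?_)
  intro Y
  have := h (Y.submatrix e e)
  simp only [Equiv.symm_symm]
  have h2 : (Y.submatrix e e).submatrix e.symm e.symm = Y := by
    ext i j
    simp
  rw [h2] at this
  rw [← this]
  ext i j
  simp

end Reindex

/-- One use through `gadPow` is the same as one use through `gad`. -/
theorem holevoSet_gadPow_one (γ ν : ℝ) : holevoSet (gadPow γ ν 1) = holevoSet (gad γ ν) := by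
  refine holevoSet_eq_of_equiv (Equiv.prodPUnit (Fin 2) : Fin 2 × Unit ≃ Fin 2)
    (gadPow γ ν 1) (gad γ ν) ?_
  intro X
  ext i j
  rfl

/-! ### Tensor products -/

lemma stil_kronecker {m n : Type} [Fintype m] [DecidableEq m] [Fintype n] [DecidableEq n]
    (A : Matrix m m ℂ) (B : Matrix n n ℂ) (hA : A.IsHermitian) (hB : B.IsHermitian) :
    stil (A ⊗ₖ B) = (B.trace).re * stil A + (A.trace).re * stil B := by
  obtain ⟨U, hU, hUA⟩ := exists_unitary_diag A hA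
  obtain ⟨V, hV, hVB⟩ := exists_unitary_diag B hB
  have hUV : U ⊗ₖ V ∈ unitaryGroup (m × n) ℂ := kronecker_mem_unitary hU hV
  have hX : A ⊗ₖ B = (U ⊗ₖ V) *
      diagonal (fun p : m × n => ((hA.eigenvalues p.1 * hB.eigenvalues p.2 : ℝ) : ℂ)) *
      (U ⊗ₖ V)ᴴ := by
    have hd : diagonal (fun p : m × n => ((hA.eigenvalues p.1 * hB.eigenvalues p.2 : ℝ) : ℂ)) =
        diagonal (fun i => ((hA.eigenvalues i : ℝ) : ℂ)) ⊗ₖ
          diagonal (fun i => ((hB.eigenvalues i : ℝ) : ℂ)) := by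
      rw [diagonal_kronecker_diagonal]
      congr 1
      funext p
      simp
    rw [hd, conjTranspose_kronecker, ← mul_kronecker_mul, ← mul_kronecker_mul, ← hUA, ← hVB]
  rw [stil_of_unitary_diag _ hUV _ _ hX, stil_eq A hA, stil_eq B hB, Fintype.sum_prod_type,
    ← sum_eigenvalues_eq_trace A hA, ← sum_eigenvalues_eq_trace B hB]
  simp only [negMulLog_mul]
  rw [Finset.sum_comm]
  simp only [Finset.sum_add_distrib, ← Finset.sum_mul, ← Finset.mul_sum]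

lemma isHermitian_avg {κ ι : Type} [Fintype κ] (p : κ → ℝ) (X : κ → Matrix ι ι ℂ)
    (h : ∀ a, (X a).IsHermitian) : (∑ a, ((p a : ℝ) : ℂ) • X a).IsHermitian := by
  unfold IsHermitian
  rw [conjTranspose_sum]
  refine Finset.sum_congr rfl fun a _ => ?_
  rw [conjTranspose_smul, (h a).eq]
  simp

lemma mem_holevoSet_of_fintype {ι κ : Type} [Fintype ι] [DecidableEq ι] [Fintype κ]
    (Φ : Matrix ι ι ℂ → Matrix ι ι ℂ) (p : κ → ℝ) (ρ : κ → Matrix ι ι ℂ) (hp : ∀ a, 0 ≤ p a)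
    (hp1 : ∑ a, p a = 1) (hρ : ∀ a, IsState (ρ a)) :
    entropy (∑ a, ((p a : ℝ) : ℂ) • Φ (ρ a)) - ∑ a, p a * entropy (Φ (ρ a)) ∈ holevoSet Φ := by
  classical
  let e := Fintype.equivFin κ
  refine ⟨Fintype.card κ, p ∘ e.symm, ρ ∘ e.symm, fun a => hp _, ?_, fun a => hρ _, ?_⟩
  · rw [← hp1]
    exact Equiv.sum_comp e.symm p
  · simp only [Function.comp]
    rw [Equiv.sum_comp e.symm (fun a => ((p a : ℝ) : ℂ) • Φ (ρ a)),
      Equiv.sum_comp e.symm (fun a => p a * entropy (Φ (ρ a)))]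

/-- The abstract superadditivity through product ensembles. -/
lemma holevo_superadd_aux {α : Type} [Fintype α] [DecidableEq α]
    (Φ₁ : Matrix (Fin 2) (Fin 2) ℂ → Matrix (Fin 2) (Fin 2) ℂ)
    (Φ₂ : Matrix α α ℂ → Matrix α α ℂ)
    (hs₁ : ∀ (a : ℂ) X, Φ₁ (a • X) = a • Φ₁ X)
    (hs₂ : ∀ (a : ℂ) X, Φ₂ (a • X) = a • Φ₂ X)
    (hH₁ : ∀ X, IsState X → (Φ₁ X).IsHermitian) (hH₂ : ∀ X, IsState X → (Φ₂ X).IsHermitian)
    (hT₁ : ∀ X, IsState X → (Φ₁ X).trace = 1) (hT₂ : ∀ X, IsState X → (Φ₂ X).trace = 1)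
    (x y : ℝ) (hx : x ∈ holevoSet Φ₁) (hy : y ∈ holevoSet Φ₂) :
    x + y ∈ holevoSet (tensorMap Φ₁ Φ₂) := by
  classical
  obtain ⟨m₁, p₁, ρ₁, hp₁, hp₁1, hρ₁, rfl⟩ := hx
  obtain ⟨m₂, p₂, ρ₂, hp₂, hp₂1, hρ₂, rfl⟩ := hy
  have hT : ∀ a b, tensorMap Φ₁ Φ₂ (ρ₁ a ⊗ₖ ρ₂ b) = Φ₁ (ρ₁ a) ⊗ₖ Φ₂ (ρ₂ b) := by
    intro a b
    ext p p'
    have h1 : (fun c d => Φ₂ (fun w w' => (ρ₁ a ⊗ₖ ρ₂ b) (c, w) (d, w')) p.2 p'.2) =
        (Φ₂ (ρ₂ b) p.2 p'.2) • ρ₁ a := by
      funext c d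
      have h2 : (fun w w' => (ρ₁ a ⊗ₖ ρ₂ b) (c, w) (d, w')) = (ρ₁ a c d) • ρ₂ b := by
        funext w w'
        simp [kroneckerMap_apply]
      rw [h2, hs₂]
      simp [mul_comm]
    simp only [tensorMap]
    rw [h1, hs₁]
    simp [kroneckerMap_apply, mul_comm]
  have hstate : ∀ q : Fin m₁ × Fin m₂, IsState (ρ₁ q.1 ⊗ₖ ρ₂ q.2) := by
    intro q
    refine ⟨(hρ₁ q.1).1.kronecker (hρ₂ q.2).1, ?_⟩
    rw [trace_kronecker, (hρ₁ q.1).2, (hρ₂ q.2).2, one_mul]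
  have hpos : ∀ q : Fin m₁ × Fin m₂, 0 ≤ p₁ q.1 * p₂ q.2 := fun q => mul_nonneg (hp₁ _) (hp₂ _)
  have hsum : ∑ q : Fin m₁ × Fin m₂, p₁ q.1 * p₂ q.2 = 1 := by
    rw [Fintype.sum_prod_type]
    simp only [← Finset.mul_sum, hp₂1, mul_one, hp₁1]
  have hmem := mem_holevoSet_of_fintype (tensorMap Φ₁ Φ₂) (fun q : Fin m₁ × Fin m₂ => p₁ q.1 * p₂ q.2)
    (fun q => ρ₁ q.1 ⊗ₖ ρ₂ q.2) hpos hsum hstate
  convert hmem using 1
  set A : Matrix (Fin 2) (Fin 2) ℂ := ∑ a, ((p₁ a : ℝ) : ℂ) • Φ₁ (ρ₁ a) with hA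
  set B : Matrix α α ℂ := ∑ b, ((p₂ b : ℝ) : ℂ) • Φ₂ (ρ₂ b) with hB
  have havg : (∑ q : Fin m₁ × Fin m₂, ((p₁ q.1 * p₂ q.2 : ℝ) : ℂ) •
      tensorMap Φ₁ Φ₂ (ρ₁ q.1 ⊗ₖ ρ₂ q.2)) = A ⊗ₖ B := by
    ext i j
    rw [Matrix.sum_apply, Fintype.sum_prod_type, kroneckerMap_apply, hA, hB, Matrix.sum_apply,
      Matrix.sum_apply, Finset.sum_mul_sum]
    refine Finset.sum_congr rfl fun a _ => Finset.sum_congr rfl fun b _ => ?_
    rw [hT]
    simp [kroneckerMap_apply]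
    ring
  have hAH : A.IsHermitian := isHermitian_avg _ _ fun a => hH₁ _ (hρ₁ a)
  have hBH : B.IsHermitian := isHermitian_avg _ _ fun a => hH₂ _ (hρ₂ a)
  have hAT : A.trace = 1 := by
    rw [hA, trace_sum]
    simp only [trace_smul, hT₁ _ (hρ₁ _), smul_eq_mul, mul_one]
    rw [← Complex.ofReal_sum, hp₁1]
    simp
  have hBT : B.trace = 1 := by
    rw [hB, trace_sum]
    simp only [trace_smul, hT₂ _ (hρ₂ _), smul_eq_mul, mul_one]
    rw [← Complex.ofReal_sum, hp₂1]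
    simp
  rw [havg]
  simp only [entropy_eq_stil]
  rw [stil_kronecker A B hAH hBH, hAT, hBT]
  have hterm : ∀ q : Fin m₁ × Fin m₂,
      stil (tensorMap Φ₁ Φ₂ (ρ₁ q.1 ⊗ₖ ρ₂ q.2)) =
        stil (Φ₁ (ρ₁ q.1)) + stil (Φ₂ (ρ₂ q.2)) := by
    intro q
    rw [hT, stil_kronecker _ _ (hH₁ _ (hρ₁ _)) (hH₂ _ (hρ₂ _)), hT₁ _ (hρ₁ _), hT₂ _ (hρ₂ _)]
    simp
  simp only [hterm]
  rw [Fintype.sum_prod_type]
  have e1 : ∀ a, ∑ b, p₁ a * p₂ b * ((stil (Φ₁ (ρ₁ a)) + stil (Φ₂ (ρ₂ b))) / Real.log 2) =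
      p₁ a * (stil (Φ₁ (ρ₁ a)) / Real.log 2) + p₁ a * ∑ b, p₂ b * (stil (Φ₂ (ρ₂ b)) / Real.log 2) := by
    intro a
    have : ∀ b, p₁ a * p₂ b * ((stil (Φ₁ (ρ₁ a)) + stil (Φ₂ (ρ₂ b))) / Real.log 2) =
        p₂ b * (p₁ a * (stil (Φ₁ (ρ₁ a)) / Real.log 2)) +
          p₁ a * (p₂ b * (stil (Φ₂ (ρ₂ b)) / Real.log 2)) := by
      intro b
      ring
    simp only [this, Finset.sum_add_distrib, ← Finset.sum_mul, ← Finset.mul_sum, hp₂1]
    ring
  simp only [e1, Finset.sum_add_distrib, ← Finset.sum_mul, hp₁1]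
  simp only [Complex.one_re, one_mul]
  ring

/-- The classical superadditivity through product ensembles. -/
theorem holevo_superadd (γ ν : ℝ) (h0 : 0 ≤ γ) (h1 : γ ≤ 1) (h2 : 0 ≤ ν) (h3 : ν ≤ 1) (n : ℕ)
    (x y : ℝ) (hx : x ∈ holevoSet (gad γ ν)) (hy : y ∈ holevoSet (gadPow γ ν n)) :
    x + y ∈ holevoSet (gadPow γ ν (n + 1)) := by
  refine holevo_superadd_aux (gad γ ν) (gadPow γ ν n) (gad_smul γ ν) (gadPow_smul γ ν n) ?_ ?_ ?_ ?_
    x y hx hy
  · intro X hX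
    exact (posSemidef_of_hasKraus _ (hasKraus_gad γ ν h0 h1 h2 h3) X hX.1).isHermitian
  · intro X hX
    exact (posSemidef_of_hasKraus _ (hasKraus_gadPow γ ν h0 h1 h2 h3 n) X hX.1).isHermitian
  · intro X hX
    rw [gad_trace, hX.2]
  · intro X hX
    rw [trace_gadPow, hX.2]

/-! ### The bit flip -/

/-- Conjugation by the bit flip on the first tensor factor, as a reindexing. -/
def flipE (α : Type) : Fin 2 × α ≃ Fin 2 × α := (Equiv.swap (0 : Fin 2) 1).prodCongr (Equiv.refl α)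

lemma gad_flip (γ : ℝ) (X : Matrix (Fin 2) (Fin 2) ℂ) :
    gad γ 1 X = (gad γ 0 (X.submatrix (Equiv.swap (0 : Fin 2) 1) (Equiv.swap (0 : Fin 2) 1))).submatrix
      (Equiv.swap (0 : Fin 2) 1) (Equiv.swap (0 : Fin 2) 1) := by
  ext i j
  fin_cases i <;> fin_cases j <;> simp [gad] <;> ring

lemma psi_flip (u v : ℝ) :
    (psi v u).submatrix (Equiv.swap (0 : Fin 2) 1) (Equiv.swap (0 : Fin 2) 1) = psi u v := by
  ext i j
  fin_cases i <;> fin_cases j <;> simp [psi, mul_comm]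

/-- ECI at `ν = 1` by the bit flip symmetry. -/
theorem ECI_one (γ : ℝ) (h0 : 0 ≤ γ) (h1 : γ ≤ 1) : ECI γ 1 := by
  intro α _ _ ρ hρ
  have hE := ECI_ad γ h0 h1 (ρ.submatrix (flipE α) (flipE α)) (hρ.submatrix _)
  have hb0 : block 0 0 (ρ.submatrix (flipE α) (flipE α)) = block 1 1 ρ := by
    ext w w'
    simp [block, flipE]
  have hb1 : block 1 1 (ρ.submatrix (flipE α) (flipE α)) = block 0 0 ρ := by
    ext w w'
    simp [block, flipE]
  rw [hb0, hb1] at hE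
  set u := (block 0 0 ρ).trace.re with hu
  set v := (block 1 1 ρ).trace.re with hv
  have hpsi : stil (gad γ 1 (psi u v)) = stil (gad γ 0 (psi v u)) := by
    rw [gad_flip, ← psi_flip u v]
    have : ((psi v u).submatrix (Equiv.swap (0 : Fin 2) 1) (Equiv.swap (0 : Fin 2) 1)).submatrix
        (Equiv.swap (0 : Fin 2) 1) (Equiv.swap (0 : Fin 2) 1) = psi v u := by
      ext i j
      simp
    rw [this]
    have h := stil_reindex (Equiv.swap (0 : Fin 2) 1) (gad γ 0 (psi v u))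
    simpa using h
  have hmain : stil (tensorMap (gad γ 1) id ρ) =
      stil (tensorMap (gad γ 0) id (ρ.submatrix (flipE α) (flipE α))) := by
    have h := stil_reindex (flipE α) (tensorMap (gad γ 0) id (ρ.submatrix (flipE α) (flipE α)))
    rw [← h]
    congr 1
    ext p p'
    obtain ⟨a, w⟩ := p
    obtain ⟨b, w'⟩ := p'
    have := congrFun (congrFun (gad_flip γ (fun c d => ρ (c, w) (d, w'))) a) b
    exact this
  rw [hmain, hpsi]
  linarith

/-! ### Assembly -/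

lemma nonempty_Q : (n : ℕ) → Nonempty (Q n)
  | 0 => ⟨()⟩
  | n + 1 =>
    have := nonempty_Q n
    inferInstanceAs (Nonempty (Fin 2 × Q n))

lemma holevoSet_nonempty {ι : Type} [Fintype ι] [DecidableEq ι] [Nonempty ι]
    (Φ : Matrix ι ι ℂ → Matrix ι ι ℂ) : (holevoSet Φ).Nonempty := by
  classical
  obtain ⟨i₀⟩ := ‹Nonempty ι›
  refine ⟨_, 1, fun _ => 1, fun _ => diagonal (fun j => if j = i₀ then (1 : ℂ) else 0),
    fun _ => zero_le_one, by simp, fun _ => ⟨?_, ?_⟩, rfl⟩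
  · refine posSemidef_diagonal_iff.2 fun j => ?_
    by_cases h : j = i₀ <;> simp [h]
  · simp [trace_diagonal]

/-- Additivity from ECI. -/
theorem capacity_of_ECI (γ ν : ℝ) (h0 : 0 ≤ γ) (h1 : γ ≤ 1) (h2 : 0 ≤ ν) (h3 : ν ≤ 1)
    (hE : ECI γ ν) :
    (∀ n : ℕ, BddAbove (holevoSet (gadPow γ ν n))) ∧
    (∀ n : ℕ, 1 ≤ n → holevoCapacity (gadPow γ ν n) = n * holevoCapacity (gad γ ν)) ∧
    classicalCapacity γ ν = holevoCapacity (gad γ ν) := by
  have hbdd : ∀ n : ℕ, BddAbove (holevoSet (gadPow γ ν n)) := fun n =>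
    ⟨_, holevo_le_of_ECI γ ν h0 h1 h2 h3 hE n⟩
  have hne : ∀ n : ℕ, (holevoSet (gadPow γ ν n)).Nonempty := fun n => by
    have := nonempty_Q n
    exact holevoSet_nonempty _
  have hne1 : (holevoSet (gad γ ν)).Nonempty := holevoSet_nonempty _
  have hbdd1 : BddAbove (holevoSet (gad γ ν)) := bddAbove_holevoSet_gad γ ν h0 h1 h2 h3
  have hcap : ∀ n : ℕ, 1 ≤ n → holevoCapacity (gadPow γ ν n) = n * holevoCapacity (gad γ ν) := by
    intro n hn
    induction n, hn using Nat.le_induction with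
    | base =>
      simp only [holevoCapacity, holevoSet_gadPow_one]
      simp
    | succ n hn ih =>
      apply le_antisymm
      · exact csSup_le (hne _) (holevo_le_of_ECI γ ν h0 h1 h2 h3 hE (n + 1))
      · have key : holevoCapacity (gad γ ν) + holevoCapacity (gadPow γ ν n) ≤
            holevoCapacity (gadPow γ ν (n + 1)) := by
          have hA : ∀ y ∈ holevoSet (gadPow γ ν n),
              holevoCapacity (gad γ ν) ≤ holevoCapacity (gadPow γ ν (n + 1)) - y := by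
            intro y hy
            refine csSup_le hne1 fun x hx => ?_
            have := le_csSup (hbdd (n + 1)) (holevo_superadd γ ν h0 h1 h2 h3 n x y hx hy)
            simp only [holevoCapacity] at *
            linarith
          have hB : holevoCapacity (gadPow γ ν n) ≤
              holevoCapacity (gadPow γ ν (n + 1)) - holevoCapacity (gad γ ν) := by
            refine csSup_le (hne n) fun y hy => ?_
            have := hA y hy
            linarith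
          linarith
        rw [ih] at key
        push_cast
        linarith
  refine ⟨hbdd, hcap, ?_⟩
  have hconst : ∀ n : ℕ, holevoCapacity (gadPow γ ν (n + 1)) / ((n : ℝ) + 1) =
      holevoCapacity (gad γ ν) := by
    intro n
    rw [hcap (n + 1) (by omega)]
    have : ((n : ℝ) + 1) ≠ 0 := by positivity
    push_cast
    field_simp
  simp only [classicalCapacity, hconst]
  exact ciSup_const

end Vale.Agent.P358
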