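import Vale.Agent.Lib.P358.Spectral

/-!
# P358: the leaf-elimination determinant identity and singular value decomposition
-/

open Matrix Real
open scoped ComplexOrder

namespace Vale.Agent.P358

variable {β : Type} [Fintype β] [DecidableEq β]

/-- Output of the amplitude damping channel as a block matrix, with three independent blocks. -/
noncomputable def sigmaBlock (c s : ℝ) (A B₁ B₂ : Matrix β β ℂ) : Matrix (β ⊕ β) (β ⊕ β) ℂ :=
  fromBlocks (A * Aᴴ + ((s ^ 2 : ℝ) : ℂ) • (B₁ * B₁ᴴ)) (((c : ℝ) : ℂ) • (A * B₂ᴴ))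
    (((c : ℝ) : ℂ) • (B₂ * Aᴴ)) (((c ^ 2 : ℝ) : ℂ) • (B₂ * B₂ᴴ))

lemma sigmaBlock_eq (c s : ℝ) (A B₁ B₂ : Matrix β β ℂ) :
    sigmaBlock c s A B₁ B₂ =
      fromBlocks A (((s : ℝ) : ℂ) • B₁) (((c : ℝ) : ℂ) • B₂) 0 *
        (fromBlocks A (((s : ℝ) : ℂ) • B₁) (((c : ℝ) : ℂ) • B₂) 0)ᴴ := by
  unfold sigmaBlock
  rw [fromBlocks_conjTranspose, fromBlocks_multiply]
  simp only [conjTranspose_smul, conjTranspose_zero, mul_zero, add_zero, smul_mul_assoc,
    mul_smul_comm, smul_smul, Complex.star_def, Complex.conj_ofReal, sq, zero_mul, smul_zero,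
    Complex.ofReal_mul]

lemma sigmaBlock_posSemidef (c s : ℝ) (A B₁ B₂ : Matrix β β ℂ) :
    (sigmaBlock c s A B₁ B₂).PosSemidef := by
  rw [sigmaBlock_eq]
  exact posSemidef_self_mul_conjTranspose _

/-- `y + t • (B Bᴴ)` is positive definite. -/
lemma posDef_shift {m n : Type} [Fintype m] [Fintype n] [DecidableEq m] [DecidableEq n]
    (y t : ℝ) (hy : 0 < y) (B : Matrix m n ℂ) :
    (((y : ℝ) : ℂ) • (1 : Matrix m m ℂ) + ((t ^ 2 : ℝ) : ℂ) • (B * Bᴴ)).PosDef := by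
  have h1 : (((y : ℝ) : ℂ) • (1 : Matrix m m ℂ)).PosDef := by
    have : (0 : ℂ) < ((y : ℝ) : ℂ) := by exact_mod_cast hy
    exact PosDef.one.smul this
  have h2 : (((t ^ 2 : ℝ) : ℂ) • (B * Bᴴ)).PosSemidef := by
    have : (((t ^ 2 : ℝ) : ℂ) • (B * Bᴴ)) = (((t : ℝ) : ℂ) • B) * (((t : ℝ) : ℂ) • B)ᴴ := by
      rw [conjTranspose_smul, Matrix.smul_mul, Matrix.mul_smul, smul_smul, Complex.star_def,
        Complex.conj_ofReal, Complex.ofReal_pow, sq]
    rw [this]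
    exact posSemidef_self_mul_conjTranspose _
  exact h1.add_posSemidef h2

/-- `det (y + t • B Bᴴ) = det (y + t • Bᴴ B)`. -/
lemma det_shift_comm (y t : ℝ) (hy : 0 < y) (B : Matrix β β ℂ) :
    det (((y : ℝ) : ℂ) • (1 : Matrix β β ℂ) + ((t : ℝ) : ℂ) • (B * Bᴴ)) =
      det (((y : ℝ) : ℂ) • (1 : Matrix β β ℂ) + ((t : ℝ) : ℂ) • (Bᴴ * B)) := by
  have hyc : ((y : ℝ) : ℂ) ≠ 0 := by exact_mod_cast hy.ne'
  have e1 : ∀ M : Matrix β β ℂ, ((y : ℝ) : ℂ) • (1 : Matrix β β ℂ) + ((t : ℝ) : ℂ) • M =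
      ((y : ℝ) : ℂ) • (1 + (((t : ℝ) : ℂ) / ((y : ℝ) : ℂ)) • M) := by
    intro M
    rw [smul_add, smul_smul, mul_div_cancel₀ _ hyc]
  rw [e1, e1, det_smul, det_smul]
  congr 1
  have := det_one_add_mul_comm ((((t : ℝ) : ℂ) / ((y : ℝ) : ℂ)) • B) Bᴴ
  rw [smul_mul_assoc] at this
  rw [this, mul_smul_comm]

/-- Leaf elimination. -/
theorem det_identity (c s y : ℝ) (hy : 0 < y) (A B₁ B₂ : Matrix β β ℂ) :
    det (((y : ℝ) : ℂ) • (1 : Matrix (β ⊕ β) (β ⊕ β) ℂ) + sigmaBlock c s A B₁ B₂) =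
      det (fromBlocks (((y : ℝ) : ℂ) • (1 : Matrix β β ℂ) + ((s ^ 2 : ℝ) : ℂ) • (B₁ * B₁ᴴ))
        (-(((√y : ℝ) : ℂ) • A)) (((√y : ℝ) : ℂ) • Aᴴ)
        (((y : ℝ) : ℂ) • (1 : Matrix β β ℂ) + ((c ^ 2 : ℝ) : ℂ) • (B₂ᴴ * B₂))) := by
  set yc : ℂ := ((y : ℝ) : ℂ) with hyc
  set c2 : ℂ := ((c ^ 2 : ℝ) : ℂ) with hc2
  set W : Matrix β β ℂ := yc • 1 + c2 • (B₂ * B₂ᴴ) with hW
  set Z : Matrix β β ℂ := yc • 1 + c2 • (B₂ᴴ * B₂) with hZ
  set X : Matrix β β ℂ := yc • 1 + ((s ^ 2 : ℝ) : ℂ) • (B₁ * B₁ᴴ) with hX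
  have hWpd : W.PosDef := posDef_shift y c hy B₂
  have hZpd : Z.PosDef := by
    have := posDef_shift y c hy B₂ᴴ
    rw [conjTranspose_conjTranspose] at this
    exact this
  have hWu : IsUnit W.det := (Matrix.isUnit_iff_isUnit_det _).1 hWpd.isUnit
  have hZu : IsUnit Z.det := (Matrix.isUnit_iff_isUnit_det _).1 hZpd.isUnit
  let iW : Invertible W := invertibleOfIsUnitDet W hWu
  let iZ : Invertible Z := invertibleOfIsUnitDet Z hZu
  have hdet : W.det = Z.det := det_shift_comm y (c ^ 2) hy B₂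
  -- the intertwining relation and push-through
  have hi : Z * B₂ᴴ = B₂ᴴ * W := by
    simp only [hZ, hW, add_mul, mul_add, smul_mul_assoc, mul_smul_comm, one_mul, mul_one,
      Matrix.mul_assoc]
  have hpush : B₂ᴴ * ⅟W = ⅟Z * B₂ᴴ := by
    calc B₂ᴴ * ⅟W = ⅟Z * (Z * B₂ᴴ) * ⅟W := by
            rw [← Matrix.mul_assoc, invOf_mul_self, Matrix.one_mul]
      _ = ⅟Z * B₂ᴴ := by
            rw [hi, Matrix.mul_assoc, Matrix.mul_assoc, mul_invOf_self, Matrix.mul_one]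
  have hkey : c2 • (B₂ᴴ * ⅟W * B₂) = 1 - yc • ⅟Z := by
    rw [hpush, Matrix.mul_assoc]
    have hZ' : c2 • (B₂ᴴ * B₂) = Z - yc • 1 := by
      simp only [hZ, add_sub_cancel_left]
    rw [← mul_smul_comm, hZ', Matrix.mul_sub, invOf_mul_self, mul_smul_comm, Matrix.mul_one]
  -- both sides through the Schur complement
  have hL : (yc • (1 : Matrix (β ⊕ β) (β ⊕ β) ℂ) + sigmaBlock c s A B₁ B₂) =
      fromBlocks (yc • 1 + (A * Aᴴ + ((s ^ 2 : ℝ) : ℂ) • (B₁ * B₁ᴴ)))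
        (((c : ℝ) : ℂ) • (A * B₂ᴴ)) (((c : ℝ) : ℂ) • (B₂ * Aᴴ)) W := by
    unfold sigmaBlock
    rw [← fromBlocks_one, fromBlocks_smul, fromBlocks_add]
    simp [hW, hc2]
  rw [hL, det_fromBlocks₂₂, det_fromBlocks₂₂, hdet]
  congr 2
  -- the two Schur complements agree
  have hy2 : (((√y : ℝ) : ℂ)) * ((√y : ℝ) : ℂ) = yc := by
    rw [← Complex.ofReal_mul, Real.mul_self_sqrt hy.le]
  have hc2' : (((c : ℝ) : ℂ)) * ((c : ℝ) : ℂ) = c2 := by
    rw [← Complex.ofReal_mul, hc2, sq]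
  have e1 : (((c : ℝ) : ℂ) • (A * B₂ᴴ)) * ⅟W * (((c : ℝ) : ℂ) • (B₂ * Aᴴ)) =
      A * (c2 • (B₂ᴴ * ⅟W * B₂)) * Aᴴ := by
    simp only [smul_mul_assoc, mul_smul_comm, smul_smul, hc2', Matrix.mul_assoc]
  have e2 : (-(((√y : ℝ) : ℂ) • A)) * ⅟Z * (((√y : ℝ) : ℂ) • Aᴴ) =
      -(yc • (A * ⅟Z * Aᴴ)) := by
    simp only [smul_mul_assoc, mul_smul_comm, smul_smul, hy2, Matrix.neg_mul, smul_neg]
  rw [e1, e2, hkey, Matrix.mul_sub, Matrix.sub_mul, Matrix.mul_one, hX]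
  simp only [mul_smul_comm, smul_mul_assoc]
  abel

/-- Singular value decomposition of a square complex matrix. -/
theorem exists_svd (A : Matrix β β ℂ) :
    ∃ (U V : Matrix β β ℂ) (g : β → ℝ), U ∈ unitaryGroup β ℂ ∧ V ∈ unitaryGroup β ℂ ∧
      (∀ k, 0 ≤ g k) ∧ A = U * diagonal (fun k => (g k : ℂ)) * Vᴴ := by
  classical
  have hP : (Aᴴ * A).PosSemidef := posSemidef_conjTranspose_mul_self A
  set hH : (Aᴴ * A).IsHermitian := hP.isHermitian with hHdef
  set V : Matrix β β ℂ := (hH.eigenvectorUnitary : Matrix β β ℂ) with hV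
  have hVu : V ∈ unitaryGroup β ℂ := hH.eigenvectorUnitary.2
  have hVV : Vᴴ * V = 1 := by
    have := (mem_unitaryGroup_iff').1 hVu
    simpa [star_eq_conjTranspose] using this
  have hVV' : V * Vᴴ = 1 := by
    have := (mem_unitaryGroup_iff).1 hVu
    simpa [star_eq_conjTranspose] using this
  set lam : β → ℝ := hH.eigenvalues with hlam
  have hlam0 : ∀ k, 0 ≤ lam k := fun k => hP.eigenvalues_nonneg k
  have hspec : Aᴴ * A = V * diagonal (fun k => (lam k : ℂ)) * Vᴴ := by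
    have := hH.spectral_theorem
    rw [Unitary.conjStarAlgAut_apply] at this
    simpa [star_eq_conjTranspose, Function.comp_def] using this
  set C : Matrix β β ℂ := A * V with hC
  have hCC : Cᴴ * C = diagonal (fun k => (lam k : ℂ)) := by
    calc Cᴴ * C = Vᴴ * (Aᴴ * A) * V := by
          simp only [hC, conjTranspose_mul, Matrix.mul_assoc]
      _ = (Vᴴ * V) * diagonal (fun k => (lam k : ℂ)) * (Vᴴ * V) := by
          rw [hspec]; simp only [Matrix.mul_assoc]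
      _ = _ := by rw [hVV]; simp
  -- columns
  let w : β → EuclideanSpace ℂ β := fun k => WithLp.toLp 2 (fun i => C i k)
  have hw : ∀ j k, inner ℂ (w j) (w k) = (Cᴴ * C) j k := by
    intro j k
    simp only [w, PiLp.inner_apply, Matrix.mul_apply, conjTranspose_apply, RCLike.inner_apply]
    refine Finset.sum_congr rfl (fun i _ => ?_)
    simp [mul_comm]
  let v : β → EuclideanSpace ℂ β := fun k => (((√(lam k))⁻¹ : ℝ) : ℂ) • w k
  let S : Set β := {k | 0 < lam k}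
  have hv : Orthonormal ℂ (S.domRestrict v) := by
    rw [orthonormal_iff_ite]
    rintro ⟨j, hj⟩ ⟨k, hk⟩
    have hj' : 0 < lam j := hj
    have hk' : 0 < lam k := hk
    simp only [Set.domRestrict_apply, v]
    rw [inner_smul_left, inner_smul_right, hw, hCC]
    by_cases h : j = k
    · subst h
      simp only [diagonal_apply_eq, if_true]
      have h1 : √(lam j) ≠ 0 := (Real.sqrt_pos.2 hj').ne'
      have h2 : √(lam j) * √(lam j) = lam j := Real.mul_self_sqrt hj'.le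
      simp only [Complex.conj_ofReal]
      rw [← Complex.ofReal_mul, ← Complex.ofReal_mul, ← Complex.ofReal_one]
      congr 1
      field_simp
      nlinarith [h2]
    · have : (⟨j, hj⟩ : S) ≠ ⟨k, hk⟩ := by simpa using h
      simp [diagonal_apply_ne _ h, this]
  obtain ⟨b, hb⟩ := Orthonormal.exists_orthonormalBasis_extension_of_card_eq
    (𝕜 := ℂ) (E := EuclideanSpace ℂ β) (ι := β) (by simp) hv
  set U : Matrix β β ℂ := (EuclideanSpace.basisFun β ℂ).toBasis.toMatrix b with hU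
  have hUu : U ∈ unitaryGroup β ℂ :=
    OrthonormalBasis.toMatrix_orthonormalBasis_mem_unitary _ _
  have hUe : ∀ i k, U i k = (b k) i := by
    intro i k
    simp [hU, Module.Basis.toMatrix_apply]
  have hCU : C = U * diagonal (fun k => ((√(lam k) : ℝ) : ℂ)) := by
    ext i k
    rw [mul_diagonal, hUe]
    by_cases hk : 0 < lam k
    · rw [hb k hk]
      have h1 : √(lam k) ≠ 0 := (Real.sqrt_pos.2 hk).ne'
      have h1' : ((√(lam k) : ℝ) : ℂ) ≠ 0 := by exact_mod_cast h1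
      simp only [v, w, PiLp.smul_apply, smul_eq_mul]
      rw [Complex.ofReal_inv]
      field_simp
    · have h0 : lam k = 0 := le_antisymm (not_lt.1 hk) (hlam0 k)
      have hz : w k = 0 := by
        have : inner ℂ (w k) (w k) = 0 := by
          rw [hw, hCC]; simp [h0]
        exact inner_self_eq_zero.1 this
      have : C i k = (w k) i := rfl
      rw [this, hz, h0]
      simp
  refine ⟨U, V, fun k => √(lam k), hUu, hVu, fun k => Real.sqrt_nonneg _, ?_⟩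
  rw [← hCU, hC, Matrix.mul_assoc, hVV', Matrix.mul_one]

end Vale.Agent.P358
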