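import Vale.Agent.Lib.P358.Spectral

/-!
# P358: the determinant pinching inequality

Key lemma: for `D` positive definite and `S` skew-Hermitian,
`log ‖det (D + S)‖ - log det D` is convex in `D`.
-/

set_option linter.unusedSectionVars false

open Matrix Real
open scoped ComplexOrder

namespace Vale.Agent.P358

variable {ι Ω : Type} [Fintype ι] [DecidableEq ι] [Fintype Ω] [DecidableEq Ω]

/-- Sum of squares of the entries. -/
noncomputable def frob (X : Matrix Ω Ω ℂ) : ℝ := ∑ j, ∑ i, ‖X i j‖ ^ 2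

lemma frob_nonneg (X : Matrix Ω Ω ℂ) : 0 ≤ frob X :=
  Finset.sum_nonneg fun _ _ => Finset.sum_nonneg fun _ _ => by positivity

lemma trace_conjTranspose_mul_self_re (X : Matrix Ω Ω ℂ) : (trace (Xᴴ * X)).re = frob X := by
  unfold frob
  simp only [trace, Matrix.diag_apply, Matrix.mul_apply, conjTranspose_apply, Complex.re_sum]
  refine Finset.sum_congr rfl fun j _ => Finset.sum_congr rfl fun i _ => ?_
  rw [← Complex.normSq_eq_norm_sq]
  simp [Complex.normSq_apply, Complex.mul_re]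

lemma frob_conjTranspose (X : Matrix Ω Ω ℂ) : frob Xᴴ = frob X := by
  unfold frob
  rw [Finset.sum_comm]
  simp [conjTranspose_apply]

lemma norm_trace_mul_le (X Y : Matrix Ω Ω ℂ) :
    ‖trace (X * Y)‖ ≤ √(frob X) * √(frob Y) := by
  have h1 : ‖trace (X * Y)‖ ≤ ∑ p : Ω × Ω, ‖X p.2 p.1‖ * ‖Y p.1 p.2‖ := by
    simp only [trace, Matrix.diag_apply, Matrix.mul_apply]
    rw [Finset.sum_comm]
    refine (norm_sum_le _ _).trans ?_
    rw [Fintype.sum_prod_type]
    refine Finset.sum_le_sum fun j _ => (norm_sum_le _ _).trans ?_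
    exact Finset.sum_le_sum fun i _ => (norm_mul_le _ _)
  refine h1.trans ?_
  refine (Real.sum_mul_le_sqrt_mul_sqrt _ _ _).trans ?_
  apply le_of_eq
  congr 2
  · rw [Fintype.sum_prod_type]; rfl
  · rw [Fintype.sum_prod_type, Finset.sum_comm]; rfl

lemma frob_le_of_skew (R Y : Matrix Ω Ω ℂ) (hR : Rᴴ = -R) : frob Y ≤ frob ((1 + R) * Y) := by
  rw [← trace_conjTranspose_mul_self_re, ← trace_conjTranspose_mul_self_re]
  have h : ((1 + R) * Y)ᴴ * ((1 + R) * Y) = Yᴴ * Y + (R * Y)ᴴ * (R * Y) := by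
    simp only [conjTranspose_mul, conjTranspose_add, conjTranspose_one, hR]
    noncomm_ring
  rw [h, trace_add, Complex.add_re, trace_conjTranspose_mul_self_re (R * Y)]
  linarith [frob_nonneg (R * Y)]

lemma det_one_add_skew_ne_zero (R : Matrix Ω Ω ℂ) (hR : Rᴴ = -R) : (1 + R).det ≠ 0 := by
  have hp : ((1 : Matrix Ω Ω ℂ) + R * Rᴴ).PosDef :=
    PosDef.one.add_posSemidef (posSemidef_self_mul_conjTranspose R)
  have h : (1 + R) * (1 + Rᴴ) = (1 : Matrix Ω Ω ℂ) + R * Rᴴ := by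
    rw [hR]; noncomm_ring
  have hd := hp.det_pos
  rw [← h, det_mul] at hd
  intro h0
  rw [h0, zero_mul] at hd
  exact lt_irrefl _ hd

/-- A positive semidefinite matrix is `Nᴴ N`. -/
lemma exists_factor (B : Matrix Ω Ω ℂ) (hB : B.PosSemidef) : ∃ N : Matrix Ω Ω ℂ, B = Nᴴ * N := by
  classical
  let U : Matrix Ω Ω ℂ := hB.1.eigenvectorUnitary
  let sD : Matrix Ω Ω ℂ := diagonal (fun i => ((√(hB.1.eigenvalues i) : ℝ) : ℂ))
  refine ⟨sD * Uᴴ, ?_⟩
  have hD : (diagonal (RCLike.ofReal ∘ hB.1.eigenvalues) : Matrix Ω Ω ℂ) = sDᴴ * sD := by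
    simp only [sD, diagonal_conjTranspose, diagonal_mul_diagonal]
    congr 1
    ext i
    simp only [Function.comp, Pi.star_apply, Complex.star_def, Complex.conj_ofReal]
    rw [← Complex.ofReal_mul, Real.mul_self_sqrt (hB.eigenvalues_nonneg i)]
    rfl
  conv_lhs => rw [hB.1.spectral_theorem]
  rw [Unitary.conjStarAlgAut_apply, hD]
  simp only [conjTranspose_mul, conjTranspose_conjTranspose, star_eq_conjTranspose,
    Matrix.mul_assoc, U]

/-- Factorization of a positive definite matrix and its inverse. -/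
lemma exists_factor_inv (B : Matrix Ω Ω ℂ) (hB : B.PosDef) :
    ∃ N M : Matrix Ω Ω ℂ, B = Nᴴ * N ∧ N * M = 1 ∧ M * N = 1 := by
  obtain ⟨N, hN⟩ := exists_factor B hB.posSemidef
  have hd : N.det ≠ 0 := by
    intro h0
    have := hB.det_pos
    rw [hN, det_mul, h0, mul_zero] at this
    exact lt_irrefl _ this
  have hu : IsUnit N.det := isUnit_iff_ne_zero.mpr hd
  exact ⟨N, N⁻¹, hN, mul_nonsing_inv _ hu, nonsing_inv_mul _ hu⟩

/-- Contraction estimate: for `Bᵢ` positive definite, `Aᵢ = Bᵢ + S` with `S` skew-Hermitian and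
`V` Hermitian, `|Tr (A₂⁻¹ V A₁⁻¹ V)| ≤ Tr (B₂⁻¹ V B₁⁻¹ V)`. -/
lemma trace_inv_contraction (B₁ B₂ S V : Matrix Ω Ω ℂ) (h₁ : B₁.PosDef) (h₂ : B₂.PosDef)
    (hS : Sᴴ = -S) (hV : V.IsHermitian) :
    ‖trace ((B₂ + S)⁻¹ * V * (B₁ + S)⁻¹ * V)‖ ≤ (trace (B₂⁻¹ * V * B₁⁻¹ * V)).re := by
  obtain ⟨N₁, M₁, hB₁, hNM₁, hMN₁⟩ := exists_factor_inv B₁ h₁
  obtain ⟨N₂, M₂, hB₂, hNM₂, hMN₂⟩ := exists_factor_inv B₂ h₂
  -- adjoint relations
  have hNMh₁ : N₁ᴴ * M₁ᴴ = 1 := by rw [← conjTranspose_mul, hMN₁, conjTranspose_one]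
  have hNMh₂ : N₂ᴴ * M₂ᴴ = 1 := by rw [← conjTranspose_mul, hMN₂, conjTranspose_one]
  have hMNh₁ : M₁ᴴ * N₁ᴴ = 1 := by rw [← conjTranspose_mul, hNM₁, conjTranspose_one]
  have hMNh₂ : M₂ᴴ * N₂ᴴ = 1 := by rw [← conjTranspose_mul, hNM₂, conjTranspose_one]
  -- inverse of `B`
  have hBinv : ∀ (N M : Matrix Ω Ω ℂ), N * M = 1 → M * N = 1 → Nᴴ * M ᴴ = 1 →
      (Nᴴ * N)⁻¹ = M * Mᴴ := by
    intro N M h1 h2 h3
    apply inv_eq_right_inv
    calc Nᴴ * N * (M * Mᴴ) = Nᴴ * (N * M) * Mᴴ := by simp only [Matrix.mul_assoc]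
      _ = 1 := by rw [h1, Matrix.mul_one, h3]
  -- skew parts
  let R₁ := M₁ᴴ * S * M₁
  let R₂ := M₂ᴴ * S * M₂
  have hR₁ : R₁ᴴ = -R₁ := by
    simp only [R₁, conjTranspose_mul, conjTranspose_conjTranspose, hS, Matrix.mul_neg,
      Matrix.neg_mul, Matrix.mul_assoc]
  have hR₂ : R₂ᴴ = -R₂ := by
    simp only [R₂, conjTranspose_mul, conjTranspose_conjTranspose, hS, Matrix.mul_neg,
      Matrix.neg_mul, Matrix.mul_assoc]
  have hu₁ : IsUnit (1 + R₁).det := isUnit_iff_ne_zero.mpr (det_one_add_skew_ne_zero R₁ hR₁)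
  have hu₂ : IsUnit (1 + R₂).det := isUnit_iff_ne_zero.mpr (det_one_add_skew_ne_zero R₂ hR₂)
  let C₁ := (1 + R₁)⁻¹
  let C₂ := (1 + R₂)⁻¹
  have hC₁ : (1 + R₁) * C₁ = 1 := mul_nonsing_inv _ hu₁
  have hC₂ : (1 + R₂) * C₂ = 1 := mul_nonsing_inv _ hu₂
  -- inverse of `B + S`
  have hAinv : ∀ (N M R C : Matrix Ω Ω ℂ), N * M = 1 → Nᴴ * Mᴴ = 1 → R = Mᴴ * S * M →
      (1 + R) * C = 1 → (Nᴴ * N + S)⁻¹ = M * C * Mᴴ := by
    intro N M R C h1 h3 hR hC
    apply inv_eq_right_inv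
    have : (Nᴴ * N + S) * M = Nᴴ * (1 + R) := by
      rw [Matrix.add_mul, Matrix.mul_assoc, h1, Matrix.mul_one, hR, Matrix.mul_add, Matrix.mul_one]
      congr 1
      simp only [← Matrix.mul_assoc, h3, Matrix.one_mul]
    calc (Nᴴ * N + S) * (M * C * Mᴴ) = ((Nᴴ * N + S) * M) * C * Mᴴ := by
          simp only [Matrix.mul_assoc]
      _ = Nᴴ * ((1 + R) * C) * Mᴴ := by rw [this]; simp only [Matrix.mul_assoc]
      _ = 1 := by rw [hC, Matrix.mul_one, h3]
  rw [hB₁, hB₂, hAinv N₁ M₁ R₁ C₁ hNM₁ hNMh₁ rfl hC₁, hAinv N₂ M₂ R₂ C₂ hNM₂ hNMh₂ rfl hC₂,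
    hBinv N₁ M₁ hNM₁ hMN₁ hNMh₁, hBinv N₂ M₂ hNM₂ hMN₂ hNMh₂]
  -- the matrix `W`
  let W := M₂ᴴ * V * M₁
  have hWh : Wᴴ = M₁ᴴ * V * M₂ := by
    simp only [W, conjTranspose_mul, conjTranspose_conjTranspose, hV.eq, Matrix.mul_assoc]
  have e1 : trace (M₂ * C₂ * M₂ᴴ * V * (M₁ * C₁ * M₁ᴴ) * V) = trace ((C₂ * W) * (C₁ * Wᴴ)) := by
    rw [hWh]
    simp only [W]
    calc trace (M₂ * C₂ * M₂ᴴ * V * (M₁ * C₁ * M₁ᴴ) * V)
        = trace (M₂ * (C₂ * (M₂ᴴ * V * M₁) * (C₁ * (M₁ᴴ * V)))) := by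
          simp only [Matrix.mul_assoc]
      _ = trace ((C₂ * (M₂ᴴ * V * M₁) * (C₁ * (M₁ᴴ * V))) * M₂) := trace_mul_comm _ _
      _ = _ := by simp only [Matrix.mul_assoc]
  have e2 : trace (M₂ * M₂ᴴ * V * (M₁ * M₁ᴴ) * V) = trace (Wᴴ * W) := by
    rw [hWh]
    simp only [W]
    calc trace (M₂ * M₂ᴴ * V * (M₁ * M₁ᴴ) * V)
        = trace (M₂ * (M₂ᴴ * V * M₁ * (M₁ᴴ * V))) := by simp only [Matrix.mul_assoc]
      _ = trace ((M₂ᴴ * V * M₁ * (M₁ᴴ * V)) * M₂) := trace_mul_comm _ _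
      _ = trace (M₂ᴴ * V * M₁ * (M₁ᴴ * V * M₂)) := by simp only [Matrix.mul_assoc]
      _ = trace ((M₁ᴴ * V * M₂) * (M₂ᴴ * V * M₁)) := trace_mul_comm _ _
  rw [e1, e2, trace_conjTranspose_mul_self_re]
  -- contraction
  have c1 : frob (C₂ * W) ≤ frob W := by
    have := frob_le_of_skew R₂ (C₂ * W) hR₂
    have h : (1 + R₂) * (C₂ * W) = W := by rw [← Matrix.mul_assoc, hC₂, Matrix.one_mul]
    rwa [h] at this
  have c2 : frob (C₁ * Wᴴ) ≤ frob W := by
    have := frob_le_of_skew R₁ (C₁ * Wᴴ) hR₁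
    have h : (1 + R₁) * (C₁ * Wᴴ) = Wᴴ := by rw [← Matrix.mul_assoc, hC₁, Matrix.one_mul]
    rwa [h, frob_conjTranspose] at this
  refine (norm_trace_mul_le _ _).trans ?_
  calc √(frob (C₂ * W)) * √(frob (C₁ * Wᴴ)) ≤ √(frob W) * √(frob W) := by
        gcongr
    _ = frob W := Real.mul_self_sqrt (frob_nonneg W)

/-- Derivative of the determinant along a line. -/
lemma hasDerivAt_det_one_add (M : Matrix Ω Ω ℂ) :
    HasDerivAt (fun r : ℂ => det (1 + r • M)) (trace M) 0 := by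
  classical
  have h : (fun r : ℂ => det (1 + r • M)) = fun r => 1 + trace M * r +
      (det (1 + (Polynomial.X : Polynomial ℂ) • M.map Polynomial.C)).divX.divX.eval r * r ^ 2 := by
    ext r; exact det_one_add_smul r M
  rw [h]
  have h1 : HasDerivAt (fun r : ℂ => 1 + trace M * r) (trace M) 0 := by
    simpa using ((hasDerivAt_id (0 : ℂ)).const_mul (trace M)).const_add 1
  have h2 : HasDerivAt (fun r : ℂ =>
      (det (1 + (Polynomial.X : Polynomial ℂ) • M.map Polynomial.C)).divX.divX.eval r * r ^ 2)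
      0 0 := by
    have := (Polynomial.hasDerivAt
      (det (1 + (Polynomial.X : Polynomial ℂ) • M.map Polynomial.C)).divX.divX 0).fun_mul
      ((hasDerivAt_id' (0 : ℂ)).fun_pow 2)
    exact this.congr_deriv (by simp)
  exact (h1.fun_add h2).congr_deriv (by simp)

lemma hasDerivAt_det_line (P V : Matrix Ω Ω ℂ) (τ₀ : ℝ) (h : (P + (τ₀ : ℂ) • V).det ≠ 0) :
    HasDerivAt (fun τ : ℝ => det (P + (τ : ℂ) • V))
      (det (P + (τ₀ : ℂ) • V) * trace ((P + (τ₀ : ℂ) • V)⁻¹ * V)) τ₀ := by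
  set A₀ := P + (τ₀ : ℂ) • V with hA₀
  have hu : IsUnit A₀.det := isUnit_iff_ne_zero.mpr h
  have key : ∀ τ : ℝ, det (P + (τ : ℂ) • V) =
      det A₀ * det (1 + ((τ : ℂ) - τ₀) • (A₀⁻¹ * V)) := by
    intro τ
    rw [← det_mul]
    congr 1
    rw [Matrix.mul_add, Matrix.mul_one, Matrix.mul_smul, ← Matrix.mul_assoc,
      mul_nonsing_inv _ hu, Matrix.one_mul, hA₀, sub_smul]
    abel
  have h1 := hasDerivAt_det_one_add (A₀⁻¹ * V)
  have h2 : HasDerivAt (fun z : ℂ => det (1 + (z - τ₀) • (A₀⁻¹ * V))) (trace (A₀⁻¹ * V))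
      (τ₀ : ℂ) := by
    have h1' : HasDerivAt (fun r : ℂ => det (1 + r • (A₀⁻¹ * V))) (trace (A₀⁻¹ * V))
        ((τ₀ : ℂ) - τ₀) := by simpa using h1
    exact h1'.comp_sub_const (τ₀ : ℂ) (τ₀ : ℂ)
  have h3 := (h2.comp_ofReal).const_mul (det A₀)
  exact h3.congr_of_eventuallyEq (Filter.Eventually.of_forall key)

lemma hasDerivAt_log_norm (z : ℝ → ℂ) (z' : ℂ) (τ : ℝ) (hz : HasDerivAt z z' τ) (h0 : z τ ≠ 0) :
    HasDerivAt (fun t => Real.log ‖z t‖) ((z' / z τ).re) τ := by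
  have h1 := hz.norm_sq
  have hn : ‖z τ‖ ^ 2 ≠ 0 := by positivity
  have h2 := (h1.log hn).const_mul (1 / 2 : ℝ)
  have e : (fun t => Real.log ‖z t‖) = fun t => (1 / 2 : ℝ) * Real.log (‖z t‖ ^ 2) := by
    ext t; rw [Real.log_pow]; push_cast; ring
  rw [e]
  refine h2.congr_deriv ?_
  rw [Complex.div_re]
  have hns : Complex.normSq (z τ) = ‖z τ‖ ^ 2 := Complex.normSq_eq_norm_sq _
  rw [hns]
  simp only [Complex.inner]
  simp only [Complex.mul_re, Complex.conj_re, Complex.conj_im]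
  field_simp
  ring

lemma det_add_skew_ne_zero (B S : Matrix Ω Ω ℂ) (hB : B.PosDef) (hS : Sᴴ = -S) :
    (B + S).det ≠ 0 := by
  obtain ⟨N, M, hBN, hNM, hMN⟩ := exists_factor_inv B hB
  have hR : (Mᴴ * S * M)ᴴ = -(Mᴴ * S * M) := by
    simp only [conjTranspose_mul, conjTranspose_conjTranspose, hS, Matrix.mul_neg,
      Matrix.neg_mul, Matrix.mul_assoc]
  have hNMh : Nᴴ * Mᴴ = 1 := by rw [← conjTranspose_mul, hMN, conjTranspose_one]
  have e : B + S = Nᴴ * (1 + Mᴴ * S * M) * N := by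
    rw [hBN, Matrix.mul_add, Matrix.add_mul, Matrix.mul_one]
    congr 1
    calc S = (Nᴴ * Mᴴ) * S * (M * N) := by rw [hNMh, hMN, Matrix.one_mul, Matrix.mul_one]
      _ = _ := by simp only [Matrix.mul_assoc]
  rw [e, det_mul, det_mul]
  have hdN : N.det ≠ 0 := by
    intro h0
    have := congrArg det hNM
    rw [det_mul, h0, zero_mul, det_one] at this
    exact zero_ne_one this
  have hdNh : (Nᴴ).det ≠ 0 := by
    rw [det_conjTranspose]
    exact star_ne_zero.mpr hdN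
  exact mul_ne_zero (mul_ne_zero hdNh (det_one_add_skew_ne_zero _ hR)) hdN

lemma re_det_eq_norm (X : Matrix Ω Ω ℂ) (hX : X.PosDef) : (det X).re = ‖det X‖ := by
  have h := hX.det_pos
  have him : (det X).im = 0 := ((Complex.lt_def.mp h).2).symm
  have hre : 0 < (det X).re := by simpa using (Complex.lt_def.mp h).1
  have : det X = ((det X).re : ℂ) := by
    apply Complex.ext <;> simp [him]
  rw [this, Complex.norm_real]
  simp [abs_of_pos hre]

lemma posDef_convex_comb (X Y : Matrix Ω Ω ℂ) (hX : X.PosDef) (hY : Y.PosDef) (a b : ℝ)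
    (ha : 0 ≤ a) (hb : 0 ≤ b) (hab : a + b = 1) : (((a : ℂ)) • X + ((b : ℂ)) • Y).PosDef := by
  rcases ha.eq_or_lt with h0 | h0
  · have hb1 : b = 1 := by linarith
    simpa [← h0, hb1] using hY
  · have h1 : (0 : ℂ) < (a : ℂ) := by exact_mod_cast h0
    have h2 : (0 : ℂ) ≤ (b : ℂ) := by exact_mod_cast hb
    exact (hX.smul h1).add_posSemidef (hY.posSemidef.smul h2)

/-- One pinching step: if `T` is a Hermitian involution commuting with the skew-Hermitian `S`,
pinching `D` with `T` does not increase `‖det (D + S)‖ / det D`. -/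
theorem pinch_step (D S T : Matrix Ω Ω ℂ) (hD : D.PosDef) (hS : Sᴴ = -S) (hT : Tᴴ = T)
    (hT2 : T * T = 1) (hTS : T * S = S * T) :
    ‖det (((1 / 2 : ℂ) • (D + T * D * T)) + S)‖ / (det ((1 / 2 : ℂ) • (D + T * D * T))).re
      ≤ ‖det (D + S)‖ / (det D).re := by
  classical
  have hdT : (T.det) * (T.det) = 1 := by rw [← det_mul, hT2, det_one]
  have hTDT : (T * D * T).PosDef := by
    have hp : (T * D * T).PosSemidef := by
      have := hD.posSemidef.conjTranspose_mul_mul_same T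
      rwa [hT] at this
    rw [hp.posDef_iff_det_ne_zero, det_mul, det_mul]
    have : T.det ≠ 0 := by
      intro h0; rw [h0, zero_mul] at hdT; exact zero_ne_one hdT
    exact mul_ne_zero (mul_ne_zero this hD.det_pos.ne') this
  set V : Matrix Ω Ω ℂ := (1 / 2 : ℂ) • (D - T * D * T) with hVdef
  set D' : Matrix Ω Ω ℂ := (1 / 2 : ℂ) • (D + T * D * T) with hD'def
  have hV : V.IsHermitian := by
    have h1 : Dᴴ = D := hD.1
    unfold Matrix.IsHermitian
    simp only [hVdef, conjTranspose_smul, conjTranspose_sub, conjTranspose_mul, hT, h1,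
      Matrix.mul_assoc]
    simp
  -- the family
  let B : ℝ → Matrix Ω Ω ℂ := fun τ => D' + (τ : ℂ) • V
  have hBform : ∀ τ : ℝ, B τ = ((((1 + τ) / 2 : ℝ) : ℂ)) • D + ((((1 - τ) / 2 : ℝ) : ℂ)) • (T * D * T) := by
    intro τ
    simp only [B, hVdef, hD'def, smul_add, smul_sub, smul_smul]
    push_cast
    ext i j
    simp only [Matrix.add_apply, Matrix.smul_apply, Matrix.sub_apply, smul_eq_mul]
    ring
  have hBpos : ∀ τ ∈ Set.Icc (-1 : ℝ) 1, (B τ).PosDef := by
    intro τ hτ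
    rw [hBform]
    exact posDef_convex_comb _ _ hD hTDT _ _ (by linarith [hτ.1]) (by linarith [hτ.2]) (by ring)
  let φ : ℝ → ℝ := fun τ => Real.log ‖det (B τ + S)‖ - Real.log ‖det (B τ)‖
  let dφ : ℝ → ℝ := fun τ => (trace ((B τ + S)⁻¹ * V)).re - (trace ((B τ)⁻¹ * V)).re
  have hA_eq : ∀ τ : ℝ, B τ + S = (D' + S) + (τ : ℂ) • V := by
    intro τ; simp only [B]; abel
  have hderiv : ∀ τ ∈ Set.Icc (-1 : ℝ) 1, HasDerivAt φ (dφ τ) τ := by
    intro τ hτ
    have hB0 := (hBpos τ hτ).det_pos.ne'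
    have hA0 := det_add_skew_ne_zero (B τ) S (hBpos τ hτ) hS
    have h1 := hasDerivAt_det_line (D' + S) V τ (by rw [← hA_eq]; exact hA0)
    have h2 := hasDerivAt_det_line D' V τ hB0
    have h1' := hasDerivAt_log_norm _ _ τ h1 (by rw [← hA_eq]; exact hA0)
    have h2' := hasDerivAt_log_norm _ _ τ h2 hB0
    have h3 := h1'.sub h2'
    have e : φ = (fun t : ℝ => Real.log ‖det ((D' + S) + (t : ℂ) • V)‖) -
        (fun t : ℝ => Real.log ‖det (D' + (t : ℂ) • V)‖) := by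
      ext t; simp only [φ, Pi.sub_apply, B]; rw [← hA_eq t]
    rw [e]
    refine h3.congr_deriv ?_
    simp only [dφ]
    rw [← hA_eq τ]
    rw [mul_div_cancel_left₀ _ hA0, mul_div_cancel_left₀ _ hB0]
  have hmono : MonotoneOn dφ (Set.Icc (-1) 1) := by
    intro τ₁ h₁ τ₂ h₂ hle
    have hB₁ := hBpos τ₁ h₁
    have hB₂ := hBpos τ₂ h₂
    have hresA : (B τ₂ + S)⁻¹ - (B τ₁ + S)⁻¹ =
        ((τ₁ - τ₂ : ℝ) : ℂ) • ((B τ₂ + S)⁻¹ * V * (B τ₁ + S)⁻¹) := by
      have hu₁ : IsUnit (B τ₁ + S).det := isUnit_iff_ne_zero.mpr (det_add_skew_ne_zero _ S hB₁ hS)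
      have hu₂ : IsUnit (B τ₂ + S).det := isUnit_iff_ne_zero.mpr (det_add_skew_ne_zero _ S hB₂ hS)
      have : (B τ₁ + S) - (B τ₂ + S) = ((τ₁ - τ₂ : ℝ) : ℂ) • V := by
        simp only [B]; push_cast; rw [sub_smul]; abel
      calc (B τ₂ + S)⁻¹ - (B τ₁ + S)⁻¹
          = (B τ₂ + S)⁻¹ * ((B τ₁ + S) - (B τ₂ + S)) * (B τ₁ + S)⁻¹ := by
            rw [Matrix.mul_sub, Matrix.sub_mul, nonsing_inv_mul _ hu₂, Matrix.one_mul,
              Matrix.mul_assoc, mul_nonsing_inv _ hu₁, Matrix.mul_one]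
        _ = _ := by rw [this, Matrix.mul_smul, Matrix.smul_mul]
    have hresB : (B τ₂)⁻¹ - (B τ₁)⁻¹ =
        ((τ₁ - τ₂ : ℝ) : ℂ) • ((B τ₂)⁻¹ * V * (B τ₁)⁻¹) := by
      have hu₁ : IsUnit (B τ₁).det := isUnit_iff_ne_zero.mpr hB₁.det_pos.ne'
      have hu₂ : IsUnit (B τ₂).det := isUnit_iff_ne_zero.mpr hB₂.det_pos.ne'
      have : (B τ₁) - (B τ₂) = ((τ₁ - τ₂ : ℝ) : ℂ) • V := by
        simp only [B]; push_cast; rw [sub_smul]; abel
      calc (B τ₂)⁻¹ - (B τ₁)⁻¹
          = (B τ₂)⁻¹ * ((B τ₁) - (B τ₂)) * (B τ₁)⁻¹ := by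
            rw [Matrix.mul_sub, Matrix.sub_mul, nonsing_inv_mul _ hu₂, Matrix.one_mul,
              Matrix.mul_assoc, mul_nonsing_inv _ hu₁, Matrix.mul_one]
        _ = _ := by rw [this, Matrix.mul_smul, Matrix.smul_mul]
    have key := trace_inv_contraction (B τ₁) (B τ₂) S V hB₁ hB₂ hS hV
    have hAtr : (trace ((B τ₂ + S)⁻¹ * V)).re - (trace ((B τ₁ + S)⁻¹ * V)).re =
        (τ₁ - τ₂) * (trace ((B τ₂ + S)⁻¹ * V * (B τ₁ + S)⁻¹ * V)).re := by
      rw [← Complex.sub_re, ← trace_sub, ← Matrix.sub_mul, hresA, Matrix.smul_mul, trace_smul,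
        smul_eq_mul, Complex.re_ofReal_mul]
    have hBtr : (trace ((B τ₂)⁻¹ * V)).re - (trace ((B τ₁)⁻¹ * V)).re =
        (τ₁ - τ₂) * (trace ((B τ₂)⁻¹ * V * (B τ₁)⁻¹ * V)).re := by
      rw [← Complex.sub_re, ← trace_sub, ← Matrix.sub_mul, hresB, Matrix.smul_mul, trace_smul,
        smul_eq_mul, Complex.re_ofReal_mul]
    have hre : (trace ((B τ₂ + S)⁻¹ * V * (B τ₁ + S)⁻¹ * V)).re ≤
        (trace ((B τ₂)⁻¹ * V * (B τ₁)⁻¹ * V)).re :=
      (Complex.re_le_norm _).trans key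
    have : dφ τ₂ - dφ τ₁ = (τ₂ - τ₁) * ((trace ((B τ₂)⁻¹ * V * (B τ₁)⁻¹ * V)).re -
        (trace ((B τ₂ + S)⁻¹ * V * (B τ₁ + S)⁻¹ * V)).re) := by
      simp only [dφ]
      linear_combination hAtr - hBtr
    have hpos : 0 ≤ dφ τ₂ - dφ τ₁ := by
      rw [this]
      exact mul_nonneg (by linarith) (by linarith)
    linarith
  have hconv : ConvexOn ℝ (Set.Icc (-1 : ℝ) 1) φ := by
    refine MonotoneOn.convexOn_of_deriv (convex_Icc _ _) ?_ ?_ ?_
    · intro τ hτ
      exact (hderiv τ hτ).continuousAt.continuousWithinAt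
    · intro τ hτ
      exact (hderiv τ (interior_subset hτ)).differentiableAt.differentiableWithinAt
    · intro τ₁ h₁ τ₂ h₂ hle
      rw [(hderiv τ₁ (interior_subset h₁)).deriv, (hderiv τ₂ (interior_subset h₂)).deriv]
      exact hmono (interior_subset h₁) (interior_subset h₂) hle
  -- endpoints
  have hB1 : B 1 = D := by
    simp only [B, hVdef, hD'def]
    push_cast
    ext i j
    simp only [Matrix.add_apply, Matrix.smul_apply, Matrix.sub_apply, smul_eq_mul]
    ring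
  have hBm1 : B (-1) = T * D * T := by
    simp only [B, hVdef, hD'def]
    push_cast
    ext i j
    simp only [Matrix.add_apply, Matrix.smul_apply, Matrix.sub_apply, smul_eq_mul]
    ring
  have hB0 : B 0 = D' := by simp [B]
  have hφsymm : φ (-1) = φ 1 := by
    simp only [φ, hB1, hBm1]
    have e1 : T * D * T + S = T * (D + S) * T := by
      rw [Matrix.mul_add, Matrix.add_mul, hTS, Matrix.mul_assoc S T T, hT2, Matrix.mul_one]
    have dd : ∀ X : Matrix Ω Ω ℂ, det (T * X * T) = det X := by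
      intro X
      rw [det_mul, det_mul, mul_comm (T.det), mul_assoc, hdT, mul_one]
    rw [e1, dd, dd]
  have h0 : φ 0 ≤ φ 1 := by
    have := hconv.2 (show (1 : ℝ) ∈ Set.Icc (-1 : ℝ) 1 by simp)
      (show (-1 : ℝ) ∈ Set.Icc (-1 : ℝ) 1 by simp) (by norm_num : (0 : ℝ) ≤ 1 / 2)
      (by norm_num : (0 : ℝ) ≤ 1 / 2) (by norm_num)
    simp only [smul_eq_mul] at this
    have e : (1 / 2 : ℝ) * 1 + 1 / 2 * -1 = 0 := by norm_num
    rw [e, hφsymm] at this
    linarith
  simp only [φ, hB0, hB1] at h0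
  have hD'pos : D'.PosDef := by
    have := hBpos 0 (by simp)
    rwa [hB0] at this
  rw [re_det_eq_norm _ hD, re_det_eq_norm _ hD'pos]
  have a1 : 0 < ‖det (D' + S)‖ := norm_pos_iff.mpr (det_add_skew_ne_zero _ S hD'pos hS)
  have a2 : 0 < ‖det D'‖ := norm_pos_iff.mpr hD'pos.det_pos.ne'
  have a3 : 0 < ‖det (D + S)‖ := norm_pos_iff.mpr (det_add_skew_ne_zero _ S hD hS)
  have a4 : 0 < ‖det D‖ := norm_pos_iff.mpr hD.det_pos.ne'
  rw [← Real.log_le_log_iff (div_pos a1 a2) (div_pos a3 a4), Real.log_div a1.ne' a2.ne',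
    Real.log_div a3.ne' a4.ne']
  exact h0

/-- Pinching: zero out the off-diagonal entries touching `T`. -/
def pinchOn (T : Finset ι) (x : Matrix ι ι ℂ) : Matrix ι ι ℂ :=
  fun a b => if a = b ∨ (a ∉ T ∧ b ∉ T) then x a b else 0

/-- The sign matrix flipping the coordinate `j`. -/
def signD (j : ι) : Matrix ι ι ℂ := diagonal (fun a => if a = j then -1 else 1)

lemma signD_conj (j : ι) : (signD j)ᴴ = signD j := by
  unfold signD
  rw [diagonal_conjTranspose]
  congr 1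
  ext a
  by_cases h : a = j <;> simp [h]

lemma signD_sq (j : ι) : signD j * signD j = 1 := by
  unfold signD
  rw [diagonal_mul_diagonal, ← diagonal_one]
  congr 1
  ext a
  by_cases h : a = j <;> simp [h]

lemma signD_mul_mul_apply (j : ι) (X : Matrix ι ι ℂ) (a b : ι) :
    (signD j * X * signD j) a b = (if a = j then -1 else 1) * X a b * (if b = j then -1 else 1) := by
  unfold signD
  rw [Matrix.mul_diagonal, Matrix.diagonal_mul]

lemma pinchOn_empty (x : Matrix ι ι ℂ) : pinchOn ∅ x = x := by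
  ext a b
  simp [pinchOn]

lemma pinchOn_univ (x : Matrix ι ι ℂ) : pinchOn Finset.univ x = diagonal (fun k => x k k) := by
  ext a b
  by_cases h : a = b
  · subst h; simp [pinchOn]
  · simp [pinchOn, h]

lemma pinchOn_insert (j : ι) (T : Finset ι) (x : Matrix ι ι ℂ) :
    pinchOn (insert j T) x =
      (1 / 2 : ℂ) • (pinchOn T x + signD j * pinchOn T x * signD j) := by
  ext a b
  rw [Matrix.smul_apply, Matrix.add_apply, signD_mul_mul_apply]
  by_cases hab : a = b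
  · subst hab
    by_cases ha : a = j <;> simp [pinchOn, ha] <;> ring
  · by_cases ha : a = j
    · subst ha
      have hb : b ≠ a := fun h => hab h.symm
      simp only [pinchOn, hab, hb, Finset.mem_insert, if_true, if_false]
      split_ifs <;> simp_all
    · by_cases hb : b = j
      · subst hb
        simp [pinchOn, hab, ha]
      · by_cases hT : a ∉ T ∧ b ∉ T
        · simp [pinchOn, hab, ha, hb, hT.1, hT.2]
          ring
        · have hT' : ¬ (a ∉ T ∧ b ∉ T) := hT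
          simp only [pinchOn, hab, ha, hb, Finset.mem_insert, false_or, if_true, not_false_iff,
            hT', if_false]
          simp [hT']

lemma posDef_conj_signD (j : ι) (X : Matrix ι ι ℂ) (hX : X.PosDef) :
    (signD j * X * signD j).PosDef := by
  have hp : (signD j * X * signD j).PosSemidef := by
    have := hX.posSemidef.conjTranspose_mul_mul_same (signD j)
    rwa [signD_conj] at this
  rw [hp.posDef_iff_det_ne_zero, det_mul, det_mul]
  have hdT : (signD j).det * (signD j).det = 1 := by rw [← det_mul, signD_sq, det_one]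
  have : (signD j).det ≠ 0 := by
    intro h0; rw [h0, zero_mul] at hdT; exact zero_ne_one hdT
  exact mul_ne_zero (mul_ne_zero this hX.det_pos.ne') this

lemma posDef_half_add (X Y : Matrix ι ι ℂ) (hX : X.PosDef) (hY : Y.PosDef) :
    ((1 / 2 : ℂ) • (X + Y)).PosDef := by
  have h := posDef_convex_comb X Y hX hY (1 / 2) (1 / 2) (by norm_num) (by norm_num) (by norm_num)
  have e : (1 / 2 : ℂ) • (X + Y) = (((1 / 2 : ℝ) : ℂ)) • X + (((1 / 2 : ℝ) : ℂ)) • Y := by
    push_cast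
    rw [smul_add]
  rwa [e]

lemma posDef_pinchOn (T : Finset ι) (x : Matrix ι ι ℂ) (hx : x.PosDef) : (pinchOn T x).PosDef := by
  induction T using Finset.induction_on with
  | empty => rwa [pinchOn_empty]
  | insert j T _ ih =>
    rw [pinchOn_insert]
    exact posDef_half_add _ _ ih (posDef_conj_signD j _ ih)

lemma posDef_fromBlocks_diag (x z : Matrix ι ι ℂ) (hx : x.PosDef) (hz : z.PosDef) :
    (fromBlocks x 0 0 z).PosDef := by
  have hher : (fromBlocks x 0 0 z).IsHermitian := by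
    apply IsHermitian.fromBlocks hx.1 (by simp) hz.1
  refine PosDef.of_dotProduct_mulVec_pos hher ?_
  intro v hv
  have hsplit : star v ⬝ᵥ (fromBlocks x 0 0 z *ᵥ v) =
      star (v ∘ Sum.inl) ⬝ᵥ (x *ᵥ (v ∘ Sum.inl)) + star (v ∘ Sum.inr) ⬝ᵥ (z *ᵥ (v ∘ Sum.inr)) := by
    obtain ⟨v₁, v₂, rfl⟩ : ∃ v₁ v₂, v = Sum.elim v₁ v₂ :=
      ⟨v ∘ Sum.inl, v ∘ Sum.inr, by ext (i | i) <;> rfl⟩
    rw [fromBlocks_mulVec]
    simp only [dotProduct, Fintype.sum_sum_type, Pi.star_apply, Sum.elim_inl, Sum.elim_inr,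
      Matrix.zero_mulVec, add_zero, zero_add, Sum.elim_comp_inl, Sum.elim_comp_inr]
  rw [hsplit]
  by_cases h1 : v ∘ Sum.inl = 0
  · have h2 : v ∘ Sum.inr ≠ 0 := by
      intro h2
      apply hv
      ext (i | i)
      · exact congrFun h1 i
      · exact congrFun h2 i
    rw [h1]
    simpa using hz.dotProduct_mulVec_pos h2
  · have hp1 := hx.dotProduct_mulVec_pos h1
    have hp2 := hz.posSemidef.dotProduct_mulVec_nonneg (v ∘ Sum.inr)
    exact add_pos_of_pos_of_nonneg hp1 hp2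

/-- One step for the chiral block matrix. -/
lemma chiral_step (j : ι) (x z : Matrix ι ι ℂ) (hx : x.PosDef) (hz : z.PosDef) (g : ι → ℝ) :
    ‖det (fromBlocks ((1 / 2 : ℂ) • (x + signD j * x * signD j))
        (-diagonal (fun k => (g k : ℂ))) (diagonal (fun k => (g k : ℂ)))
        ((1 / 2 : ℂ) • (z + signD j * z * signD j)))‖ /
      ((det ((1 / 2 : ℂ) • (x + signD j * x * signD j))).re *
        (det ((1 / 2 : ℂ) • (z + signD j * z * signD j))).re) ≤
    ‖det (fromBlocks x (-diagonal (fun k => (g k : ℂ))) (diagonal (fun k => (g k : ℂ))) z)‖ /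
      ((det x).re * (det z).re) := by
  set Γ : Matrix ι ι ℂ := diagonal (fun k => (g k : ℂ)) with hΓ
  let S : Matrix (ι ⊕ ι) (ι ⊕ ι) ℂ := fromBlocks 0 (-Γ) Γ 0
  let T : Matrix (ι ⊕ ι) (ι ⊕ ι) ℂ := fromBlocks (signD j) 0 0 (signD j)
  let D : Matrix (ι ⊕ ι) (ι ⊕ ι) ℂ := fromBlocks x 0 0 z
  have hΓh : Γᴴ = Γ := by
    rw [hΓ, diagonal_conjTranspose]
    congr 1
    ext k
    simp
  have hS : Sᴴ = -S := by
    simp only [S, fromBlocks_conjTranspose, fromBlocks_neg, conjTranspose_zero, conjTranspose_neg,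
      hΓh, neg_zero, neg_neg]
  have hT : Tᴴ = T := by
    simp only [T, fromBlocks_conjTranspose, conjTranspose_zero, signD_conj]
  have hT2 : T * T = 1 := by
    simp only [T, fromBlocks_multiply, signD_sq, Matrix.mul_zero, Matrix.zero_mul, add_zero,
      zero_add, fromBlocks_one]
  have hΓcomm : signD j * Γ = Γ * signD j := by
    simp only [signD, hΓ, diagonal_mul_diagonal]
    congr 1
    ext k
    ring
  have hTS : T * S = S * T := by
    simp only [T, S, fromBlocks_multiply, Matrix.mul_zero, Matrix.zero_mul, add_zero, zero_add,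
      Matrix.mul_neg, Matrix.neg_mul, hΓcomm, neg_zero]
  have hD : D.PosDef := posDef_fromBlocks_diag x z hx hz
  have key := pinch_step D S T hD hS hT hT2 hTS
  have e1 : (1 / 2 : ℂ) • (D + T * D * T) =
      fromBlocks ((1 / 2 : ℂ) • (x + signD j * x * signD j)) 0 0
        ((1 / 2 : ℂ) • (z + signD j * z * signD j)) := by
    simp only [T, D, fromBlocks_multiply, Matrix.mul_zero, Matrix.zero_mul, add_zero, zero_add,
      fromBlocks_add, fromBlocks_smul, smul_zero]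
  have e2 : ∀ (u v : Matrix ι ι ℂ), fromBlocks u 0 0 v + S = fromBlocks u (-Γ) Γ v := by
    intro u v
    simp only [S, fromBlocks_add, add_zero, zero_add]
  rw [e1, e2] at key
  have e3 : D + S = fromBlocks x (-Γ) Γ z := e2 x z
  rw [e3] at key
  simp only [D, det_fromBlocks_zero₂₁] at key
  have hx1 := hx.det_pos
  have hz1 := hz.det_pos
  have hpr : ∀ u v : ℂ, 0 < u → 0 < v → (u * v).re = u.re * v.re := by
    intro u v hu hv
    have h1 : u.im = 0 := ((Complex.lt_def.mp hu).2).symm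
    simp [Complex.mul_re, h1]
  have hx2 : (posDef_half_add _ _ hx (posDef_conj_signD j _ hx)).det_pos =
      (posDef_half_add _ _ hx (posDef_conj_signD j _ hx)).det_pos := rfl
  rw [hpr _ _ hx1 hz1, hpr _ _ (posDef_half_add _ _ hx (posDef_conj_signD j _ hx)).det_pos
    (posDef_half_add _ _ hz (posDef_conj_signD j _ hz)).det_pos] at key
  exact key

/-- Iterating the step over the pinching set. -/
lemma chiral_pinch (T : Finset ι) (x z : Matrix ι ι ℂ) (hx : x.PosDef) (hz : z.PosDef)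
    (g : ι → ℝ) :
    ‖det (fromBlocks (pinchOn T x) (-diagonal (fun k => (g k : ℂ)))
        (diagonal (fun k => (g k : ℂ))) (pinchOn T z))‖ /
      ((det (pinchOn T x)).re * (det (pinchOn T z)).re) ≤
    ‖det (fromBlocks x (-diagonal (fun k => (g k : ℂ))) (diagonal (fun k => (g k : ℂ))) z)‖ /
      ((det x).re * (det z).re) := by
  induction T using Finset.induction_on with
  | empty => simp only [pinchOn_empty]; exact le_rfl
  | insert j T _ ih =>
    refine le_trans ?_ ih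
    rw [pinchOn_insert, pinchOn_insert]
    exact chiral_step j _ _ (posDef_pinchOn T x hx) (posDef_pinchOn T z hz) g

/-- Determinant of a chiral block matrix with diagonal blocks. -/
lemma det_chiral_diagonal (a b g : ι → ℝ) (ha : ∀ k, 0 < a k) :
    det (fromBlocks (diagonal (fun k => (a k : ℂ))) (-diagonal (fun k => (g k : ℂ)))
        (diagonal (fun k => (g k : ℂ))) (diagonal (fun k => (b k : ℂ)))) =
      ∏ k, ((a k * b k + (g k) ^ 2 : ℝ) : ℂ) := by
  have hane : ∀ k, (a k : ℂ) ≠ 0 := fun k => by exact_mod_cast (ha k).ne'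
  have hinv : (diagonal (fun k => (a k : ℂ))) * diagonal (fun k => ((a k)⁻¹ : ℂ)) = 1 := by
    rw [diagonal_mul_diagonal, ← diagonal_one]
    congr 1
    ext k
    exact mul_inv_cancel₀ (hane k)
  have hinv2 : diagonal (fun k => ((a k)⁻¹ : ℂ)) * (diagonal (fun k => (a k : ℂ))) = 1 := by
    rw [diagonal_mul_diagonal, ← diagonal_one]
    congr 1
    ext k
    exact inv_mul_cancel₀ (hane k)
  let _ : Invertible (diagonal (fun k => (a k : ℂ))) :=
    ⟨diagonal (fun k => ((a k)⁻¹ : ℂ)), hinv2, hinv⟩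
  rw [det_fromBlocks₁₁]
  have : (⅟(diagonal (fun k => (a k : ℂ))) : Matrix ι ι ℂ) = diagonal (fun k => ((a k)⁻¹ : ℂ)) := rfl
  rw [this]
  have e : diagonal (fun k => (b k : ℂ)) - diagonal (fun k => (g k : ℂ)) *
      diagonal (fun k => ((a k)⁻¹ : ℂ)) * (-diagonal (fun k => (g k : ℂ))) =
      diagonal (fun k => (b k : ℂ) + (g k : ℂ) * (a k : ℂ)⁻¹ * (g k : ℂ)) := by
    rw [Matrix.mul_neg, sub_neg_eq_add, diagonal_mul_diagonal, diagonal_mul_diagonal,
      diagonal_add]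
  rw [e, det_diagonal, det_diagonal, ← Finset.prod_mul_distrib]
  refine Finset.prod_congr rfl fun k _ => ?_
  push_cast
  field_simp [hane k]

/-- The determinant pinching inequality. -/
theorem pin_det (x z : Matrix ι ι ℂ) (hx : x.PosDef) (hz : z.PosDef) (g : ι → ℝ) :
    ∏ k, (1 + (g k) ^ 2 / ((x k k).re * (z k k).re)) ≤
      ‖det (fromBlocks x (-diagonal (fun k => (g k : ℂ))) (diagonal (fun k => (g k : ℂ))) z)‖ /
        ((det x).re * (det z).re) := by
  have key := chiral_pinch Finset.univ x z hx hz g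
  rw [pinchOn_univ, pinchOn_univ] at key
  refine le_trans (le_of_eq ?_) key
  have hxd : ∀ k, x k k = (((x k k).re : ℝ) : ℂ) := by
    intro k
    have := (Complex.lt_def.mp (hx.diag_pos (i := k))).2
    apply Complex.ext <;> simp
    simpa using this.symm
  have hzd : ∀ k, z k k = (((z k k).re : ℝ) : ℂ) := by
    intro k
    have := (Complex.lt_def.mp (hz.diag_pos (i := k))).2
    apply Complex.ext <;> simp
    simpa using this.symm
  have hap : ∀ k, 0 < (x k k).re := fun k => by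
    simpa using (Complex.lt_def.mp (hx.diag_pos (i := k))).1
  have hbp : ∀ k, 0 < (z k k).re := fun k => by
    simpa using (Complex.lt_def.mp (hz.diag_pos (i := k))).1
  have e1 : (fun k => x k k) = fun k => (((x k k).re : ℝ) : ℂ) := funext hxd
  have e2 : (fun k => z k k) = fun k => (((z k k).re : ℝ) : ℂ) := funext hzd
  rw [e1, e2, det_chiral_diagonal _ _ _ hap, det_diagonal, det_diagonal]
  rw [← Complex.ofReal_prod, ← Complex.ofReal_prod, ← Complex.ofReal_prod, Complex.norm_real,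
    Complex.ofReal_re, Complex.ofReal_re, Real.norm_of_nonneg
      (Finset.prod_nonneg fun k _ => by have := hap k; have := hbp k; positivity),
    ← Finset.prod_mul_distrib, ← Finset.prod_div_distrib]
  refine Finset.prod_congr rfl fun k _ => ?_
  have := hap k
  have := hbp k
  field_simp

end Vale.Agent.P358
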