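import Vale.Agent.Lib.P358.PinDet
import Vale.Agent.Lib.P358.Identity

/-!
# P358: the pointwise in `y` inequality
-/

open Matrix Real
open scoped ComplexOrder

namespace Vale.Agent.P358

variable {β : Type} [Fintype β] [DecidableEq β]

/-- The log-determinant of `1 + X / y` through the determinant of `y + X`. -/
lemma LD_eq_log {ι : Type} [Fintype ι] [DecidableEq ι] (X : Matrix ι ι ℂ) {y : ℝ} (hy : 0 < y)
    (hpos : 0 < det (((y : ℝ) : ℂ) • (1 : Matrix ι ι ℂ) + X)) :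
    LD X y = Real.log (det (((y : ℝ) : ℂ) • (1 : Matrix ι ι ℂ) + X)).re
      - (Fintype.card ι : ℝ) * Real.log y := by
  unfold LD
  have hyc : ((y : ℝ) : ℂ) ≠ 0 := by exact_mod_cast hy.ne'
  have e : (1 : Matrix ι ι ℂ) + ((y⁻¹ : ℝ) : ℂ) • X =
      ((y⁻¹ : ℝ) : ℂ) • (((y : ℝ) : ℂ) • (1 : Matrix ι ι ℂ) + X) := by
    rw [smul_add, smul_smul, Complex.ofReal_inv, inv_mul_cancel₀ hyc, one_smul]
  rw [e, det_smul, ← Complex.ofReal_pow, Complex.re_ofReal_mul]
  have hre : 0 < (det (((y : ℝ) : ℂ) • (1 : Matrix ι ι ℂ) + X)).re :=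
    (Complex.pos_iff.1 hpos).1
  rw [Real.log_mul (by positivity) hre.ne', Real.log_pow, Real.log_inv]
  ring

/-- Conjugating a shift of a matrix by a unitary. -/
lemma det_shift_conj {y t : ℝ} (X U : Matrix β β ℂ) (hU : U ∈ unitaryGroup β ℂ) :
    det (((y : ℝ) : ℂ) • (1 : Matrix β β ℂ) + ((t : ℝ) : ℂ) • (Uᴴ * X * U)) =
      det (((y : ℝ) : ℂ) • (1 : Matrix β β ℂ) + ((t : ℝ) : ℂ) • X) := by
  have h1 : Uᴴ * U = 1 := by
    have := (mem_unitaryGroup_iff').1 hU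
    simpa [star_eq_conjTranspose] using this
  have h2 : U * Uᴴ = 1 := by
    have := (mem_unitaryGroup_iff).1 hU
    simpa [star_eq_conjTranspose] using this
  have e : ((y : ℝ) : ℂ) • (1 : Matrix β β ℂ) + ((t : ℝ) : ℂ) • (Uᴴ * X * U) =
      Uᴴ * (((y : ℝ) : ℂ) • (1 : Matrix β β ℂ) + ((t : ℝ) : ℂ) • X) * U := by
    rw [Matrix.mul_add, Matrix.add_mul, mul_smul_comm, smul_mul_assoc, Matrix.mul_one, h1,
      mul_smul_comm, smul_mul_assoc]
  rw [e, det_conj_of_mul_eq_one h1 h2]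

/-- For `A = U diag(g) V†`: the log-determinant integrand decreases under pinching. -/
theorem pin_y (c s y : ℝ) (hy : 0 < y) (A B₁ B₂ U V : Matrix β β ℂ) (g : β → ℝ)
    (hU : U ∈ unitaryGroup β ℂ) (hV : V ∈ unitaryGroup β ℂ)
    (hA : A = U * diagonal (fun k => (g k : ℂ)) * Vᴴ) :
    ∑ k, Real.log (1 + y * (g k) ^ 2 /
        ((y + s ^ 2 * ((Uᴴ * (B₁ * B₁ᴴ) * U) k k).re) *
         (y + c ^ 2 * ((Vᴴ * (B₂ᴴ * B₂) * V) k k).re))) ≤
      LD (sigmaBlock c s A B₁ B₂) y - LD (((s ^ 2 : ℝ) : ℂ) • (B₁ * B₁ᴴ)) y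
        - LD (((c ^ 2 : ℝ) : ℂ) • (B₂ᴴ * B₂)) y := by
  have hUU : Uᴴ * U = 1 := by
    have := (mem_unitaryGroup_iff').1 hU
    simpa [star_eq_conjTranspose] using this
  have hUU' : U * Uᴴ = 1 := by
    have := (mem_unitaryGroup_iff).1 hU
    simpa [star_eq_conjTranspose] using this
  have hVV : Vᴴ * V = 1 := by
    have := (mem_unitaryGroup_iff').1 hV
    simpa [star_eq_conjTranspose] using this
  have hVV' : V * Vᴴ = 1 := by
    have := (mem_unitaryGroup_iff).1 hV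
    simpa [star_eq_conjTranspose] using this
  have hyc : (0 : ℂ) < ((y : ℝ) : ℂ) := by exact_mod_cast hy
  set R₁ : Matrix β β ℂ := B₁ * B₁ᴴ with hR₁
  set R₂ : Matrix β β ℂ := B₂ᴴ * B₂ with hR₂
  set x : Matrix β β ℂ := ((y : ℝ) : ℂ) • 1 + ((s ^ 2 : ℝ) : ℂ) • (Uᴴ * R₁ * U) with hx
  set z : Matrix β β ℂ := ((y : ℝ) : ℂ) • 1 + ((c ^ 2 : ℝ) : ℂ) • (Vᴴ * R₂ * V) with hz
  have hxpd : x.PosDef := by
    have := posDef_shift y s hy (Uᴴ * B₁)
    have e : (Uᴴ * B₁) * (Uᴴ * B₁)ᴴ = Uᴴ * R₁ * U := by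
      simp only [hR₁, conjTranspose_mul, conjTranspose_conjTranspose, Matrix.mul_assoc]
    rw [e] at this
    exact this
  have hzpd : z.PosDef := by
    have := posDef_shift y c hy (Vᴴ * B₂ᴴ)
    have e : (Vᴴ * B₂ᴴ) * (Vᴴ * B₂ᴴ)ᴴ = Vᴴ * R₂ * V := by
      simp only [hR₂, conjTranspose_mul, conjTranspose_conjTranspose, Matrix.mul_assoc]
    rw [e] at this
    exact this
  have hxdet : det x = det (((y : ℝ) : ℂ) • (1 : Matrix β β ℂ) + ((s ^ 2 : ℝ) : ℂ) • R₁) :=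
    det_shift_conj R₁ U hU
  have hzdet : det z = det (((y : ℝ) : ℂ) • (1 : Matrix β β ℂ) + ((c ^ 2 : ℝ) : ℂ) • R₂) :=
    det_shift_conj R₂ V hV
  have hxpos : 0 < det x := hxpd.det_pos
  have hzpos : 0 < det z := hzpd.det_pos
  -- the big matrix
  set D : Matrix (β ⊕ β) (β ⊕ β) ℂ :=
    ((y : ℝ) : ℂ) • (1 : Matrix (β ⊕ β) (β ⊕ β) ℂ) + sigmaBlock c s A B₁ B₂ with hD
  have hDpd : D.PosDef := by
    have h1 : (((y : ℝ) : ℂ) • (1 : Matrix (β ⊕ β) (β ⊕ β) ℂ)).PosDef := PosDef.one.smul hyc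
    exact h1.add_posSemidef (sigmaBlock_posSemidef c s A B₁ B₂)
  have hDpos : 0 < det D := hDpd.det_pos
  set g' : β → ℝ := fun k => √y * g k with hg'
  have hdetD : det D = det (fromBlocks x (-diagonal (fun k => (g' k : ℂ)))
      (diagonal (fun k => (g' k : ℂ))) z) := by
    rw [hD, det_identity c s y hy A B₁ B₂]
    have hdiag : diagonal (fun k => (g' k : ℂ)) =
        ((√y : ℝ) : ℂ) • diagonal (fun k => (g k : ℂ)) := by
      ext i j
      by_cases h : i = j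
      · subst h; simp [hg']
      · simp [diagonal_apply_ne _ h]
    have e1 : (U * x * Uᴴ) = ((y : ℝ) : ℂ) • (1 : Matrix β β ℂ) + ((s ^ 2 : ℝ) : ℂ) • R₁ := by
      rw [hx, Matrix.mul_add, Matrix.add_mul, mul_smul_comm, smul_mul_assoc, Matrix.mul_one, hUU',
        mul_smul_comm, smul_mul_assoc]
      congr 2
      calc U * (Uᴴ * R₁ * U) * Uᴴ = (U * Uᴴ) * R₁ * (U * Uᴴ) := by simp only [Matrix.mul_assoc]
        _ = R₁ := by rw [hUU']; simp
    have e2 : (V * z * Vᴴ) = ((y : ℝ) : ℂ) • (1 : Matrix β β ℂ) + ((c ^ 2 : ℝ) : ℂ) • R₂ := by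
      rw [hz, Matrix.mul_add, Matrix.add_mul, mul_smul_comm, smul_mul_assoc, Matrix.mul_one, hVV',
        mul_smul_comm, smul_mul_assoc]
      congr 2
      calc V * (Vᴴ * R₂ * V) * Vᴴ = (V * Vᴴ) * R₂ * (V * Vᴴ) := by simp only [Matrix.mul_assoc]
        _ = R₂ := by rw [hVV']; simp
    have hd : (diagonal (fun k => (g k : ℂ)))ᴴ = diagonal (fun k => (g k : ℂ)) := by
      ext i j
      by_cases h : i = j
      · subst h; simp
      · have h' : j ≠ i := fun e => h e.symm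
        simp [conjTranspose_apply, diagonal_apply_ne _ h, diagonal_apply_ne _ h']
    have hAh : Aᴴ = V * diagonal (fun k => (g k : ℂ)) * Uᴴ := by
      rw [hA, conjTranspose_mul, conjTranspose_mul, conjTranspose_conjTranspose, hd,
        Matrix.mul_assoc]
    have hconj : fromBlocks U 0 0 V * fromBlocks x (-diagonal (fun k => (g' k : ℂ)))
        (diagonal (fun k => (g' k : ℂ))) z * fromBlocks Uᴴ 0 0 Vᴴ =
        fromBlocks (((y : ℝ) : ℂ) • (1 : Matrix β β ℂ) + ((s ^ 2 : ℝ) : ℂ) • R₁)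
          (-(((√y : ℝ) : ℂ) • A)) (((√y : ℝ) : ℂ) • Aᴴ)
          (((y : ℝ) : ℂ) • (1 : Matrix β β ℂ) + ((c ^ 2 : ℝ) : ℂ) • R₂) := by
      rw [fromBlocks_multiply, fromBlocks_multiply]
      simp only [Matrix.zero_mul, Matrix.mul_zero, add_zero, zero_add]
      have e3 : U * -diagonal (fun k => (g' k : ℂ)) * Vᴴ = -(((√y : ℝ) : ℂ) • A) := by
        rw [hdiag, hA]
        simp only [Matrix.mul_neg, Matrix.neg_mul, mul_smul_comm, smul_mul_assoc]
      have e4 : V * diagonal (fun k => (g' k : ℂ)) * Uᴴ = ((√y : ℝ) : ℂ) • Aᴴ := by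
        rw [hdiag, hAh]
        simp only [mul_smul_comm, smul_mul_assoc]
      rw [e1, e2, e3, e4]
    rw [← hconj, det_conj_of_mul_eq_one]
    · rw [fromBlocks_multiply]
      simp [hUU', hVV']
    · rw [fromBlocks_multiply]
      simp [hUU, hVV]
  have hpin := pin_det x z hxpd hzpd g'
  rw [← hdetD] at hpin
  -- positivity of the diagonal entries
  have hxk : ∀ k, (x k k).re = y + s ^ 2 * ((Uᴴ * R₁ * U) k k).re := by
    intro k
    simp only [hx, Matrix.add_apply, Matrix.smul_apply, smul_eq_mul, Matrix.one_apply_eq, mul_one,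
      Complex.add_re, Complex.ofReal_re, Complex.re_ofReal_mul]
  have hzk : ∀ k, (z k k).re = y + c ^ 2 * ((Vᴴ * R₂ * V) k k).re := by
    intro k
    simp only [hz, Matrix.add_apply, Matrix.smul_apply, smul_eq_mul, Matrix.one_apply_eq, mul_one,
      Complex.add_re, Complex.ofReal_re, Complex.re_ofReal_mul]
  have hxk0 : ∀ k, 0 < (x k k).re := fun k => (Complex.pos_iff.1 (hxpd.diag_pos (i := k))).1
  have hzk0 : ∀ k, 0 < (z k k).re := fun k => (Complex.pos_iff.1 (hzpd.diag_pos (i := k))).1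
  have hterm : ∀ k, 1 + y * (g k) ^ 2 / ((x k k).re * (z k k).re) =
      1 + (g' k) ^ 2 / ((x k k).re * (z k k).re) := by
    intro k
    simp only [hg', mul_pow, Real.sq_sqrt hy.le]
  -- log of the product
  have hlog : ∑ k, Real.log (1 + y * (g k) ^ 2 / ((x k k).re * (z k k).re)) =
      Real.log (∏ k, (1 + (g' k) ^ 2 / ((x k k).re * (z k k).re))) := by
    rw [Real.log_prod]
    · exact Finset.sum_congr rfl (fun k _ => by rw [hterm])
    · intro k _
      have : 0 < 1 + (g' k) ^ 2 / ((x k k).re * (z k k).re) := by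
        have := mul_pos (hxk0 k) (hzk0 k)
        positivity
      exact this.ne'
  have hprodpos : 0 < ∏ k, (1 + (g' k) ^ 2 / ((x k k).re * (z k k).re)) :=
    Finset.prod_pos (fun k _ => by
      have := mul_pos (hxk0 k) (hzk0 k)
      positivity)
  have hDre : 0 < (det D).re := (Complex.pos_iff.1 hDpos).1
  have hxre : 0 < (det x).re := (Complex.pos_iff.1 hxpos).1
  have hzre : 0 < (det z).re := (Complex.pos_iff.1 hzpos).1
  have hnorm : ‖det D‖ = (det D).re := by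
    have him : (det D).im = 0 := ((Complex.pos_iff.1 hDpos).2).symm
    have : det D = (((det D).re : ℝ) : ℂ) := by
      apply Complex.ext <;> simp [him]
    rw [this, Complex.norm_real, Real.norm_of_nonneg]
    · simp
    · simpa using hDre.le
  rw [hnorm] at hpin
  have hlog2 := Real.log_le_log hprodpos hpin
  rw [Real.log_div hDre.ne' (mul_pos hxre hzre).ne', Real.log_mul hxre.ne' hzre.ne'] at hlog2
  -- the LD terms
  have hL1 : LD (sigmaBlock c s A B₁ B₂) y = Real.log (det D).re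
      - ((Fintype.card (β ⊕ β) : ℕ) : ℝ) * Real.log y := LD_eq_log _ hy hDpos
  have hL2 : LD (((s ^ 2 : ℝ) : ℂ) • R₁) y = Real.log (det x).re
      - (Fintype.card β : ℝ) * Real.log y := by
    rw [hxdet] at hxpos ⊢
    exact LD_eq_log _ hy hxpos
  have hL3 : LD (((c ^ 2 : ℝ) : ℂ) • R₂) y = Real.log (det z).re
      - (Fintype.card β : ℝ) * Real.log y := by
    rw [hzdet] at hzpos ⊢
    exact LD_eq_log _ hy hzpos
  rw [hL1, hL2, hL3]
  have hcard : ((Fintype.card (β ⊕ β) : ℕ) : ℝ) = 2 * (Fintype.card β : ℝ) := by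
    rw [Fintype.card_sum]; push_cast; ring
  rw [hcard]
  have hlhs : ∑ k, Real.log (1 + y * (g k) ^ 2 /
        ((y + s ^ 2 * ((Uᴴ * R₁ * U) k k).re) * (y + c ^ 2 * ((Vᴴ * R₂ * V) k k).re))) =
      ∑ k, Real.log (1 + y * (g k) ^ 2 / ((x k k).re * (z k k).re)) :=
    Finset.sum_congr rfl (fun k _ => by rw [hxk, hzk])
  rw [hlhs, hlog]
  linarith

end Vale.Agent.P358
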