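import Vale.Agent.Lib.P358.Defs

/-!
# P358: spectral sums of Hermitian matrices (entropy in nats)
-/

open Matrix Real
open scoped ComplexOrder

namespace Vale.Agent.P358

variable {ι κ : Type} [Fintype ι] [DecidableEq ι] [Fintype κ] [DecidableEq κ]

/-- Von Neumann entropy in nats, junk value `0` on non-Hermitian input. -/
noncomputable def stil (X : Matrix ι ι ℂ) : ℝ :=
  open Classical in
  if h : X.IsHermitian then ∑ i, negMulLog (h.eigenvalues i) else 0

lemma stil_eq (X : Matrix ι ι ℂ) (h : X.IsHermitian) :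
    stil X = ∑ i, negMulLog (h.eigenvalues i) := by
  unfold stil; rw [dif_pos h]

lemma entropy_eq_stil (X : Matrix ι ι ℂ) : entropy X = stil X / Real.log 2 := by
  unfold entropy stil
  by_cases h : X.IsHermitian
  · rw [dif_pos h, dif_pos h]
  · rw [dif_neg h, dif_neg h]; simp

/-- Spectral sums depend only on the roots of the characteristic polynomial. -/
lemma sum_eigenvalues_comp (X : Matrix ι ι ℂ) (h : X.IsHermitian) (φ : ℝ → ℝ) :
    ∑ i, φ (h.eigenvalues i) = (X.charpoly.roots.map (fun z => φ z.re)).sum := by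
  rw [h.roots_charpoly_eq_eigenvalues, Multiset.map_map, Finset.sum_eq_multiset_sum]
  congr 2

/-- A Hermitian matrix whose characteristic polynomial has prescribed real roots. -/
lemma sum_eigenvalues_of_charpoly (X : Matrix ι ι ℂ) (h : X.IsHermitian) (φ : ℝ → ℝ)
    (d : ι → ℝ) (hX : X.charpoly = ∏ i, (Polynomial.X - Polynomial.C (d i : ℂ))) :
    ∑ i, φ (h.eigenvalues i) = ∑ i, φ (d i) := by
  rw [sum_eigenvalues_comp, hX, Polynomial.roots_prod]
  · simp only [Polynomial.roots_X_sub_C, Multiset.bind_singleton, Multiset.map_map]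
    rw [Finset.sum_eq_multiset_sum]
    congr 2
  · exact Finset.prod_ne_zero_iff.mpr fun i _ => Polynomial.X_sub_C_ne_zero _

lemma isHermitian_unitary_diag (U : Matrix ι ι ℂ) (d : ι → ℝ) :
    (U * diagonal (fun i => (d i : ℂ)) * Uᴴ).IsHermitian := by
  unfold IsHermitian
  have hd : star (fun i => (d i : ℂ)) = fun i => (d i : ℂ) := by
    funext i
    simp
  rw [conjTranspose_mul, conjTranspose_mul, conjTranspose_conjTranspose, diagonal_conjTranspose,
    hd, Matrix.mul_assoc]

lemma charpoly_unitary_diag (U : Matrix ι ι ℂ) (hU : U ∈ unitaryGroup ι ℂ) (d : ι → ℝ) :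
    (U * diagonal (fun i => (d i : ℂ)) * Uᴴ).charpoly
      = ∏ i, (Polynomial.X - Polynomial.C (d i : ℂ)) := by
  rw [charpoly_mul_comm, ← Matrix.mul_assoc]
  have h1 : Uᴴ * U = 1 := by
    have := (mem_unitaryGroup_iff' (A := U)).mp hU
    simpa [star_eq_conjTranspose] using this
  rw [h1, Matrix.one_mul, charpoly_diagonal]

/-- If `X = U diag(d) U†` with `U` unitary and `d` real then the entropy is the sum over `d`. -/
lemma stil_of_unitary_diag (U : Matrix ι ι ℂ) (hU : U ∈ unitaryGroup ι ℂ) (d : ι → ℝ)
    (X : Matrix ι ι ℂ) (hX : X = U * diagonal (fun i => (d i : ℂ)) * Uᴴ) :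
    stil X = ∑ i, negMulLog (d i) := by
  subst hX
  rw [stil_eq _ (isHermitian_unitary_diag U d)]
  exact sum_eigenvalues_of_charpoly _ _ _ d (charpoly_unitary_diag U hU d)

lemma stil_diagonal (d : ι → ℝ) : stil (diagonal (fun i => (d i : ℂ))) = ∑ i, negMulLog (d i) := by
  refine stil_of_unitary_diag 1 (one_mem _) d _ ?_
  simp

/-- Spectral theorem in the form used here. -/
lemma exists_unitary_diag (X : Matrix ι ι ℂ) (h : X.IsHermitian) :
    ∃ U : Matrix ι ι ℂ, U ∈ unitaryGroup ι ℂ ∧
      X = U * diagonal (fun i => ((h.eigenvalues i : ℝ) : ℂ)) * Uᴴ := by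
  refine ⟨(h.eigenvectorUnitary : Matrix ι ι ℂ), h.eigenvectorUnitary.2, ?_⟩
  have := h.spectral_theorem
  rw [Unitary.conjStarAlgAut_apply] at this
  simpa [Function.comp_def, star_eq_conjTranspose] using this

/-- `AB` and `BA` have the same non-zero spectrum. -/
lemma stil_mul_comm {m n : Type} [Fintype m] [DecidableEq m] [Fintype n] [DecidableEq n]
    (A : Matrix m n ℂ) (B : Matrix n m ℂ) (h₁ : (A * B).IsHermitian) (h₂ : (B * A).IsHermitian) :
    stil (A * B) = stil (B * A) := by
  rw [stil_eq _ h₁, stil_eq _ h₂, sum_eigenvalues_comp, sum_eigenvalues_comp]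
  have key := charpoly_mul_comm' A B
  have hne : Polynomial.X ^ Fintype.card n * (A * B).charpoly ≠ 0 :=
    mul_ne_zero (pow_ne_zero _ Polynomial.X_ne_zero) (charpoly_monic _).ne_zero
  have hne' : Polynomial.X ^ Fintype.card m * (B * A).charpoly ≠ 0 := by
    rw [← key]; exact hne
  have hr : Fintype.card n • ({0} : Multiset ℂ) + (A * B).charpoly.roots
      = Fintype.card m • ({0} : Multiset ℂ) + (B * A).charpoly.roots := by
    have h1 := Polynomial.roots_mul hne
    have h2 := Polynomial.roots_mul hne'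
    rw [Polynomial.roots_X_pow] at h1 h2
    rw [← h1, ← h2, key]
  have := congrArg (fun s => (s.map (fun z : ℂ => negMulLog z.re)).sum) hr
  simpa [Multiset.map_add, Multiset.sum_add, Multiset.map_nsmul, Multiset.sum_nsmul] using this

/-- Entropy of a real multiple. -/
lemma stil_smul (X : Matrix ι ι ℂ) (hX : X.IsHermitian) (a : ℝ) :
    stil (((a : ℝ) : ℂ) • X) = a * stil X + negMulLog a * (X.trace).re := by
  obtain ⟨U, hU, hUX⟩ := exists_unitary_diag X hX
  have hY : ((a : ℝ) : ℂ) • X
      = U * diagonal (fun i => ((a * hX.eigenvalues i : ℝ) : ℂ)) * Uᴴ := by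
    conv_lhs => rw [hUX]
    have : diagonal (fun i => ((a * hX.eigenvalues i : ℝ) : ℂ))
        = ((a : ℝ) : ℂ) • diagonal (fun i => ((hX.eigenvalues i : ℝ) : ℂ)) := by
      ext i j
      by_cases hij : i = j
      · subst hij; simp
      · simp [hij]
    rw [this, Matrix.mul_smul, Matrix.smul_mul]
  rw [stil_of_unitary_diag U hU _ _ hY, stil_eq X hX]
  have htr : (X.trace).re = ∑ i, hX.eigenvalues i := by
    rw [hX.trace_eq_sum_eigenvalues]
    simp
  rw [htr, Finset.mul_sum, Finset.mul_sum, ← Finset.sum_add_distrib]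
  refine Finset.sum_congr rfl fun i _ => ?_
  rw [negMulLog_mul]
  ring

/-- Reindexing does not change the entropy. -/
lemma stil_reindex (e : ι ≃ κ) (X : Matrix ι ι ℂ) :
    stil (X.submatrix e.symm e.symm) = stil X := by
  by_cases h : X.IsHermitian
  · have h' : (X.submatrix e.symm e.symm).IsHermitian := h.submatrix _
    rw [stil_eq _ h', stil_eq _ h, sum_eigenvalues_comp, sum_eigenvalues_comp]
    have : (X.submatrix e.symm e.symm).charpoly = X.charpoly := by
      have := charpoly_reindex e X
      simpa [reindex_apply] using this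
    rw [this]
  · have h' : ¬ (X.submatrix e.symm e.symm).IsHermitian := by
      intro hh
      apply h
      have := hh.submatrix e
      simpa using this
    unfold stil
    rw [dif_neg h, dif_neg h']

/-- Sum of eigenvalues is the trace. -/
lemma sum_eigenvalues_eq_trace (X : Matrix ι ι ℂ) (h : X.IsHermitian) :
    ∑ i, h.eigenvalues i = (X.trace).re := by
  rw [h.trace_eq_sum_eigenvalues]
  simp

/-- The real log-determinant occurring in the integral formula for the entropy. -/
noncomputable def LD (X : Matrix ι ι ℂ) (y : ℝ) : ℝ :=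
  Real.log (det (1 + ((y⁻¹ : ℝ) : ℂ) • X)).re

/-- Log-determinant in terms of eigenvalues. -/
lemma LD_eq_sum (X : Matrix ι ι ℂ) (hX : X.PosSemidef) {y : ℝ} (hy : 0 < y) :
    LD X y = ∑ i, Real.log (1 + hX.isHermitian.eigenvalues i / y) := by
  obtain ⟨U, hU, hUX⟩ := exists_unitary_diag X hX.isHermitian
  have h1 : Uᴴ * U = 1 := by
    have := (mem_unitaryGroup_iff' (A := U)).mp hU
    simpa [star_eq_conjTranspose] using this
  have h2 : U * Uᴴ = 1 := by
    have := (mem_unitaryGroup_iff (A := U)).mp hU
    simpa [star_eq_conjTranspose] using this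
  have hdet : det (1 + ((y⁻¹ : ℝ) : ℂ) • X)
      = ((∏ i, (1 + hX.isHermitian.eigenvalues i / y) : ℝ) : ℂ) := by
    have hm : 1 + ((y⁻¹ : ℝ) : ℂ) • X
        = U * diagonal (fun i => ((1 + hX.isHermitian.eigenvalues i / y : ℝ) : ℂ)) * Uᴴ := by
      have hd : diagonal (fun i => ((1 + hX.isHermitian.eigenvalues i / y : ℝ) : ℂ))
          = 1 + ((y⁻¹ : ℝ) : ℂ) • diagonal (fun i => ((hX.isHermitian.eigenvalues i : ℝ) : ℂ)) := by
        ext i j
        by_cases hij : i = j
        · subst hij
          simp [div_eq_mul_inv, mul_comm]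
        · simp [hij]
      conv_lhs => rw [hUX]
      rw [hd, Matrix.mul_add, Matrix.add_mul, Matrix.mul_one, h2, Matrix.mul_smul, Matrix.smul_mul]
    rw [hm, det_mul_right_comm, h2, Matrix.one_mul, det_diagonal]
    push_cast
    rfl
  have hpos : ∀ i, 0 < 1 + hX.isHermitian.eigenvalues i / y := fun i => by
    have := hX.eigenvalues_nonneg i
    positivity
  unfold LD
  rw [hdet, Complex.ofReal_re, Real.log_prod]
  intro i _
  exact (hpos i).ne'

/-- Schur's inequality: the entropy is at most the Shannon entropy of the diagonal. -/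
lemma stil_le_diag (X : Matrix ι ι ℂ) (hX : X.PosSemidef) :
    stil X ≤ ∑ w, negMulLog (X w w).re := by
  obtain ⟨U, hU, hUX⟩ := exists_unitary_diag X hX.isHermitian
  have h1 : Uᴴ * U = 1 := by
    have := (mem_unitaryGroup_iff' (A := U)).mp hU
    simpa [star_eq_conjTranspose] using this
  have h2 : U * Uᴴ = 1 := by
    have := (mem_unitaryGroup_iff (A := U)).mp hU
    simpa [star_eq_conjTranspose] using this
  set lam := hX.isHermitian.eigenvalues with hlam
  have hlam0 : ∀ i, 0 ≤ lam i := hX.eigenvalues_nonneg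
  let p : ι → ι → ℝ := fun w i => Complex.normSq (U w i)
  have hp0 : ∀ w i, 0 ≤ p w i := fun w i => Complex.normSq_nonneg _
  have hp1 : ∀ w, ∑ i, p w i = 1 := by
    intro w
    have := congrFun (congrFun h2 w) w
    simp only [Matrix.mul_apply, conjTranspose_apply, one_apply_eq] at this
    have h3 : ((∑ i, p w i : ℝ) : ℂ) = 1 := by
      rw [← this]
      push_cast
      refine Finset.sum_congr rfl fun i _ => ?_
      simp [p, Complex.mul_conj]
    exact_mod_cast h3
  have hp2 : ∀ i, ∑ w, p w i = 1 := by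
    intro i
    have := congrFun (congrFun h1 i) i
    simp only [Matrix.mul_apply, conjTranspose_apply, one_apply_eq] at this
    have h3 : ((∑ w, p w i : ℝ) : ℂ) = 1 := by
      rw [← this]
      push_cast
      refine Finset.sum_congr rfl fun w _ => ?_
      simp [p, mul_comm, Complex.mul_conj]
    exact_mod_cast h3
  have hdiag : ∀ w, (X w w).re = ∑ i, p w i * lam i := by
    intro w
    have : X w w = ((∑ i, p w i * lam i : ℝ) : ℂ) := by
      conv_lhs => rw [hUX]
      rw [Matrix.mul_apply]
      simp only [Matrix.mul_diagonal, conjTranspose_apply]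
      push_cast
      refine Finset.sum_congr rfl fun i _ => ?_
      have : ((p w i : ℝ) : ℂ) = U w i * star (U w i) := by
        simp [p, Complex.mul_conj]
      rw [this]
      ring
    rw [this, Complex.ofReal_re]
  rw [stil_eq X hX.isHermitian]
  have hj : ∀ w, ∑ i, p w i * negMulLog (lam i) ≤ negMulLog (X w w).re := by
    intro w
    rw [hdiag w]
    have := concaveOn_negMulLog.le_map_sum (t := Finset.univ) (w := p w) (p := lam)
      (fun i _ => hp0 w i) (hp1 w) (fun i _ => hlam0 i)
    simpa [smul_eq_mul] using this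
  calc ∑ i, negMulLog (lam i)
      = ∑ i, (∑ w, p w i) * negMulLog (lam i) := by simp [hp2]
    _ = ∑ w, ∑ i, p w i * negMulLog (lam i) := by
        simp only [Finset.sum_mul]
        exact Finset.sum_comm
    _ ≤ ∑ w, negMulLog (X w w).re := Finset.sum_le_sum fun w _ => hj w

/-- Entropy of a `2 × 2` Hermitian matrix from its trace and determinant. -/
lemma stil_two (X : Matrix (Fin 2) (Fin 2) ℂ) (hX : X.IsHermitian) :
    stil X = negMulLog (((X.trace).re + √((X.trace).re ^ 2 - 4 * (X.det).re)) / 2)
      + negMulLog (((X.trace).re - √((X.trace).re ^ 2 - 4 * (X.det).re)) / 2) := by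
  rw [stil_eq X hX, Fin.sum_univ_two]
  set a := hX.eigenvalues 0 with ha
  set b := hX.eigenvalues 1 with hb
  have htr : (X.trace).re = a + b := by
    rw [← sum_eigenvalues_eq_trace X hX, Fin.sum_univ_two]
  have hdet : (X.det).re = a * b := by
    rw [hX.det_eq_prod_eigenvalues, Fin.prod_univ_two]
    simp [ha, hb, ← Complex.ofReal_mul]
  have hs : √((X.trace).re ^ 2 - 4 * (X.det).re) = |a - b| := by
    rw [htr, hdet, ← Real.sqrt_sq_eq_abs]
    congr 1
    ring
  rw [hs, htr]
  rcases le_total b a with hab | hab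
  · rw [abs_of_nonneg (by linarith)]
    have e1 : (a + b + (a - b)) / 2 = a := by ring
    have e2 : (a + b - (a - b)) / 2 = b := by ring
    rw [e1, e2]
  · rw [abs_of_nonpos (by linarith)]
    have e1 : (a + b + -(a - b)) / 2 = b := by ring
    have e2 : (a + b - -(a - b)) / 2 = a := by ring
    rw [e1, e2, add_comm]

/-- Entropy of a positive semidefinite matrix is nonnegative when its trace is at most one. -/
lemma stil_nonneg (X : Matrix ι ι ℂ) (hX : X.PosSemidef) (h : (X.trace).re ≤ 1) : 0 ≤ stil X := by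
  rw [stil_eq X hX.isHermitian]
  refine Finset.sum_nonneg fun i _ => ?_
  refine negMulLog_nonneg (hX.eigenvalues_nonneg i) ?_
  have h0 : hX.isHermitian.eigenvalues i ≤ ∑ j, hX.isHermitian.eigenvalues j :=
    Finset.single_le_sum (f := hX.isHermitian.eigenvalues)
      (fun j _ => hX.eigenvalues_nonneg j) (Finset.mem_univ i)
  rw [sum_eigenvalues_eq_trace X hX.isHermitian] at h0
  linarith

end Vale.Agent.P358
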